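import Vale.Agent.P124.Good

/-! The basic coordinate functions are localized; construction of the killers. -/

namespace Vale.Agent.P124

open scoped InnerProductSpace Topology

theorem hasDerivAt_clm {E : Type*} [NormedAddCommGroup E] [NormedSpace ℝ E] (L : Z →L[ℝ] E)
    (x v : Z) : HasDerivAt (fun s : ℝ => L (x + s • v)) (L v) 0 := by
  simpa using ((hasDerivAt_id (0 : ℝ)).smul_const (L v)).const_add (L x)

theorem hasDerivAt_psi_clm (L : Z →L[ℝ] H × ℝ) {x : Z} (h : 0 < (L x).2) (v : Z) :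
    HasDerivAt (fun s : ℝ => psi (L (x + s • v))) (fderiv ℝ psi (L x) (L v)) 0 := by
  simpa using hasDerivAt_psi h (L v)

theorem DF_apply {w : Co →₀ H} {x v : Z} (hx : Om x) {d : ℝ}
    (h : HasDerivAt (fun s : ℝ => F w (x + s • v)) d 0) : DF w x v = d := by
  have h1 : HasFDerivAt (F w) (DF w x) (x + (0 : ℝ) • v) := by
    simpa [DF] using (diff_F w hx).hasFDerivAt
  have h2 : HasDerivAt (fun s : ℝ => x + s • v) v 0 :=
    hasDerivAt_clm (ContinuousLinearMap.id ℝ Z) x v
  have h3 := HasFDerivAt.comp_hasDerivAt (0 : ℝ) (f := fun s : ℝ => x + s • v) h1 h2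
  exact h3.unique h

theorem jet_one (p : H × ℝ) : jet p 1 0 = psi p := by simp [jet]

theorem act_r {a : H} {t : ℝ} (ht : 0 ≤ t) {j : ℕ} {x : Z} (hx : Om x) (h : Inact a t (pp j x)) :
    act (Finsupp.single (.r j) a) j x ≤ 13 * t := by
  have hτ := hx.pos j
  have hp : 0 < (pp j x).2 := hτ
  have n1 := norm_psi hp
  have n2 : ‖tl (tl (x j))‖ ≤ tau j x := (norm_tl_le _).trans (hx j).2.2
  have n3 : ‖cons (hd (tl (x j)), M (tl (tl (x j))) (psi (pp j x))) -
      M (tl (tl (x j))) (psi (pp j x))‖ ≤ 3 * tau j x :=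
    (norm_shift_le _ _ (by simpa [n1] using norm_M_le (tl (tl (x j))) (psi (pp j x)))).trans
      (by linarith [(hx j).2.2])
  have h1 : ‖DF (Finsupp.single (.r j) a) x‖ ≤ 10 * t := by
    refine ContinuousLinearMap.opNorm_le_bound _ (by positivity) fun v => ?_
    have d1 := hasDerivAt_psi_clm (pp j) hp v
    have d2 := (hasDerivAt_clm (M ∘L tl ∘L tl ∘L ev j) x v).clm_apply d1
    have d3 := (cons.hasFDerivAt.comp_hasDerivAt (0 : ℝ)
      ((hasDerivAt_clm (hd ∘L tl ∘L ev j) x v).prodMk d2)).sub d2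
    have d4 := (hasDerivAt_const (0 : ℝ) a).inner ℝ
      ((N.hasFDerivAt.comp_hasDerivAt (0 : ℝ) d3).clm_apply d1)
    rw [DF_apply hx (by rw [F_single]; exact d4)]
    simp only [inner_zero_left, add_zero, zero_smul, Function.comp, ContinuousLinearMap.comp_apply,
      ev_apply, Pi.sub_apply, inner_add_right]
    have e1 : fderiv ℝ psi (pp j x) (pp j v) = (tau j x)⁻¹ • jet (pp j x) 0 (pp j v) := by
      simp [jet, pp_apply, smul_smul, hτ.ne']
    have hv := norm_nonneg v
    have m1 : ‖tl (v j)‖ ≤ ‖v‖ := (norm_tl_le _).trans (v.norm_coe_le_norm j)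
    have m2 : ‖fderiv ℝ psi (pp j x) (pp j v)‖ ≤ (tau j x)⁻¹ * (2 * ‖v‖) := by
      rw [e1, norm_smul, norm_inv, Real.norm_of_nonneg hτ.le]
      gcongr
      exact norm_jet_le hp (by simp) (norm_pp_le j v)
    set dc := M (tl (tl (v j))) (psi (pp j x)) +
      M (tl (tl (x j))) (fderiv ℝ psi (pp j x) (pp j v))
    have m3 : ‖dc‖ ≤ 3 * ‖v‖ := by
      refine (norm_add_le_of_le (norm_M_le _ _) (norm_M_le _ _)).trans ?_
      have : ‖tl (tl (x j))‖ * ‖fderiv ℝ psi (pp j x) (pp j v)‖ ≤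
          tau j x * ((tau j x)⁻¹ * (2 * ‖v‖)) := by gcongr
      rw [mul_inv_cancel_left₀ hτ.ne'] at this
      rw [n1]
      linarith [norm_tl_le (tl (v j))]
    have m4 : ‖cons (hd (tl (v j)), dc) - dc‖ ≤ 7 * ‖v‖ := by
      have := norm_sub_le (cons (hd (tl (v j)), dc)) dc
      have := norm_cons_le (hd (tl (v j)), dc)
      linarith [abs_hd_le (tl (v j))]
    have b1 := h (cons (hd (tl (v j)), dc) - dc) 1 1 0 (by simp) (by simp)
    have b2 := h (cons (hd (tl (x j)), M (tl (tl (x j))) (psi (pp j x))) -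
      M (tl (tl (x j))) (psi (pp j x))) 0 ‖v‖ (pp j v) (by simp) (norm_pp_le j v)
    rw [jet_one] at b1
    refine (norm_add_le_of_le (r₁ := t * (7 * ‖v‖) * 1)
      (r₂ := (tau j x)⁻¹ * (t * (3 * tau j x) * ‖v‖)) (b1.trans (by gcongr)) ?_).trans
      (le_of_eq (by field_simp; ring))
    rw [e1, map_smul, real_inner_smul_right, norm_mul, norm_inv, Real.norm_of_nonneg hτ.le]
    gcongr
    exact b2.trans (by gcongr)
  have h2 : |F (Finsupp.single (.r j) a) x| / tau j x ≤ 3 * t := by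
    have b1 := h (cons (hd (tl (x j)), M (tl (tl (x j))) (psi (pp j x))) -
      M (tl (tl (x j))) (psi (pp j x))) 1 1 0 (by simp) (by simp)
    rw [jet_one] at b1
    rw [F_single, div_le_iff₀ hτ]
    refine b1.trans ?_
    calc _ ≤ t * (3 * tau j x) * 1 := by gcongr
      _ = _ := by ring
  unfold act
  linarith

theorem norm_single_le (c : Co) (a : H) (d : Co) : ‖Finsupp.single c a d‖ ≤ ‖a‖ := by
  rw [Finsupp.single_apply]
  split_ifs <;> simp

theorem der_r (j : ℕ) {a : H} (ha : ‖a‖ ≤ 1) : Der 26 (Finsupp.single (.r j) a) :=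
  (supp_single _ _).der fun x hx => (norm_DF_le_act _ j hx).trans
    ((act_r zero_le_two hx (inact_two ha (hx.pos j))).trans (by norm_num))

theorem exists_fine_r : ∃ σ : ℝ → ℕ, ∀ (j : ℕ) (a : H), ‖a‖ ≤ 1 →
    Fine σ (Finsupp.single (.r j) a) := by
  choose! n hn using fun t (ht : 0 < t) => exists_cover ht
  refine ⟨fun t => n (t / 13) + 1, fun j a ha => (supp_single _ _).fine (fun c => ?_) fun t ht => ?_⟩
  · refine (norm_single_le _ _ _).trans (ha.trans ?_)
    simp
  · obtain ⟨s, h1, h2, h3⟩ := hn (t / 13) (by positivity) a ha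
    refine ⟨s, by omega, h2, fun x hx h4 => ?_⟩
    obtain ⟨q, hq, h5⟩ := h3 (pp j x) (hx.pos j) fun h => by
      have := act_r (by positivity) hx h
      change t < act _ j x at h4
      linarith
    have h6 : Hit x j q (n (t / 13)) := close_of_kk (p := pp j x) (hx.pos j) (h2 q hq) h5
    exact ⟨q, hq, j, le_rfl, le_rfl, h6.mono hx (h2 q hq) (by simp)⟩

theorem DF_z {i m : ℕ} (him : i ≤ m) (b : H) {x : Z} (hx : Om x) (v : Z) :
    DF (Finsupp.single (.z i m) b) x v = ⟪b, jet (qq i m x) (tau m v) (qq i m v)⟫_ℝ := by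
  have d1 := hasDerivAt_psi_clm (qq i m) (hx.pos m) v
  have d2 := (hasDerivAt_const (0 : ℝ) b).inner ℝ ((hasDerivAt_clm (tau m) x v).smul d1)
  rw [DF_apply hx (by simp only [F_single, J, him, if_true]; exact d2)]
  simp [jet, qq_apply, add_comm]

theorem exists_der_single (c : Co) : ∃ C, 0 < C ∧ ∀ a : H, ‖a‖ ≤ 1 →
    Der C (Finsupp.single c a) := by
  have h0 : ∀ c : Co, J c = 0 → ∀ C, 0 ≤ C → ∀ a, Der C (Finsupp.single c a) :=
    fun c hc C hC a => (supp_single _ _).der fun x _ => by simp [DF, F_single, hc, hC]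
  induction c with
  | r j => exact ⟨26, by norm_num, fun a ha => der_r j ha⟩
  | z i m =>
    refine ⟨4, by norm_num, fun a ha => ?_⟩
    by_cases him : i ≤ m
    · refine (supp_single _ _).der fun x hx =>
        ContinuousLinearMap.opNorm_le_bound _ (by norm_num) fun v => ?_
      rw [DF_z him a hx]
      have := norm_jet_le (p := qq i m x) (hx.pos m)
        ((abs_tau_le m v).trans (by linarith [norm_nonneg v])) (norm_qq_le i m v)
      calc _ ≤ _ := abs_real_inner_le_norm _ _
        _ ≤ 1 * (2 * (2 * ‖v‖)) := by gcongr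
        _ = _ := by ring
    · exact h0 (.z i m) (funext fun x => if_neg him) _ (by norm_num) _
  | mul c a m ih =>
    obtain ⟨C, hC, ih⟩ := ih
    have := one_le_Cm
    refine ⟨Cm * (3 * C), by positivity, fun b hb => ?_⟩
    by_cases h : a ≤ c.idx ∧ c.idx < m
    · have := der_mulc ((supp_single c b).mono h.1 le_rfl) h.2 (h.1.trans h.2.le) (ih b hb)
      rwa [mulc, Finsupp.mapDomain_single] at this
    · exact h0 (.mul c a m) (funext fun x => if_neg h) _ (by positivity) _

theorem norm_le_of_unit {v : H} {C : ℝ} (h : ∀ a : H, ‖a‖ ≤ 1 → |⟪a, v⟫_ℝ| ≤ C) : ‖v‖ ≤ C := by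
  rcases eq_or_ne v 0 with rfl | h0
  · simpa using h 0
  · have h1 := norm_pos_iff.2 h0
    have := h (‖v‖⁻¹ • v) (by simp [norm_smul, h1.ne'])
    rwa [real_inner_smul_left, real_inner_self_eq_norm_sq, sq, inv_mul_cancel_left₀ h1.ne',
      abs_norm] at this

theorem exists_lip_J (c : Co) : ∃ C, 0 < C ∧ (∀ x, Om x → ‖J c x‖ ≤ C * tau 0 x) ∧
    ∀ x y, Om x → Om y → ‖J c x - J c y‖ ≤ C * ‖x - y‖ := by
  obtain ⟨C, hC, h⟩ := exists_der_single c
  refine ⟨2 * C, by positivity, fun x hx => norm_le_of_unit fun a ha => ?_,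
    fun x y hx hy => norm_le_of_unit fun a ha => ?_⟩
  · simpa [F_single] using abs_F_le (fun _ hz => (h a ha).self hz)
      ((supp_single c a).mono (Nat.zero_le _) le_rfl) hx
  · have := lip_F (fun _ hz => (h a ha).self hz) hx hy
    simp only [F_single, ← inner_sub_right] at this
    nlinarith [norm_nonneg (x - y)]

/-- A sequence with one nonzero term. -/
noncomputable def sing (i : ℕ) : H →L[ℝ] Z :=
  LinearMap.mkContinuous ⟨⟨fun g => Z.mk (fun l => if l = i then g else 0) ‖g‖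
    fun l => by split_ifs <;> simp, fun _ _ => Z.ext fun l => by
      simp only [Z.mk_apply, Z.add_apply]; split_ifs <;> simp⟩, fun _ _ => Z.ext fun l => by
      simp only [Z.mk_apply, Z.smul_apply]; split_ifs <;> simp⟩ 1 fun g =>
    Z.norm_le (by simp) fun l => by
      change ‖if l = i then g else 0‖ ≤ _
      split_ifs <;> simp

theorem sing_apply (i : ℕ) (g : H) (l : ℕ) : sing i g l = if l = i then g else 0 := rfl

theorem sum_sing_apply (m : ℕ) (g : ℕ → H) (l : ℕ) :
    (∑ i ∈ Finset.range m, sing i (g i)) l = if l < m then g l else 0 := by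
  rw [← ev_apply, map_sum]
  simp [sing_apply]

theorem exists_riesz {w : Co →₀ H} {a m : ℕ} (hw : Supp w a m) {z : Z} (hz : Om z) :
    ∃ u : ℕ → H, ∑ i ∈ Finset.range (m + 1), ‖u i‖ ≤ ‖DF w z‖ ∧
      ∀ v, DF w z v = ∑ i ∈ Finset.range (m + 1), ⟪u i, v i⟫_ℝ := by
  let u : ℕ → H := fun i => (InnerProductSpace.toDual ℝ H).symm (DF w z ∘L sing i)
  have hu : ∀ i g, ⟪u i, g⟫_ℝ = DF w z (sing i g) := fun i g => by simp [u]
  refine ⟨u, ?_, fun v => ?_⟩
  · have h1 : ‖∑ i ∈ Finset.range (m + 1), sing i (‖u i‖⁻¹ • u i)‖ ≤ 1 :=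
      Z.norm_le zero_le_one fun l => by
        rw [sum_sing_apply]
        split_ifs
        · rw [norm_smul, norm_inv, norm_norm]
          exact inv_mul_le_one_of_le₀ le_rfl (norm_nonneg _)
        · simp
    have h2 := (DF w z).unit_le_opNorm _ h1
    refine le_trans (le_of_eq ?_) ((le_abs_self _).trans h2)
    rw [map_sum]
    refine Finset.sum_congr rfl fun i _ => ?_
    rw [← hu, real_inner_smul_right, real_inner_self_eq_norm_sq, sq]
    rcases eq_or_ne ‖u i‖ 0 with h | h
    · simp [h]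
    · rw [inv_mul_cancel_left₀ h]
  · have h1 : DF w z (v - ∑ i ∈ Finset.range (m + 1), sing i (v i)) = 0 := by
      refine DF_apply hz ((hasDerivAt_const (0 : ℝ) (F w z)).congr_of_eventuallyEq
        (Filter.Eventually.of_forall fun s => F_congr hw fun i hi => ?_))
      simp [sum_sing_apply, Nat.lt_succ_of_le hi]
    rw [map_sub, sub_eq_zero, map_sum] at h1
    simp only [h1, hu]

theorem exists_kill {w : Co →₀ H} {a m : ℕ} (hw : Supp w a m) {z : Z} (hz : Om z) :
    ∃ k : Co →₀ H, Supp k m m ∧ (∀ c, ‖k c‖ ≤ 2 * ‖DF w z‖) ∧ DF (w + k) z = 0 ∧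
      (∀ x, Om x → act k m x ≤ 105 * ‖DF w z‖) ∧ ∀ D, 0 < D → ∀ x, Om x →
        Hit x m (yy m z, tau m z) D ∨ act k m x ≤ 210 * ‖DF w z‖ / D := by
  obtain ⟨u, hu, hv⟩ := exists_riesz hw hz
  let b : ℕ → H := fun i => -jet (qq i m z) 0 (V m (u i), 0)
  have hb : ∀ i, ‖((V m (u i), 0) : H × ℝ)‖ ≤ ‖u i‖ := fun i => by simp [norm_V]
  have key : ∀ x, Om x → ∀ e : ℝ, 0 ≤ e → (∀ i, kk (qq i m z) (qq i m x) ≤ e) →
      act (∑ i ∈ Finset.range (m + 1), Finsupp.single (.z i m) (b i)) m x ≤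
        105 * e * ‖DF w z‖ := fun x hx e he h => by
    refine (act_sum _ _ _ hx).trans (le_trans ?_ (mul_le_mul_of_nonneg_left hu (by positivity)))
    rw [Finset.mul_sum]
    refine Finset.sum_le_sum fun i hi => ?_
    have him := Nat.lt_succ_iff.1 (Finset.mem_range.1 hi)
    have hk := kk_pos (p := qq i m z) (q := qq i m x) (hz.pos m) (hx.pos m)
    have h1 : ‖DF (Finsupp.single (.z i m) (b i)) x‖ ≤ 70 * e * ‖u i‖ := by
      refine ContinuousLinearMap.opNorm_le_bound _ (by positivity) fun v => ?_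
      rw [DF_z him _ hx, inner_neg_left, norm_neg]
      refine (abs_inner_jet_le (hz.pos m) (hx.pos m) (by simp) (hb i)
        ((abs_tau_le m v).trans (by linarith [norm_nonneg v])) (norm_qq_le i m v)).trans ?_
      calc _ ≤ 35 * ‖u i‖ * (2 * ‖v‖) * e := by gcongr; exact h i
        _ = _ := by ring
    have h2 : |F (Finsupp.single (.z i m) (b i)) x| / tau m x ≤ 35 * e * ‖u i‖ := by
      simp only [F_single, J, him, if_true, real_inner_smul_right, abs_mul, abs_of_pos (hx.pos m)]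
      rw [mul_div_cancel_left₀ _ (hx.pos m).ne', inner_neg_left, abs_neg, ← jet_one]
      refine (abs_inner_jet_le (A' := 1) (hz.pos m) (hx.pos m) (by simp) (hb i) (by simp)
        (by simp)).trans ?_
      calc _ ≤ 35 * ‖u i‖ * 1 * e := by gcongr; exact h i
        _ = _ := by ring
    unfold act
    linarith
  refine ⟨∑ i ∈ Finset.range (m + 1), Finsupp.single (.z i m) (b i),
    Supp.sum fun i _ => supp_single _ _, fun c => ?_, ?_, fun x hx => ?_, fun D hD x hx => ?_⟩
  · rw [Finsupp.finsetSum_apply]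
    refine le_trans ?_ (mul_le_mul_of_nonneg_left hu zero_le_two)
    rw [Finset.mul_sum]
    exact norm_sum_le_of_le _ fun i _ => (norm_single_le _ _ _).trans
      ((norm_neg _).trans_le (norm_jet_le (hz.pos m) (by simp) (hb i)))
  · ext v
    rw [DF_add _ _ hz, DF_sum _ _ hz, add_apply, hv, sum_apply, ← Finset.sum_add_distrib]
    refine Finset.sum_eq_zero fun i hi => ?_
    rw [DF_z (Nat.lt_succ_iff.1 (Finset.mem_range.1 hi)) _ hz, inner_neg_left,
      inner_jet_self (hz.pos m), qq_apply i m v]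
    simp [← inner_P, P_yy, P_V]
  · simpa using key x hx 1 zero_le_one fun i => kk_le_one (hz.pos m)
  · by_cases h : ∃ i, 2 ≤ D * kk (qq i m x) (qq i m z)
    · obtain ⟨i, hi⟩ := h
      have := close_of_kk (hx.pos m) (hz.pos m) hi
      refine Or.inl ⟨le_trans ?_ this.1, this.2⟩
      have e := norm_yy_le_qq m (x - z) (x i - z i)
      simp only [map_sub] at e
      refine e.trans (le_of_eq ?_)
      simp only [qq_apply]
      congr 1
      abel
    · push Not at h
      refine Or.inr ((key x hx (2 / D) (by positivity) fun i => ?_).trans (le_of_eq (by ring)))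
      rw [kk_comm, le_div_iff₀' hD]
      exact (h i).le

end Vale.Agent.P124
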