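import Vale.Agent.P124.Psi

/-! The state space, the cone `Om` and the coordinate functions `J`. -/

namespace Vale.Agent.P124

open scoped InnerProductSpace Topology BoundedContinuousFunction

/-- Bounded sequences in `H`. -/
def Z : Type := ℕ →ᵇ H

noncomputable instance : NormedAddCommGroup Z := inferInstanceAs (NormedAddCommGroup (ℕ →ᵇ H))

noncomputable instance : NormedSpace ℝ Z := inferInstanceAs (NormedSpace ℝ (ℕ →ᵇ H))

/-- The terms of a bounded sequence. -/
@[coe] noncomputable def Z.get (x : Z) (i : ℕ) : H := (show ℕ →ᵇ H from x) i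

noncomputable instance : CoeFun Z fun _ => ℕ → H := ⟨Z.get⟩

theorem Z.ext {x y : Z} (h : ∀ i, x i = y i) : x = y := BoundedContinuousFunction.ext h

@[simp] theorem Z.add_apply (x y : Z) (i : ℕ) : (x + y) i = x i + y i := rfl

@[simp] theorem Z.sub_apply (x y : Z) (i : ℕ) : (x - y) i = x i - y i := rfl

@[simp] theorem Z.smul_apply (t : ℝ) (x : Z) (i : ℕ) : (t • x) i = t • x i := rfl

@[simp] theorem Z.zero_apply (i : ℕ) : (0 : Z) i = 0 := rfl

theorem Z.norm_coe_le_norm (x : Z) (i : ℕ) : ‖x i‖ ≤ ‖x‖ :=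
  BoundedContinuousFunction.norm_coe_le_norm _ _

theorem Z.norm_le {x : Z} {C : ℝ} (hC : 0 ≤ C) (h : ∀ i, ‖x i‖ ≤ C) : ‖x‖ ≤ C :=
  (BoundedContinuousFunction.norm_le hC).2 h

/-- Build a bounded sequence. -/
noncomputable def Z.mk (f : ℕ → H) (C : ℝ) (h : ∀ i, ‖f i‖ ≤ C) : Z :=
  BoundedContinuousFunction.ofNormedAddCommGroupDiscrete f C h

@[simp] theorem Z.mk_apply (f : ℕ → H) (C : ℝ) (h : ∀ i, ‖f i‖ ≤ C) (i : ℕ) :
    Z.mk f C h i = f i := rfl

/-- Evaluation. -/
noncomputable def ev (i : ℕ) : Z →L[ℝ] H :=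
  LinearMap.mkContinuous ⟨⟨fun x => x i, fun _ _ => rfl⟩, fun _ _ => rfl⟩ 1 fun x =>
    (x.norm_coe_le_norm i).trans (one_mul _).ge

@[simp] theorem ev_apply (i : ℕ) (x : Z) : ev i x = x i := rfl

/-- The scale at place `i`. -/
noncomputable def tau (i : ℕ) : Z →L[ℝ] ℝ := hd ∘L ev i

theorem tau_apply (i : ℕ) (x : Z) : tau i x = hd (x i) := rfl

theorem abs_tau_le (i : ℕ) (x : Z) : |tau i x| ≤ ‖x‖ :=
  (abs_hd_le _).trans (x.norm_coe_le_norm i)

/-- Weights. -/
noncomputable def wt (i : ℕ) : ℝ := (1 / 2) ^ i / 32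

theorem wt_pos (i : ℕ) : 0 < wt i := by unfold wt; positivity

theorem wt_anti {i j : ℕ} (h : i ≤ j) : wt j ≤ wt i := by
  unfold wt
  gcongr ?_ / 32
  exact pow_le_pow_of_le_one (by norm_num) (by norm_num) h

theorem sum_wt_le (s : Finset ℕ) : ∑ i ∈ s, wt i ≤ 1 / 16 := by
  have := summable_geometric_two.sum_le_tsum s (fun i _ => by positivity)
  rw [tsum_geometric_two] at this
  simp only [wt, ← Finset.sum_div]
  linarith

/-- The history up to place `m`. -/
noncomputable def yy (m : ℕ) : Z →L[ℝ] H := ∑ i ∈ Finset.range m, wt i • (V i ∘L ev i)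

theorem yy_apply (m : ℕ) (x : Z) : yy m x = ∑ i ∈ Finset.range m, wt i • V i (x i) := by
  simp [yy]

theorem norm_sum_wt_le (s : Finset ℕ) (x : ℕ → H) {C : ℝ} (hC : 0 ≤ C) (h : ∀ i ∈ s, ‖x i‖ ≤ C) :
    ‖∑ i ∈ s, wt i • V i (x i)‖ ≤ C / 16 := by
  calc _ ≤ ∑ i ∈ s, wt i * C := norm_sum_le_of_le _ fun i hi => by
        rw [norm_smul, norm_V, Real.norm_of_nonneg (wt_pos i).le]
        exact mul_le_mul_of_nonneg_left (h i hi) (wt_pos i).le
    _ = (∑ i ∈ s, wt i) * C := by rw [Finset.sum_mul]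
    _ ≤ 1 / 16 * C := by gcongr; exact sum_wt_le s
    _ = _ := by ring

theorem norm_yy_le (m : ℕ) (x : Z) : ‖yy m x‖ ≤ ‖x‖ / 16 := by
  rw [yy_apply]
  exact norm_sum_wt_le _ _ (norm_nonneg _) fun i _ => x.norm_coe_le_norm i

theorem P_yy (l m : ℕ) (x : Z) : P l (yy m x) = if l < m then wt l • x l else 0 := by
  simp [yy_apply, P_V]

theorem yy_congr {m : ℕ} {x y : Z} (h : ∀ i < m, x i = y i) : yy m x = yy m y := by
  rw [yy_apply, yy_apply]
  exact Finset.sum_congr rfl fun i hi => by rw [h i (Finset.mem_range.1 hi)]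

/-- Position attached to place `j`. -/
noncomputable def pp (j : ℕ) : Z →L[ℝ] H × ℝ := (yy j).prod (tau j)

/-- Position attached to place `m`, recording coordinate `i`. -/
noncomputable def qq (i m : ℕ) : Z →L[ℝ] H × ℝ := (yy m + V m ∘L ev i).prod (tau m)

theorem pp_apply (j : ℕ) (x : Z) : pp j x = (yy j x, tau j x) := rfl

theorem qq_apply (i m : ℕ) (x : Z) : qq i m x = (yy m x + V m (x i), tau m x) := rfl

theorem norm_pp_le (j : ℕ) (x : Z) : ‖pp j x‖ ≤ ‖x‖ :=
  norm_prod_le_iff.2 ⟨(norm_yy_le j x).trans (by linarith [norm_nonneg x]), abs_tau_le j x⟩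

theorem norm_qq_le (i m : ℕ) (x : Z) : ‖qq i m x‖ ≤ 2 * ‖x‖ := by
  rw [qq_apply]
  refine norm_prod_le_iff.2 ⟨(norm_add_le _ _).trans ?_, (abs_tau_le m x).trans ?_⟩
  · have := norm_yy_le m x
    have := x.norm_coe_le_norm i
    rw [norm_V]
    linarith [norm_nonneg x]
  · linarith [norm_nonneg x]

theorem norm_yy_le_qq (m : ℕ) (x : Z) (g : H) : ‖yy m x‖ ≤ ‖yy m x + V m g‖ := by
  have h : ⟪yy m x, V m g⟫_ℝ = 0 := by
    rw [real_inner_comm, ← inner_P, P_yy]; simp
  refine (abs_le_of_sq_le_sq' ?_ (norm_nonneg _)).2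
  rw [norm_add_sq_real, h]
  nlinarith [sq_nonneg ‖V m g‖]

/-- The cone of admissible states. -/
def Om (x : Z) : Prop := ∀ i, 0 < tau i x ∧ tau (i + 1) x ≤ tau i x ∧ ‖tl (x i)‖ ≤ tau i x

theorem Om.pos {x : Z} (h : Om x) (i : ℕ) : 0 < tau i x := (h i).1

theorem Om.anti {x : Z} (h : Om x) {i j : ℕ} (hij : i ≤ j) : tau j x ≤ tau i x :=
  antitone_nat_of_succ_le (f := fun i => tau i x) (fun i => (h i).2.1) hij

theorem Om.norm_le {x : Z} (h : Om x) (i : ℕ) : ‖x i‖ ≤ 2 * tau i x := by
  have := norm_le_hd_tl (x i)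
  rw [← tau_apply, abs_of_pos (h i).1] at this
  linarith [(h i).2.2]

theorem convex_Om : Convex ℝ {x | Om x} := fun x hx y hy a b ha hb hab i => by
  simp only [map_add, map_smul, smul_eq_mul, Z.add_apply, Z.smul_apply]
  refine ⟨?_, ?_, (norm_add_le _ _).trans ?_⟩
  · have := convex_Ioi (𝕜 := ℝ) (0 : ℝ) (hx i).1 (hy i).1 ha hb hab
    simpa using this
  · gcongr
    exacts [(hx i).2.1, (hy i).2.1]
  · rw [norm_smul, norm_smul, Real.norm_of_nonneg ha, Real.norm_of_nonneg hb]
    gcongr
    exacts [(hx i).2.2, (hy i).2.2]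

theorem Om.yy_sub {x : Z} (h : Om x) {i m : ℕ} (him : i ≤ m) : ‖yy m x - yy i x‖ ≤ tau i x := by
  rw [yy_apply, yy_apply, ← Finset.sum_Ico_eq_sub _ him]
  have := h.pos i
  refine (norm_sum_wt_le _ _ (C := 2 * tau i x) (by positivity) fun l hl => ?_).trans (by linarith)
  linarith [h.norm_le l, h.anti (Finset.mem_Ico.1 hl).1]

/-- The displacement of the rotation along `ξ`. -/
noncomputable def rot (ξ k : H) : H := N (cons (hd k, M (tl k) ξ) - M (tl k) ξ) ξ

/-- Coordinates. -/
inductive Co : Type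
  | r (j : ℕ)
  | z (i m : ℕ)
  | mul (c : Co) (a m : ℕ)
  deriving DecidableEq

/-- Place of a coordinate. -/
def Co.idx : Co → ℕ
  | r j => j
  | z _ m => m
  | mul _ _ m => m

/-- The cutoff. -/
noncomputable def phi (s : ℝ) : ℝ := Real.smoothTransition (4 * s - 1)

theorem phi_zero {s : ℝ} (h : s ≤ 1 / 4) : phi s = 0 :=
  Real.smoothTransition.zero_of_nonpos (by linarith)

theorem phi_one {s : ℝ} (h : 1 / 2 ≤ s) : phi s = 1 :=
  Real.smoothTransition.one_of_one_le (by linarith)

theorem abs_phi_le (s : ℝ) : |phi s| ≤ 1 :=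
  abs_le.2 ⟨(by norm_num : (-1 : ℝ) ≤ 0).trans (Real.smoothTransition.nonneg _),
    Real.smoothTransition.le_one _⟩

theorem contDiff_phi : ContDiff ℝ 1 phi :=
  (Real.smoothTransition.contDiff (n := 1)).comp
    ((contDiff_const.mul contDiff_id).sub contDiff_const)

/-- The coordinate functions. -/
noncomputable def J : Co → Z → H
  | .r j => fun x => rot (psi (pp j x)) (tl (x j))
  | .z i m => fun x => if i ≤ m then tau m x • psi (qq i m x) else 0
  | .mul c a m => fun x => if a ≤ c.idx ∧ c.idx < m then phi (tau m x / tau a x) • J c x else 0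

theorem contDiffAt_cut {x : Z} (hx : Om x) (a m : ℕ) :
    ContDiffAt ℝ 1 (fun x => phi (tau m x / tau a x)) x :=
  contDiff_phi.contDiffAt.comp x
    ((tau m).contDiff.contDiffAt.div (tau a).contDiff.contDiffAt (hx.pos a).ne')

theorem contDiffAt_J (c : Co) {x : Z} (hx : Om x) : ContDiffAt ℝ 1 (J c) x := by
  induction c with
  | r j =>
    have h1 : ContDiffAt ℝ 1 (fun x => psi (pp j x)) x :=
      (contDiffAt_psi (hx.pos j)).comp x (pp j).contDiff.contDiffAt
    have h2 : ContDiffAt ℝ 1 (fun x : Z => M (tl (tl (x j))) (psi (pp j x))) x :=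
      (M ∘L tl ∘L tl ∘L ev j).contDiff.contDiffAt.clm_apply h1
    exact (N.contDiff.contDiffAt.comp x ((cons.contDiff.contDiffAt.comp x
      ((hd ∘L tl ∘L ev j).contDiff.contDiffAt.prodMk h2)).sub h2)).clm_apply h1
  | z i m =>
    unfold J
    split_ifs
    · exact (tau m).contDiff.contDiffAt.smul
        ((contDiffAt_psi (hx.pos m)).comp x (qq i m).contDiff.contDiffAt)
    · exact contDiffAt_const
  | mul c a m ih =>
    unfold J
    split_ifs
    · exact (contDiffAt_cut hx a m).smul ih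
    · exact contDiffAt_const

theorem J_congr (c : Co) {x y : Z} (h : ∀ i ≤ c.idx, x i = y i) : J c x = J c y := by
  induction c with
  | r j =>
    simp only [J, pp_apply, tau_apply, h j le_rfl, yy_congr (m := j) fun i hi => h i hi.le]
  | z i m =>
    unfold J
    split_ifs with him
    · simp only [qq_apply, tau_apply, h m le_rfl, h i him,
        yy_congr (m := m) fun i hi => h i hi.le]
    · rfl
  | mul c a m ih =>
    unfold J
    split_ifs with hc
    · simp only [tau_apply, h m le_rfl, h a (hc.1.trans hc.2.le),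
        ih fun i hi => h i (hi.trans hc.2.le)]
    · rfl

theorem norm_shift_le (k c : H) (hc : ‖c‖ ≤ ‖tl k‖) : ‖cons (hd k, c) - c‖ ≤ 3 * ‖k‖ := by
  have := norm_sub_le (cons (hd k, c)) c
  have := norm_cons_le (hd k, c)
  linarith [abs_hd_le k, norm_tl_le k]

theorem norm_J_le (c : Co) : ∃ C, 0 ≤ C ∧ ∀ x, Om x → ‖J c x‖ ≤ C * tau c.idx x := by
  induction c with
  | r j =>
    refine ⟨3, by norm_num, fun x hx => ?_⟩
    have h1 := norm_psi (p := pp j x) (hx.pos j)
    simp only [J, rot, norm_N, h1, mul_one, Co.idx]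
    refine (norm_shift_le _ _ ?_).trans (by linarith [(hx j).2.2])
    simpa [h1] using norm_M_le (tl (tl (x j))) (psi (pp j x))
  | z i m =>
    refine ⟨1, by norm_num, fun x hx => ?_⟩
    have h1 := norm_psi (p := qq i m x) (hx.pos m)
    have := hx.pos m
    unfold J
    split_ifs
    · simp [norm_smul, h1, Co.idx, abs_of_pos this]
    · simp [Co.idx, this.le]
  | mul c a m ih =>
    obtain ⟨C, hC, ih⟩ := ih
    refine ⟨4 * C, by positivity, fun x hx => ?_⟩
    have h1 := hx.pos m
    have h0 : 0 ≤ 4 * C * tau m x := by positivity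
    unfold J
    split_ifs with hc
    · by_cases h : tau m x / tau a x ≤ 1 / 4
      · simpa [phi_zero h, Co.idx] using h0
      · rw [div_le_iff₀ (hx.pos a), not_le] at h
        rw [norm_smul]
        calc _ ≤ 1 * (C * tau c.idx x) := mul_le_mul (abs_phi_le _) (ih x hx) (norm_nonneg _)
              zero_le_one
          _ ≤ 1 * (C * (4 * tau m x)) := by gcongr; linarith [hx.anti hc.1]
          _ = _ := by simp only [Co.idx]; ring
    · simpa [Co.idx] using h0

theorem finite_valid (n : ℕ) : {c : Co | c.idx < n ∧ J c ≠ 0}.Finite := by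
  induction n with
  | zero => simp
  | succ n ih =>
    refine (((ih.insert (.r n)).union ((Set.finite_Iic n).image fun i => Co.z i n)).union
      ((ih.prod (Set.finite_Iic n)).image fun p => Co.mul p.1 p.2 n)).subset fun c hc => ?_
    rcases Nat.lt_succ_iff_lt_or_eq.1 hc.1 with h | h
    · exact Or.inl (Or.inl (Or.inr ⟨h, hc.2⟩))
    · cases c with
      | r j => exact Or.inl (Or.inl (Or.inl (congrArg _ h)))
      | z i m =>
        obtain rfl : m = n := h
        refine Or.inl (Or.inr ⟨i, ?_, rfl⟩)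
        by_contra hi
        exact hc.2 (funext fun x => if_neg hi)
      | mul c a m =>
        obtain rfl : m = n := h
        have h1 : a ≤ c.idx ∧ c.idx < m := by
          by_contra hi
          exact hc.2 (funext fun x => if_neg hi)
        refine Or.inr ⟨(c, a), ⟨⟨h1.2, fun h0 => hc.2 (funext fun x => ?_)⟩,
          h1.1.trans h1.2.le⟩, rfl⟩
        simp [J, h0]

/-- Pairing of a finitely supported family of coefficients with a family of vectors. -/
noncomputable def pair (x : Co → H) : (Co →₀ H) →ₗ[ℝ] ℝ :=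
  Finsupp.lsum ℝ fun c => (innerₗ H).flip (x c)

theorem pair_apply (x : Co → H) (w : Co →₀ H) : pair x w = ∑ c ∈ w.support, ⟪w c, x c⟫_ℝ := by
  simp [pair, Finsupp.sum, real_inner_comm]

theorem pair_single (x : Co → H) (c : Co) (a : H) : pair x (Finsupp.single c a) = ⟪a, x c⟫_ℝ := by
  simp [pair, real_inner_comm]

/-- The function defined by a family of coefficients. -/
noncomputable def F (w : Co →₀ H) (x : Z) : ℝ := pair (fun c => J c x) w

theorem F_add (w w' : Co →₀ H) : F (w + w') = F w + F w' := funext fun _ => map_add _ _ _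

theorem F_smul (t : ℝ) (w : Co →₀ H) : F (t • w) = t • F w := funext fun _ => map_smul _ _ _

theorem F_zero : F 0 = 0 := funext fun _ => map_zero _

theorem F_single (c : Co) (a : H) : F (Finsupp.single c a) = fun x => ⟪a, J c x⟫_ℝ :=
  funext fun _ => pair_single _ _ _

theorem contDiffAt_F (w : Co →₀ H) {x : Z} (hx : Om x) : ContDiffAt ℝ 1 (F w) x := by
  have : F w = fun x => ∑ c ∈ w.support, ⟪w c, J c x⟫_ℝ := funext fun _ => pair_apply _ _
  rw [this]
  exact ContDiffAt.sum fun c _ => contDiffAt_const.inner ℝ (contDiffAt_J c hx)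

theorem diff_F (w : Co →₀ H) {x : Z} (hx : Om x) : DifferentiableAt ℝ (F w) x :=
  (contDiffAt_F w hx).differentiableAt one_ne_zero

/-- Derivative of `F w`. -/
noncomputable def DF (w : Co →₀ H) (x : Z) : Z →L[ℝ] ℝ := fderiv ℝ (F w) x

theorem DF_add (w w' : Co →₀ H) {x : Z} (hx : Om x) : DF (w + w') x = DF w x + DF w' x := by
  rw [DF, F_add, fderiv_add (diff_F w hx) (diff_F w' hx)]; rfl

theorem DF_smul (t : ℝ) (w : Co →₀ H) {x : Z} (hx : Om x) : DF (t • w) x = t • DF w x := by
  rw [DF, F_smul, fderiv_const_smul (diff_F w hx)]; rfl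

@[simp] theorem DF_zero (x : Z) : DF 0 x = 0 := by rw [DF, F_zero]; simp

theorem DF_sum {ι : Type*} (s : Finset ι) (w : ι → Co →₀ H) {x : Z} (hx : Om x) :
    DF (∑ i ∈ s, w i) x = ∑ i ∈ s, DF (w i) x := by
  classical
  induction s using Finset.induction_on with
  | empty => simp
  | insert i s hi ih => rw [Finset.sum_insert hi, Finset.sum_insert hi, DF_add _ _ hx, ih]

/-- Support condition. -/
def Supp (w : Co →₀ H) (a b : ℕ) : Prop := ∀ c, w c ≠ 0 → a ≤ c.idx ∧ c.idx ≤ b

theorem Supp.mono {w : Co →₀ H} {a b a' b' : ℕ} (h : Supp w a b) (ha : a' ≤ a) (hb : b ≤ b') :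
    Supp w a' b' := fun c hc => ⟨ha.trans (h c hc).1, (h c hc).2.trans hb⟩

theorem Supp.add {w w' : Co →₀ H} {a b : ℕ} (h : Supp w a b) (h' : Supp w' a b) :
    Supp (w + w') a b := fun c hc => by
  by_cases h1 : w c = 0
  · exact h' c fun h2 => hc (by simp [h1, h2])
  · exact h c h1

theorem Supp.smul {w : Co →₀ H} {a b : ℕ} (h : Supp w a b) (t : ℝ) : Supp (t • w) a b :=
  fun c hc => h c fun h1 => hc (by simp [h1])

theorem Supp.sum {ι : Type*} {s : Finset ι} {w : ι → Co →₀ H} {a b : ℕ}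
    (h : ∀ i ∈ s, Supp (w i) a b) : Supp (∑ i ∈ s, w i) a b := fun c hc => by
  rw [Finsupp.finsetSum_apply] at hc
  obtain ⟨i, hi, h1⟩ := Finset.exists_ne_zero_of_sum_ne_zero hc
  exact h i hi c h1

theorem supp_single (c : Co) (a : H) : Supp (Finsupp.single c a) c.idx c.idx := fun d hd => by
  obtain rfl : d = c := by
    by_contra h
    exact hd (Finsupp.single_eq_of_ne h)
  exact ⟨le_rfl, le_rfl⟩

theorem F_congr {w : Co →₀ H} {a b : ℕ} (hw : Supp w a b) {x y : Z} (h : ∀ i ≤ b, x i = y i) :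
    F w x = F w y := by
  rw [F, F, pair_apply, pair_apply]
  exact Finset.sum_congr rfl fun c hc => by
    rw [J_congr c fun i hi => h i (hi.trans (hw c (Finsupp.mem_support_iff.1 hc)).2)]

theorem DF_congr {w : Co →₀ H} {a b : ℕ} (hw : Supp w a b) {x y : Z} (h : ∀ i ≤ b, x i = y i) :
    DF w x = DF w y := by
  have : F w = fun z => F w (z + (y - x)) := funext fun z => F_congr hw fun i hi => by
    simp [h i hi]
  rw [DF, this, fderiv_comp_add_right, DF]
  simp

/-- Mixing two sequences. -/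
noncomputable def mix (a : ℕ) (x y : Z) : Z :=
  Z.mk (fun i => if i < a then x i else y i)
    (‖x‖ + ‖y‖) fun i => by
      have := x.norm_coe_le_norm i
      have := y.norm_coe_le_norm i
      split_ifs <;> linarith [norm_nonneg x, norm_nonneg y]

theorem mix_apply (a : ℕ) (x y : Z) (i : ℕ) : mix a x y i = if i < a then x i else y i := rfl

theorem lip_F {w : Co →₀ H} {A : ℝ} (h : ∀ x, Om x → ‖DF w x‖ ≤ A) {x y : Z} (hx : Om x)
    (hy : Om y) : |F w x - F w y| ≤ A * ‖x - y‖ :=
  convex_Om.norm_image_sub_le_of_norm_fderiv_le (fun _ hz => diff_F w hz) h hy hx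

theorem abs_F_le {w : Co →₀ H} {A : ℝ} (h : ∀ x, Om x → ‖DF w x‖ ≤ A) {a b : ℕ} (hw : Supp w a b)
    {x : Z} (hx : Om x) : |F w x| ≤ 2 * A * tau a x := by
  have hA : 0 ≤ A := (norm_nonneg (DF w x)).trans (h x hx)
  choose C hC0 hC using norm_J_le
  let K := ∑ c ∈ w.support, ‖w c‖ * (C c * tau a x)
  have key : ∀ t : ℝ, 0 < t → t ≤ 1 → |F w x| ≤ 2 * A * tau a x + t * K := fun t ht ht1 => by
    let y := mix a x (t • x)
    have hτ : ∀ i, tau i y = if i < a then tau i x else t * tau i x := fun i => by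
      simp only [tau_apply, y, mix_apply]
      split_ifs <;> simp
    have hy : Om y := fun i => by
      have h1 := hx.pos i
      have h2 := (hx i).2.1
      have h3 := hx.pos (i + 1)
      refine ⟨?_, ?_, ?_⟩
      · rw [hτ]; split_ifs <;> positivity
      · rw [hτ, hτ]
        split_ifs
        · exact h2
        · omega
        · nlinarith
        · gcongr
      · rw [hτ]
        simp only [y, mix_apply]
        split_ifs
        · exact (hx i).2.2
        · simp only [Z.smul_apply, map_smul, norm_smul,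
            Real.norm_of_nonneg ht.le]
          gcongr
          exact (hx i).2.2
    have h1 : ‖x - y‖ ≤ 2 * tau a x := by
      have := hx.pos a
      refine Z.norm_le (by positivity) fun i => ?_
      simp only [y, Z.sub_apply, mix_apply]
      split_ifs with hi
      · simpa using this.le
      · have e : x i - (t • x) i = (1 - t) • x i := by simp [sub_smul]
        rw [e, norm_smul, Real.norm_of_nonneg (by linarith)]
        nlinarith [hx.norm_le i, hx.anti (not_lt.1 hi), norm_nonneg (x i)]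
    have h2 : |F w y| ≤ t * K := by
      rw [F, pair_apply, Finset.mul_sum]
      refine (Finset.abs_sum_le_sum_abs _ _).trans (Finset.sum_le_sum fun c hc => ?_)
      have h3 := (hw c (Finsupp.mem_support_iff.1 hc)).1
      have h4 := hC c y hy
      rw [hτ, if_neg (not_lt.2 h3)] at h4
      have h5 := hC0 c
      calc _ ≤ ‖w c‖ * ‖J c y‖ := abs_real_inner_le_norm _ _
        _ ≤ ‖w c‖ * (C c * (t * tau a x)) := by
          gcongr
          exact h4.trans (by gcongr; exact hx.anti h3)
        _ = _ := by ring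
    have h3 := lip_F h hx hy
    have h4 := abs_sub_abs_le_abs_sub (F w x) (F w y)
    nlinarith
  have ht : Filter.Tendsto (fun t : ℝ => 2 * A * tau a x + t * K) (𝓝[>] 0)
      (𝓝 (2 * A * tau a x + 0 * K)) :=
    ((continuous_const.add (continuous_id.mul continuous_const)).tendsto 0).mono_left
      nhdsWithin_le_nhds
  simpa using ge_of_tendsto ht (Filter.eventually_of_mem (Ioc_mem_nhdsGT zero_lt_one)
    fun t ht => key t ht.1 ht.2)

end Vale.Agent.P124
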