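import Vale.Agent.P124.Coord

/-! Localized functions and their closure properties. -/

namespace Vale.Agent.P124

open scoped InnerProductSpace Topology BoundedContinuousFunction

/-- Activity of a function at a state. -/
noncomputable def act (w : Co →₀ H) (a : ℕ) (x : Z) : ℝ := ‖DF w x‖ + |F w x| / tau a x

/-- The state passes through the cell `q` at place `i`. -/
def Hit (x : Z) (i : ℕ) (q : H × ℝ) (D : ℝ) : Prop :=
  ‖yy i x - q.1‖ ≤ D * q.2 ∧ q.2 ≤ D * tau i x ∧ tau i x ≤ D * q.2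

/-- Localization of the activity to few cells. -/
def Loc (w : Co →₀ H) (a b : ℕ) (σ : ℝ → ℕ) : Prop :=
  ∀ t, 0 < t → ∃ s : Finset (H × ℝ), s.card ≤ σ t ∧ (∀ q ∈ s, 0 < q.2) ∧
    ∀ x, Om x → t < act w a x → ∃ q ∈ s, ∃ i, a ≤ i ∧ i ≤ b ∧ Hit x i q (σ t)

/-- Restriction to an interval of places. -/
noncomputable def restr (a b : ℕ) (w : Co →₀ H) : Co →₀ H :=
  w.filter fun c => a ≤ c.idx ∧ c.idx ≤ b

/-- Derivative bound on all intervals. -/
def Der (A : ℝ) (w : Co →₀ H) : Prop := ∀ a b x, Om x → ‖DF (restr a b w) x‖ ≤ A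

/-- Localization on all intervals, and a bound for the coefficients. -/
def Fine (σ : ℝ → ℕ) (w : Co →₀ H) : Prop :=
  (∀ c, ‖w c‖ ≤ σ 0) ∧ ∀ a b, Loc (restr a b w) a b σ

theorem norm_DF_le_act (w : Co →₀ H) (a : ℕ) {x : Z} (hx : Om x) : ‖DF w x‖ ≤ act w a x :=
  le_add_of_nonneg_right (div_nonneg (abs_nonneg _) (hx.pos a).le)

theorem act_nonneg (w : Co →₀ H) (a : ℕ) {x : Z} (hx : Om x) : 0 ≤ act w a x :=
  (norm_nonneg (DF w x)).trans (norm_DF_le_act w a hx)

theorem act_add (w w' : Co →₀ H) (a : ℕ) {x : Z} (hx : Om x) :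
    act (w + w') a x ≤ act w a x + act w' a x := by
  have h1 := norm_add_le (DF w x) (DF w' x)
  have h2 := div_le_div_of_nonneg_right (abs_add_le (F w x) (F w' x)) (hx.pos a).le
  rw [add_div] at h2
  rw [act, DF_add _ _ hx, F_add, Pi.add_apply, act, act]
  linarith

theorem act_smul (t : ℝ) (w : Co →₀ H) (a : ℕ) {x : Z} (hx : Om x) :
    act (t • w) a x = |t| * act w a x := by
  rw [act, DF_smul _ _ hx, F_smul, norm_smul, Pi.smul_apply, smul_eq_mul, abs_mul, act,
    Real.norm_eq_abs]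
  ring

@[simp] theorem act_zero (a : ℕ) (x : Z) : act 0 a x = 0 := by simp [act, F_zero]

theorem act_sum {ι : Type*} (s : Finset ι) (w : ι → Co →₀ H) (a : ℕ) {x : Z} (hx : Om x) :
    act (∑ i ∈ s, w i) a x ≤ ∑ i ∈ s, act (w i) a x :=
  Finset.le_sum_of_subadditive (fun w => act w a x) (act_zero a x).le
    (fun w w' => act_add w w' a hx) s w

theorem act_mono (w : Co →₀ H) {a a' : ℕ} (h : a' ≤ a) {x : Z} (hx : Om x) :
    act w a' x ≤ act w a x :=
  add_le_add le_rfl (div_le_div_of_nonneg_left (abs_nonneg _) (hx.pos a) (hx.anti h))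

theorem Hit.mono {x : Z} {i : ℕ} {q : H × ℝ} {D D' : ℝ} (h : Hit x i q D) (hx : Om x)
    (hq : 0 < q.2) (hD : D ≤ D') : Hit x i q D' :=
  ⟨h.1.trans (by gcongr), h.2.1.trans (mul_le_mul_of_nonneg_right hD (hx.pos i).le),
    h.2.2.trans (by gcongr)⟩

theorem Loc.of_le {w w' : Co →₀ H} {a b a' b' : ℕ} {σ σ' : ℝ → ℕ} (h : Loc w a b σ)
    (ha : a' ≤ a) (hb : b ≤ b')
    (h' : ∀ t, 0 < t → ∃ t', 0 < t' ∧ σ t' ≤ σ' t ∧
      ∀ x, Om x → t < act w' a' x → t' < act w a x) : Loc w' a' b' σ' := fun t ht => by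
  obtain ⟨t', ht', h1, h2⟩ := h' t ht
  obtain ⟨s, h3, h4, h5⟩ := h t' ht'
  refine ⟨s, h3.trans h1, h4, fun x hx h6 => ?_⟩
  obtain ⟨q, hq, i, h7, h8, h9⟩ := h5 x hx (h2 x hx h6)
  exact ⟨q, hq, i, ha.trans h7, h8.trans hb, h9.mono hx (h4 q hq) (by exact_mod_cast h1)⟩

theorem Loc.mono {w : Co →₀ H} {a b a' b' : ℕ} {σ : ℝ → ℕ} (h : Loc w a b σ)
    (ha : a' ≤ a) (hb : b ≤ b') : Loc w a' b' σ :=
  h.of_le ha hb fun t ht => ⟨t, ht, le_rfl, fun _ hx h1 => h1.trans_le (act_mono w ha hx)⟩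

theorem loc_zero (a b : ℕ) (σ : ℝ → ℕ) : Loc 0 a b σ := fun t ht =>
  ⟨∅, by simp, by simp, fun x _ h => by simp at h; linarith⟩

theorem Loc.add {w w' : Co →₀ H} {a b : ℕ} {σ σ' : ℝ → ℕ} (h : Loc w a b σ) (h' : Loc w' a b σ') :
    Loc (w + w') a b fun t => σ (t / 2) + σ' (t / 2) := fun t ht => by
  classical
  obtain ⟨s, h1, h2, h3⟩ := h (t / 2) (by positivity)
  obtain ⟨s', h1', h2', h3'⟩ := h' (t / 2) (by positivity)
  refine ⟨s ∪ s', (Finset.card_union_le _ _).trans (add_le_add h1 h1'),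
    fun q hq => (Finset.mem_union.1 hq).elim (h2 q) (h2' q), fun x hx h4 => ?_⟩
  have h5 := act_add w w' a hx
  by_cases h6 : t / 2 < act w a x
  · obtain ⟨q, hq, i, h7, h8, h9⟩ := h3 x hx h6
    exact ⟨q, Finset.mem_union_left _ hq, i, h7, h8, h9.mono hx (h2 q hq) (by simp)⟩
  · obtain ⟨q, hq, i, h7, h8, h9⟩ := h3' x hx (by linarith)
    exact ⟨q, Finset.mem_union_right _ hq, i, h7, h8, h9.mono hx (h2' q hq) (by simp)⟩

theorem restr_apply (a b : ℕ) (w : Co →₀ H) (c : Co) :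
    restr a b w c = if a ≤ c.idx ∧ c.idx ≤ b then w c else 0 := rfl

theorem restr_add (a b : ℕ) (w w' : Co →₀ H) : restr a b (w + w') = restr a b w + restr a b w' :=
  Finsupp.filter_add

theorem restr_smul (a b : ℕ) (t : ℝ) (w : Co →₀ H) : restr a b (t • w) = t • restr a b w :=
  Finsupp.filter_smul

theorem restr_sum {ι : Type*} (a b : ℕ) (s : Finset ι) (w : ι → Co →₀ H) :
    restr a b (∑ i ∈ s, w i) = ∑ i ∈ s, restr a b (w i) := Finsupp.filter_sum _ _

theorem restr_restr (a b a' b' : ℕ) (w : Co →₀ H) :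
    restr a b (restr a' b' w) = restr (max a a') (min b b') w := by
  ext1 c
  simp only [restr_apply, max_le_iff, le_min_iff]
  split_ifs <;> first | rfl | tauto

theorem supp_restr (a b : ℕ) (w : Co →₀ H) : Supp (restr a b w) a b := fun c hc => by
  by_contra h
  exact hc (if_neg h)

theorem Supp.restr_self {w : Co →₀ H} {a b a' b' : ℕ} (h : Supp w a b) (ha : a' ≤ a)
    (hb : b ≤ b') : restr a' b' w = w := (Finsupp.filter_eq_self_iff _ _).2 (h.mono ha hb)

theorem Supp.restr_zero {w : Co →₀ H} {a b a' b' : ℕ} (h : Supp w a b) (ha : b' < a ∨ b < a') :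
    restr a' b' w = 0 := (Finsupp.filter_eq_zero_iff _ _).2 fun c hc => by
  by_contra h1
  have := h c h1
  omega

theorem exists_supp (w : Co →₀ H) : ∃ b, Supp w 0 b :=
  ⟨w.support.sup Co.idx, fun _ hc =>
    ⟨Nat.zero_le _, Finset.le_sup (Finsupp.mem_support_iff.2 hc)⟩⟩

theorem Der.self {A : ℝ} {w : Co →₀ H} (h : Der A w) {x : Z} (hx : Om x) : ‖DF w x‖ ≤ A := by
  obtain ⟨b, hb⟩ := exists_supp w
  simpa [hb.restr_self le_rfl le_rfl] using h 0 b x hx

theorem Der.restr {A : ℝ} {w : Co →₀ H} (h : Der A w) (a b : ℕ) : Der A (restr a b w) :=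
  fun _ _ x hx => by rw [restr_restr]; exact h _ _ x hx

theorem Der.add {A A' : ℝ} {w w' : Co →₀ H} (h : Der A w) (h' : Der A' w') :
    Der (A + A') (w + w') := fun a b x hx => by
  rw [restr_add, DF_add _ _ hx]
  exact norm_add_le_of_le (h a b x hx) (h' a b x hx)

theorem Der.smul {A : ℝ} {w : Co →₀ H} (h : Der A w) (t : ℝ) : Der (|t| * A) (t • w) :=
  fun a b x hx => by
  rw [restr_smul, DF_smul _ _ hx, norm_smul, Real.norm_eq_abs]
  exact mul_le_mul_of_nonneg_left (h a b x hx) (abs_nonneg _)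

theorem Der.mono {A A' : ℝ} {w : Co →₀ H} (h : Der A w) (hA : A ≤ A') : Der A' w :=
  fun a b x hx => (h a b x hx).trans hA

theorem Der.sum {ι : Type*} {s : Finset ι} {w : ι → Co →₀ H} {A : ℝ} (h : ∀ i ∈ s, Der A (w i)) :
    Der (s.card * A) (∑ i ∈ s, w i) := fun a b x hx => by
  rw [restr_sum, DF_sum _ _ hx]
  simpa using norm_sum_le_of_le s fun i hi => h i hi a b x hx

theorem Der.act_le {A : ℝ} {w : Co →₀ H} (h : Der A w) {a b : ℕ} (hw : Supp w a b) {x : Z}
    (hx : Om x) : act w a x ≤ 3 * A := by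
  have h1 := abs_F_le (fun _ hx => h.self hx) hw hx
  rw [← div_le_iff₀ (hx.pos a)] at h1
  unfold act
  linarith [h.self hx]

theorem Fine.restr {σ : ℝ → ℕ} {w : Co →₀ H} (h : Fine σ w) (a b : ℕ) : Fine σ (restr a b w) := by
  refine ⟨fun c => ?_, fun a' b' => ?_⟩
  · rw [restr_apply]
    split_ifs
    · exact h.1 c
    · simp
  · rw [restr_restr]
    exact (h.2 _ _).mono (le_max_left _ _) (min_le_left _ _)

theorem Fine.add {σ σ' : ℝ → ℕ} {w w' : Co →₀ H} (h : Fine σ w) (h' : Fine σ' w') :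
    Fine (fun t => σ (t / 2) + σ' (t / 2)) (w + w') :=
  ⟨fun c => by simpa using norm_add_le_of_le (h.1 c) (h'.1 c), fun a b => by
    rw [restr_add]; exact (h.2 a b).add (h'.2 a b)⟩

theorem fine_zero (σ : ℝ → ℕ) : Fine σ 0 :=
  ⟨by simp, fun a b => by rw [restr, Finsupp.filter_zero]; exact loc_zero a b σ⟩

theorem Fine.smul_le {σ : ℝ → ℕ} {w : Co →₀ H} (h : Fine σ w) {θ : ℝ} (hθ : |θ| ≤ 1) :
    Fine σ (θ • w) := by
  refine ⟨fun c => ?_, fun a b => (h.2 a b).of_le le_rfl le_rfl fun t ht =>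
    ⟨t, ht, le_rfl, fun x hx h1 => ?_⟩⟩
  · rw [Finsupp.smul_apply, norm_smul]
    exact (mul_le_of_le_one_left (norm_nonneg _) hθ).trans (h.1 c)
  · rw [restr_smul, act_smul _ _ _ hx] at h1
    exact h1.trans_le (mul_le_of_le_one_left (act_nonneg _ _ hx) hθ)

theorem exists_fine_sum (σ : ℝ → ℕ) (n : ℕ) : ∃ σ' : ℝ → ℕ, ∀ {ι : Type} (s : Finset ι)
    (w : ι → Co →₀ H), s.card ≤ n → (∀ i ∈ s, Fine σ (w i)) → Fine σ' (∑ i ∈ s, w i) := by
  classical
  induction n with
  | zero =>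
    exact ⟨σ, fun s w hs _ => by
      rw [Finset.card_eq_zero.1 (Nat.le_zero.1 hs)]; exact fine_zero σ⟩
  | succ n ih =>
    obtain ⟨σ', h⟩ := ih
    refine ⟨fun t => σ (t / 2) + σ' (t / 2), fun s w hs hw => ?_⟩
    rcases s.eq_empty_or_nonempty with rfl | ⟨i, hi⟩
    swap
    · rw [← Finset.add_sum_erase _ _ hi]
      exact (hw i hi).add (h _ _ (by rw [Finset.card_erase_of_mem hi]; omega)
        fun j hj => hw j (Finset.mem_of_mem_erase hj))
    · exact fine_zero _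

theorem Supp.restr_cases {w : Co →₀ H} {m : ℕ} (h : Supp w m m) (a b : ℕ) :
    (a ≤ m ∧ m ≤ b ∧ restr a b w = w) ∨ restr a b w = 0 := by
  by_cases h1 : a ≤ m ∧ m ≤ b
  · exact Or.inl ⟨h1.1, h1.2, h.restr_self h1.1 h1.2⟩
  · exact Or.inr (h.restr_zero (by omega))

theorem Supp.der {w : Co →₀ H} {m : ℕ} (h : Supp w m m) {A : ℝ}
    (h1 : ∀ x, Om x → ‖DF w x‖ ≤ A) : Der A w := fun a b x hx => by
  rcases h.restr_cases a b with ⟨-, -, h2⟩ | h2 <;> rw [h2]
  · exact h1 x hx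
  · simpa using (norm_nonneg (DF w x)).trans (h1 x hx)

theorem Supp.fine {w : Co →₀ H} {m : ℕ} (h : Supp w m m) {σ : ℝ → ℕ}
    (h1 : ∀ c, ‖w c‖ ≤ σ 0) (h2 : Loc w m m σ) : Fine σ w := ⟨h1, fun a b => by
  rcases h.restr_cases a b with ⟨ha, hb, h3⟩ | h3 <;> rw [h3]
  · exact h2.mono ha hb
  · exact loc_zero _ _ _⟩

/-- The copy of `w` multiplied by the cutoff. -/
noncomputable def mulc (w : Co →₀ H) (a m : ℕ) : Co →₀ H := w.mapDomain fun c => .mul c a m

theorem mul_inj (a m : ℕ) : Function.Injective fun c => Co.mul c a m := fun _ _ h => by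
  cases h; rfl

theorem mulc_cases (w : Co →₀ H) (a m : ℕ) (c : Co) :
    (c.idx = m ∧ ∃ d, mulc w a m c = w d) ∨ mulc w a m c = 0 := by
  by_cases h : c ∈ Set.range fun c => Co.mul c a m
  · obtain ⟨d, rfl⟩ := h
    exact Or.inl ⟨rfl, d, Finsupp.mapDomain_apply (mul_inj a m) _ _⟩
  · exact Or.inr (Finsupp.mapDomain_of_notMem_range _ _ h)

theorem supp_mulc (w : Co →₀ H) (a m : ℕ) : Supp (mulc w a m) m m := fun c hc => by
  rcases mulc_cases w a m c with ⟨h, -⟩ | h
  · exact ⟨h.ge, h.le⟩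
  · exact (hc h).elim

theorem F_mulc {w : Co →₀ H} {a b m : ℕ} (hw : Supp w a b) (hm : b < m) :
    F (mulc w a m) = fun x => phi (tau m x / tau a x) * F w x := funext fun x => by
  have : mulc w a m = ∑ c ∈ w.support, Finsupp.single (Co.mul c a m) (w c) := rfl
  rw [F, this, map_sum, F, pair_apply, Finset.mul_sum]
  refine Finset.sum_congr rfl fun c hc => ?_
  have := hw c (Finsupp.mem_support_iff.1 hc)
  rw [pair_single, J]
  simp only [this.1, this.2.trans_lt hm, and_self, if_true, real_inner_smul_right]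

theorem exists_Cm : ∃ C : ℝ, 1 ≤ C ∧ ∀ (w : Co →₀ H) (a b m : ℕ) (x : Z), Supp w a b → b < m →
    a ≤ m → Om x → act (mulc w a m) m x ≤ C * act w a x := by
  obtain ⟨C, hC⟩ := isCompact_Icc.exists_bound_of_continuousOn
    ((contDiff_phi.continuous_deriv le_rfl).continuousOn (s := Set.Icc (0 : ℝ) 1))
  have hC0 : 0 ≤ C := (norm_nonneg _).trans (hC 0 ⟨le_rfl, zero_le_one⟩)
  refine ⟨2 * C + 5, by linarith, fun w a b m x hw hm ham hx => ?_⟩
  have ha := hx.pos a
  have hm' := hx.pos m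
  have hle := hx.anti ham
  have h1 : HasFDerivAt (fun x => tau m x / tau a x)
      ((tau a x)⁻¹ • tau m - (tau m x / tau a x ^ 2) • tau a) x := by
    have := (tau m).hasFDerivAt.mul (((hasDerivAt_inv ha.ne').comp_hasFDerivAt x
      (tau a).hasFDerivAt))
    simp only [div_eq_mul_inv]
    refine this.congr_fderiv ?_
    ext v
    simp
    ring
  have h2 := ((contDiff_phi.differentiable one_ne_zero _).hasDerivAt.comp_hasFDerivAt x h1).mul
    (diff_F w hx).hasFDerivAt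
  have h3 : ‖DF (mulc w a m) x‖ ≤ ‖DF w x‖ + 2 * C * (|F w x| / tau a x) := by
    rw [DF, F_mulc hw hm, (show fderiv ℝ (fun x => phi (tau m x / tau a x) * F w x) x = _ from
      h2.fderiv)]
    refine norm_add_le_of_le ?_ ?_
    · rw [norm_smul]
      exact mul_le_of_le_one_left (norm_nonneg (DF w x)) (abs_phi_le _)
    · have b1 : ‖(tau a x)⁻¹ • tau m - (tau m x / tau a x ^ 2) • tau a‖ ≤ 2 / tau a x := by
        refine ContinuousLinearMap.opNorm_le_bound _ (by positivity) fun v => ?_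
        have e1 := abs_tau_le m v
        have e2 := abs_tau_le a v
        change ‖(tau a x)⁻¹ * tau m v - (tau m x / tau a x ^ 2) * tau a v‖ ≤ _
        refine (norm_sub_le_of_le (r₁ := (tau a x)⁻¹ * ‖v‖) (r₂ := (tau a x)⁻¹ * ‖v‖) ?_ ?_).trans
          (le_of_eq (by ring))
        · simp only [norm_mul, norm_inv, Real.norm_eq_abs, abs_of_pos ha]
          gcongr
        · simp only [norm_mul, Real.norm_eq_abs]
          rw [abs_of_pos (by positivity)]
          gcongr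
          rw [div_le_iff₀ (by positivity)]
          calc _ ≤ tau a x := hle
            _ = _ := by field_simp
      have b2 := hC (tau m x / tau a x) ⟨by positivity, (div_le_one ha).2 hle⟩
      rw [norm_smul, norm_smul]
      calc _ ≤ |F w x| * (C * (2 / tau a x)) := by
            rw [Real.norm_eq_abs]
            gcongr
        _ = _ := by ring
  have h4 : |F (mulc w a m) x| / tau m x ≤ 4 * (|F w x| / tau a x) := by
    rw [F_mulc hw hm]
    by_cases h : tau m x / tau a x ≤ 1 / 4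
    · simp only [phi_zero h, zero_mul, abs_zero, zero_div]
      positivity
    · rw [div_le_iff₀ ha, not_le] at h
      rw [abs_mul, div_le_iff₀ hm']
      calc _ ≤ 1 * |F w x| := by gcongr; exact abs_phi_le _
        _ = (|F w x| / tau a x) * tau a x := by field_simp
        _ ≤ (|F w x| / tau a x) * (4 * tau m x) := by gcongr; linarith
        _ = _ := by ring
  have h5 : 0 ≤ |F w x| / tau a x := by positivity
  have h6 := norm_nonneg (DF w x)
  unfold act
  nlinarith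

/-- Constant for the multiplication by the cutoff. -/
noncomputable def Cm : ℝ := exists_Cm.choose

theorem one_le_Cm : 1 ≤ Cm := exists_Cm.choose_spec.1

theorem act_mulc {w : Co →₀ H} {a b m : ℕ} {x : Z} (hw : Supp w a b) (hm : b < m) (ha : a ≤ m)
    (hx : Om x) : act (mulc w a m) m x ≤ Cm * act w a x :=
  exists_Cm.choose_spec.2 w a b m x hw hm ha hx

theorem continuousAt_ratio {x : Z} (hx : Om x) (a m : ℕ) :
    ContinuousAt (fun x => tau m x / tau a x) x :=
  (tau m).continuous.continuousAt.div (tau a).continuous.continuousAt (hx.pos a).ne'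

theorem act_mulc_zero {w : Co →₀ H} {a b m : ℕ} {x : Z} (hw : Supp w a b) (hm : b < m)
    (hx : Om x) (h : 4 * tau m x < tau a x) : act (mulc w a m) m x = 0 := by
  have h1 : tau m x / tau a x < 1 / 4 := by rw [div_lt_iff₀ (hx.pos a)]; linarith
  have h2 : F (mulc w a m) =ᶠ[𝓝 x] fun _ => 0 := by
    rw [F_mulc hw hm]
    exact ((continuousAt_ratio hx a m).eventually (gt_mem_nhds h1)).mono fun y hy => by
      simp [phi_zero hy.le]
  rw [act, DF, h2.fderiv_eq, h2.eq_of_nhds]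
  simp

theorem DF_sub_mulc {w : Co →₀ H} {a b m : ℕ} {x : Z} (hw : Supp w a b) (hm : b < m)
    (hx : Om x) (h : tau a x < 2 * tau m x) : DF (w + (-1 : ℝ) • mulc w a m) x = 0 := by
  have h1 : 1 / 2 < tau m x / tau a x := by rw [lt_div_iff₀ (hx.pos a)]; linarith
  have h2 : F (w + (-1 : ℝ) • mulc w a m) =ᶠ[𝓝 x] fun _ => 0 := by
    rw [F_add, F_smul, F_mulc hw hm]
    exact ((continuousAt_ratio hx a m).eventually (lt_mem_nhds h1)).mono fun y hy => by
      simp [phi_one hy.le]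
  rw [DF, h2.fderiv_eq]
  simp

theorem Hit.shift {x : Z} {a i m : ℕ} {q : H × ℝ} {D : ℝ} (h : Hit x i q D) (hx : Om x)
    (hq : 0 < q.2) (hai : a ≤ i) (him : i ≤ m) (h4 : tau a x ≤ 4 * tau m x) :
    Hit x m q (4 * D) := by
  have hD : 0 < D := pos_of_mul_pos_left ((hx.pos i).trans_le h.2.2) hq.le
  have h1 := hx.yy_sub him
  have h2 := norm_sub_le_norm_sub_add_norm_sub (yy m x) (yy i x) q.1
  have h3 := mul_pos hD hq
  refine ⟨by linarith [h.1, h.2.2], h.2.1.trans ?_, by linarith [h.2.2, hx.anti him]⟩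
  nlinarith [hx.anti hai]

theorem fine_mulc {w : Co →₀ H} {a b m : ℕ} {σ : ℝ → ℕ} (hw : Supp w a b) (hm : b < m)
    (ha : a ≤ m) (h : Fine σ w) : Fine (fun t => 4 * σ (t / Cm)) (mulc w a m) := by
  have hC := one_le_Cm
  refine (supp_mulc w a m).fine (fun c => ?_) fun t ht => ?_
  · have : (0 : ℝ) ≤ σ 0 := Nat.cast_nonneg _
    rcases mulc_cases w a m c with ⟨-, d, h1⟩ | h1 <;> rw [h1]
    · simp only [zero_div, Nat.cast_mul, Nat.cast_ofNat]
      linarith [h.1 d]
    · simp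
  · have h0 := h.2 a b
    rw [hw.restr_self le_rfl le_rfl] at h0
    obtain ⟨s, h1, h2, h3⟩ := h0 (t / Cm) (by positivity)
    refine ⟨s, by omega, h2, fun x hx h4 => ?_⟩
    obtain ⟨q, hq, i, h5, h6, h7⟩ := h3 x hx (by
      rw [div_lt_iff₀' (by positivity)]
      exact h4.trans_le (act_mulc hw hm ha hx))
    refine ⟨q, hq, m, le_rfl, le_rfl, ?_⟩
    rw [Nat.cast_mul, Nat.cast_ofNat]
    refine h7.shift hx (h2 q hq) h5 (h6.trans hm.le) (not_lt.1 fun h8 => ?_)
    rw [act_mulc_zero hw hm hx h8] at h4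
    linarith

theorem der_mulc {w : Co →₀ H} {a b m : ℕ} {A : ℝ} (hw : Supp w a b) (hm : b < m)
    (ha : a ≤ m) (h : Der A w) : Der (Cm * (3 * A)) (mulc w a m) :=
  (supp_mulc w a m).der fun _ hx => (norm_DF_le_act _ m hx).trans ((act_mulc hw hm ha hx).trans
    (mul_le_mul_of_nonneg_left (h.act_le hw hx) (zero_le_one.trans one_le_Cm)))

end Vale.Agent.P124
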