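import Mathlib

/-! The Hilbert space `H = l2` with head, tail, cons and a tensor product map. -/

namespace Vale.Agent.P124

open scoped InnerProductSpace

/-- The real Hilbert space of square summable sequences. -/
def H : Type := lp (fun _ : ℕ => ℝ) 2

noncomputable instance : NormedAddCommGroup H :=
  inferInstanceAs (NormedAddCommGroup (lp (fun _ : ℕ => ℝ) 2))

noncomputable instance : InnerProductSpace ℝ H :=
  inferInstanceAs (InnerProductSpace ℝ (lp (fun _ : ℕ => ℝ) 2))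

instance : CompleteSpace H := inferInstanceAs (CompleteSpace (lp (fun _ : ℕ => ℝ) 2))

/-- Coordinates. -/
def H.co (x : H) : ℕ → ℝ := (show lp (fun _ : ℕ => ℝ) 2 from x)

theorem H.ext {x y : H} (h : ∀ n, x.co n = y.co n) : x = y := lp.ext (funext h)

@[simp] theorem H.co_add (x y : H) (n : ℕ) : (x + y).co n = x.co n + y.co n := rfl

@[simp] theorem H.co_smul (c : ℝ) (x : H) (n : ℕ) : (c • x).co n = c * x.co n := rfl

theorem H.hasSum_inner (x y : H) : HasSum (fun n => x.co n * y.co n) ⟪x, y⟫_ℝ := by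
  have := lp.hasSum_inner (𝕜 := ℝ) (show lp (fun _ : ℕ => ℝ) 2 from x)
    (show lp (fun _ : ℕ => ℝ) 2 from y)
  simp only [RCLike.inner_apply, conj_trivial] at this
  simp only [mul_comm (x.co _)]
  exact this

/-- Build an element from a square summable sequence. -/
def H.mk (f : ℕ → ℝ) (hf : Summable fun n => f n * f n) : H :=
  show lp (fun _ : ℕ => ℝ) 2 from ⟨f, memℓp_gen (by
    simpa [sq] using hf)⟩

@[simp] theorem H.co_mk (f : ℕ → ℝ) (hf : Summable fun n => f n * f n) (n : ℕ) :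
    (H.mk f hf).co n = f n := rfl

theorem H.summable (x : H) : Summable fun n => x.co n * x.co n := (H.hasSum_inner x x).summable

theorem norm_le_of_inner {x : H} {c : ℝ} (hc : 0 ≤ c) (h : ⟪x, x⟫_ℝ ≤ c * c) : ‖x‖ ≤ c := by
  rw [real_inner_self_eq_norm_sq] at h
  exact (abs_le_of_sq_le_sq' (by nlinarith) hc).2

theorem exists_cons : ∃ (hd : H →L[ℝ] ℝ) (tl : H →L[ℝ] H) (cons : ℝ × H →L[ℝ] H),
    (∀ x y, ⟪x, y⟫_ℝ = hd x * hd y + ⟪tl x, tl y⟫_ℝ) ∧ (∀ p, hd (cons p) = p.1) ∧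
      (∀ p, tl (cons p) = p.2) ∧ ∀ x, cons (hd x, tl x) = x := by
  have s1 : ∀ x : H, Summable fun n => x.co (n + 1) * x.co (n + 1) := fun x =>
    (summable_nat_add_iff (f := fun n => x.co n * x.co n) 1).2 x.summable
  have s2 : ∀ p : ℝ × H, Summable fun n : ℕ => (Nat.casesOn n p.1 p.2.co : ℝ) *
      (Nat.casesOn n p.1 p.2.co : ℝ) := fun p =>
    (summable_nat_add_iff (f := fun n : ℕ => (Nat.casesOn n p.1 p.2.co : ℝ) *
      (Nat.casesOn n p.1 p.2.co : ℝ)) 1).1 p.2.summable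
  let hd : H →ₗ[ℝ] ℝ := ⟨⟨fun x => x.co 0, fun _ _ => rfl⟩, fun _ _ => rfl⟩
  let tl : H →ₗ[ℝ] H := ⟨⟨fun x => H.mk (fun n => x.co (n + 1))
    (s1 x), fun _ _ => H.ext fun _ => rfl⟩,
      fun _ _ => H.ext fun _ => rfl⟩
  let cons : ℝ × H →ₗ[ℝ] H := ⟨⟨fun p => H.mk (fun n => Nat.casesOn n p.1 p.2.co)
    (s2 p), fun _ _ => H.ext fun n => by cases n <;> rfl⟩,
      fun _ _ => H.ext fun n => by cases n <;> rfl⟩
  have h1 : ∀ x y, ⟪x, y⟫_ℝ = hd x * hd y + ⟪tl x, tl y⟫_ℝ := fun x y => by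
    rw [← (H.hasSum_inner x y).tsum_eq, (H.hasSum_inner x y).summable.tsum_eq_zero_add,
      ← (H.hasSum_inner (tl x) (tl y)).tsum_eq]
    rfl
  have h2 : ∀ x, ‖x‖ ^ 2 = hd x ^ 2 + ‖tl x‖ ^ 2 := fun x => by
    rw [← real_inner_self_eq_norm_sq, ← real_inner_self_eq_norm_sq, h1, sq]
  have h3 : ∀ p, hd (cons p) = p.1 := fun _ => rfl
  have h4 : ∀ p, tl (cons p) = p.2 := fun _ => H.ext fun _ => rfl
  refine ⟨hd.mkContinuous 1 fun x => ?_, tl.mkContinuous 1 fun x => ?_,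
    cons.mkContinuous 2 fun p => ?_, h1, h3, h4, fun x => H.ext fun n => by cases n <;> rfl⟩
  · rw [one_mul, Real.norm_eq_abs]
    exact abs_le_of_sq_le_sq (by nlinarith [h2 x, sq_nonneg ‖tl x‖]) (norm_nonneg _)
  · rw [one_mul]
    exact (abs_le_of_sq_le_sq' (by nlinarith [h2 x, sq_nonneg (hd x)]) (norm_nonneg _)).2
  · have a1 := h2 (cons p)
    rw [h3, h4] at a1
    have a2 : |p.1| ≤ ‖p‖ := norm_fst_le p
    have a3 : ‖p.2‖ ≤ ‖p‖ := norm_snd_le p
    have a4 := sq_abs p.1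
    refine (abs_le_of_sq_le_sq' ?_ (by positivity)).2
    nlinarith [abs_nonneg p.1, norm_nonneg p.2]

theorem exists_tensor : ∃ N : H →L[ℝ] H →L[ℝ] H,
    ∀ u u' x x', ⟪N u x, N u' x'⟫_ℝ = ⟪u, u'⟫_ℝ * ⟪x, x'⟫_ℝ := by
  have key : ∀ u u' x x' : H, HasSum (fun n : ℕ => (u.co n.unpair.1 * x.co n.unpair.2) *
      (u'.co n.unpair.1 * x'.co n.unpair.2)) (⟪u, u'⟫_ℝ * ⟪x, x'⟫_ℝ) := fun u u' x x' => by
    have a := H.hasSum_inner u u'
    have b := H.hasSum_inner x x'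
    have c := a.mul b (summable_mul_of_summable_norm a.summable.norm b.summable.norm)
    have d := (Nat.pairEquiv.symm.hasSum_iff).2 c
    refine (congrArg (fun f => HasSum f _) (funext fun n => ?_)).mp d
    simp only [Function.comp, Nat.pairEquiv_symm_apply]
    ring
  let N : H →ₗ[ℝ] H →ₗ[ℝ] H := LinearMap.mk₂ ℝ
    (fun u x => H.mk (fun n => u.co n.unpair.1 * x.co n.unpair.2) (key u u x x).summable)
    (fun _ _ _ => H.ext fun _ => by simp [add_mul])
    (fun _ _ _ => H.ext fun _ => by simp [mul_assoc])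
    (fun _ _ _ => H.ext fun _ => by simp [mul_add])
    (fun _ _ _ => H.ext fun _ => by simp [mul_left_comm])
  have h1 : ∀ u u' x x', ⟪N u x, N u' x'⟫_ℝ = ⟪u, u'⟫_ℝ * ⟪x, x'⟫_ℝ := fun u u' x x' =>
    (H.hasSum_inner _ _).unique (key u u' x x')
  refine ⟨N.mkContinuous₂ 1 fun u x => ?_, h1⟩
  refine norm_le_of_inner (by positivity) ?_
  rw [h1, real_inner_self_eq_norm_sq, real_inner_self_eq_norm_sq]
  exact le_of_eq (by ring)

/-- Head coordinate. -/
noncomputable def hd : H →L[ℝ] ℝ := exists_cons.choose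

/-- Tail. -/
noncomputable def tl : H →L[ℝ] H := exists_cons.choose_spec.choose

/-- Prepending a coordinate. -/
noncomputable def cons : ℝ × H →L[ℝ] H := exists_cons.choose_spec.choose_spec.choose

theorem inner_hd_tl (x y : H) : ⟪x, y⟫_ℝ = hd x * hd y + ⟪tl x, tl y⟫_ℝ :=
  exists_cons.choose_spec.choose_spec.choose_spec.1 x y

@[simp] theorem hd_cons (p : ℝ × H) : hd (cons p) = p.1 :=
  exists_cons.choose_spec.choose_spec.choose_spec.2.1 p

@[simp] theorem tl_cons (p : ℝ × H) : tl (cons p) = p.2 :=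
  exists_cons.choose_spec.choose_spec.choose_spec.2.2.1 p

@[simp] theorem cons_hd_tl (x : H) : cons (hd x, tl x) = x :=
  exists_cons.choose_spec.choose_spec.choose_spec.2.2.2 x

theorem norm_sq_hd_tl (x : H) : ‖x‖ ^ 2 = hd x ^ 2 + ‖tl x‖ ^ 2 := by
  rw [← real_inner_self_eq_norm_sq, ← real_inner_self_eq_norm_sq, inner_hd_tl, sq]

theorem inner_cons (p q : ℝ × H) : ⟪cons p, cons q⟫_ℝ = p.1 * q.1 + ⟪p.2, q.2⟫_ℝ := by
  rw [inner_hd_tl]; simp

theorem norm_sq_cons (p : ℝ × H) : ‖cons p‖ ^ 2 = p.1 ^ 2 + ‖p.2‖ ^ 2 := by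
  rw [norm_sq_hd_tl]; simp

theorem abs_hd_le (x : H) : |hd x| ≤ ‖x‖ :=
  abs_le_of_sq_le_sq (by nlinarith [norm_sq_hd_tl x, sq_nonneg ‖tl x‖]) (norm_nonneg _)

theorem norm_tl_le (x : H) : ‖tl x‖ ≤ ‖x‖ :=
  (abs_le_of_sq_le_sq' (by nlinarith [norm_sq_hd_tl x, sq_nonneg (hd x)]) (norm_nonneg _)).2

theorem norm_cons_le (p : ℝ × H) : ‖cons p‖ ≤ |p.1| + ‖p.2‖ := by
  refine (abs_le_of_sq_le_sq' ?_ (by positivity)).2
  rw [norm_sq_cons]
  nlinarith [abs_nonneg p.1, norm_nonneg p.2, sq_abs p.1]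

theorem norm_le_hd_tl (x : H) : ‖x‖ ≤ |hd x| + ‖tl x‖ := by
  simpa using norm_cons_le (hd x, tl x)

/-- Tensor product map. -/
noncomputable def N : H →L[ℝ] H →L[ℝ] H := exists_tensor.choose

theorem inner_N (u u' x x' : H) : ⟪N u x, N u' x'⟫_ℝ = ⟪u, u'⟫_ℝ * ⟪x, x'⟫_ℝ :=
  exists_tensor.choose_spec u u' x x'

theorem norm_N (u x : H) : ‖N u x‖ = ‖u‖ * ‖x‖ := by
  refine (sq_eq_sq₀ (norm_nonneg _) (by positivity)).1 ?_
  rw [← real_inner_self_eq_norm_sq, inner_N, real_inner_self_eq_norm_sq,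
    real_inner_self_eq_norm_sq, mul_pow]

theorem exists_M : ∃ M : H →L[ℝ] H →L[ℝ] H, ∀ a x u, ⟪M a x, u⟫_ℝ = ⟪a, N u x⟫_ℝ := by
  let M0 : H → H → H := fun a x => ContinuousLinearMap.adjoint (N.flip x) a
  have h : ∀ a x u, ⟪M0 a x, u⟫_ℝ = ⟪a, N u x⟫_ℝ := fun a x u => by
    simp only [M0, ContinuousLinearMap.adjoint_inner_left, ContinuousLinearMap.flip_apply]
  let M : H →ₗ[ℝ] H →ₗ[ℝ] H := LinearMap.mk₂ ℝ M0
    (fun _ _ _ => ext_inner_right ℝ fun u => by simp [inner_add_left, h])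
    (fun _ _ _ => ext_inner_right ℝ fun u => by simp [inner_smul_left, h])
    (fun _ _ _ => ext_inner_right ℝ fun u => by simp [inner_add_left, inner_add_right, h])
    (fun _ _ _ => ext_inner_right ℝ fun u => by simp [inner_smul_left, inner_smul_right, h])
  refine ⟨M.mkContinuous₂ 1 fun a x => ?_, h⟩
  change ‖M0 a x‖ ≤ _
  have h1 := h a x (M0 a x)
  have h2 := real_inner_le_norm a (N (M0 a x) x)
  rw [real_inner_self_eq_norm_sq] at h1
  rw [norm_N, ← h1] at h2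
  rcases (norm_nonneg (M0 a x)).eq_or_lt with h0 | h0
  · rw [← h0]; positivity
  · nlinarith

/-- Contraction map, adjoint to `N`. -/
noncomputable def M : H →L[ℝ] H →L[ℝ] H := exists_M.choose

theorem inner_M (a x u : H) : ⟪M a x, u⟫_ℝ = ⟪a, N u x⟫_ℝ := exists_M.choose_spec a x u

theorem norm_M_le (a x : H) : ‖M a x‖ ≤ ‖a‖ * ‖x‖ := by
  have h1 := inner_M a x (M a x)
  have h2 := real_inner_le_norm a (N (M a x) x)
  rw [real_inner_self_eq_norm_sq] at h1
  rw [norm_N, ← h1] at h2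
  rcases (norm_nonneg (M a x)).eq_or_lt with h0 | h0
  · rw [← h0]; positivity
  · nlinarith

theorem M_N (u x y : H) : M (N u x) y = ⟪x, y⟫_ℝ • u :=
  ext_inner_right ℝ fun v => by rw [inner_M, inner_N, real_inner_smul_left, mul_comm]

/-- Unit vectors. -/
noncomputable def e : ℕ → H
  | 0 => cons (1, 0)
  | n + 1 => cons (0, e n)

theorem inner_e (i j : ℕ) : ⟪e i, e j⟫_ℝ = if i = j then 1 else 0 := by
  induction i generalizing j with
  | zero => cases j <;> simp [e, inner_cons, -inner_self_eq_norm_sq_to_K]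
  | succ i ih => cases j <;> simp [e, inner_cons, ih, -inner_self_eq_norm_sq_to_K]

theorem norm_e (i : ℕ) : ‖e i‖ = 1 := by
  refine (sq_eq_sq₀ (norm_nonneg _) zero_le_one).1 ?_
  rw [← real_inner_self_eq_norm_sq, inner_e]; simp

/-- The slot embeddings. -/
noncomputable def V (i : ℕ) : H →L[ℝ] H := N (e i)

/-- The slot projections. -/
noncomputable def P (i : ℕ) : H →L[ℝ] H := ContinuousLinearMap.adjoint (V i)

theorem norm_V (i : ℕ) (x : H) : ‖V i x‖ = ‖x‖ := by rw [V, norm_N, norm_e, one_mul]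

theorem inner_P (i : ℕ) (x y : H) : ⟪x, P i y⟫_ℝ = ⟪V i x, y⟫_ℝ :=
  ContinuousLinearMap.adjoint_inner_right _ _ _

theorem P_V (i j : ℕ) (x : H) : P i (V j x) = if i = j then x else 0 :=
  ext_inner_left ℝ fun v => by
    rw [inner_P, V, V, inner_N, inner_e]
    split_ifs <;> simp

theorem norm_P_le (i : ℕ) (x : H) : ‖P i x‖ ≤ ‖x‖ := by
  have h1 := inner_P i (P i x) x
  have h2 := real_inner_le_norm (V i (P i x)) x
  rw [real_inner_self_eq_norm_sq] at h1
  rw [norm_V, ← h1] at h2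
  rcases (norm_nonneg (P i x)).eq_or_lt with h0 | h0
  · rw [← h0]; positivity
  · nlinarith

instance : TopologicalSpace.SeparableSpace H := by
  let b : HilbertBasis ℕ ℝ H := ⟨LinearIsometryEquiv.refl ℝ H⟩
  have h1 : TopologicalSpace.IsSeparable (Set.range b) :=
    (Set.countable_range b).isSeparable
  have h2 := h1.span (R := ℝ) |>.closure
  rw [← TopologicalSpace.isSeparable_univ_iff]
  refine h2.mono fun x _ => ?_
  have : x ∈ (Submodule.span ℝ (Set.range b)).topologicalClosure := by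
    rw [b.dense_span]; trivial
  exact this

end Vale.Agent.P124
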