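import Vale.Agent.P124.Space

/-! The space `VV` contains no copy of the unit vector basis of `c0`. -/

namespace Vale.Agent.P124

open scoped InnerProductSpace Topology ENNReal
open Filter

/-- All signed sums are bounded by `C`. -/
def Bdd (v : ℕ → Amb) (C : ℝ) : Prop :=
  ∀ (S : Finset ℕ) (s : ℕ → ℝ), (∀ j, |s j| ≤ 1) → ‖∑ j ∈ S, s j • v j‖ ≤ C

theorem grow {v : ℕ → Amb} {C : ℝ} (hv : Bdd v C) (f : Amb → ℝ) {c C' : ℝ} (hc : 0 < c)
    (h : ∀ x, ∃ᶠ j in atTop, ∃ s : ℝ, |s| ≤ 1 ∧ f x + c ≤ f (x + s • v j))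
    (hf : ∀ x, ‖x‖ ≤ C → f x ≤ C') : False := by
  classical
  have key : ∀ n : ℕ, ∃ (S : Finset ℕ) (s : ℕ → ℝ), (∀ j, |s j| ≤ 1) ∧
      f 0 + n * c ≤ f (∑ j ∈ S, s j • v j) := fun n => by
    induction n with
    | zero => exact ⟨∅, 0, by simp, by simp⟩
    | succ n ih =>
      obtain ⟨S, s, h1, h2⟩ := ih
      obtain ⟨j, ⟨t, h3, h4⟩, h5⟩ := ((h (∑ j ∈ S, s j • v j)).and_eventually
        (eventually_gt_atTop (S.sup id))).exists
      have h6 : j ∉ S := fun h => (Finset.le_sup (f := id) h).not_gt h5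
      refine ⟨insert j S, Function.update s j t, fun i => ?_, ?_⟩
      · rw [Function.update_apply]
        split_ifs
        exacts [h3, h1 i]
      · rw [Finset.sum_insert h6, Function.update_self, add_comm (t • v j),
          Finset.sum_congr rfl fun i hi => by
            rw [Function.update_of_ne (ne_of_mem_of_not_mem hi h6)]]
        push_cast
        linarith
  obtain ⟨n, hn⟩ := exists_nat_gt ((C' - f 0) / c)
  obtain ⟨S, s, h1, h2⟩ := key n
  rw [div_lt_iff₀ hc] at hn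
  linarith [hf _ (hv S s h1)]

theorem Bdd.tendsto_hilbert {v : ℕ → Amb} {C : ℝ} (hv : Bdd v C) (T : Amb →L[ℝ] H) :
    Tendsto (fun j => ‖T (v j)‖) atTop (𝓝 0) := by
  refine tendsto_order.2 ⟨fun a ha => Eventually.of_forall fun j =>
    ha.trans_le (norm_nonneg _), fun η hη => ?_⟩
  by_contra h
  refine grow hv (fun x => ‖T x‖ ^ 2) (pow_pos hη 2) (C' := (‖T‖ * C) ^ 2)
    (fun x => (not_eventually.1 h).mono fun j hj => ?_) fun x hx => ?_
  · have h1 : η ^ 2 ≤ ‖T (v j)‖ ^ 2 := by gcongr; exact not_lt.1 hj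
    rcases le_total 0 ⟪T x, T (v j)⟫_ℝ with h2 | h2
    · refine ⟨1, by simp, ?_⟩
      rw [one_smul, map_add, norm_add_sq_real]
      linarith
    · refine ⟨-1, by simp, ?_⟩
      rw [neg_one_smul, ← sub_eq_add_neg, map_sub, norm_sub_sq_real]
      linarith
  · gcongr
    exact T.le_opNorm_of_le hx

theorem Bdd.false_of_lev {v : ℕ → Amb} {C c : ℝ} (hv : Bdd v C) (hc : 0 < c) (h1 : ∀ j, c ≤ ‖v j‖)
    (h2 : ∀ l, Tendsto (fun j => ‖lev l (v j)‖) atTop (𝓝 0)) : False := by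
  classical
  refine grow hv norm (half_pos hc) (fun x => Eventually.frequently ?_) fun _ h => h
  obtain ⟨s, hs⟩ := ((hasSum_lev x).eventually (lt_mem_nhds
    (by linarith : ‖x‖ - c / 8 < ‖x‖))).exists
  have h3 := tendsto_finsetSum s fun l _ => h2 l
  filter_upwards [h3.eventually (gt_mem_nhds (by simpa using hc : ∑ l ∈ s, (0 : ℝ) < c / 8))]
    with j hj
  refine ⟨1, by simp, ?_⟩
  have h4 : HasSum (fun l => if l ∈ s then ‖lev l (v j)‖ - ‖lev l x‖ else 0)
      (∑ l ∈ s, if l ∈ s then ‖lev l (v j)‖ - ‖lev l x‖ else 0) :=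
    hasSum_sum_of_ne_finset_zero fun l hl => if_neg hl
  rw [Finset.sum_ite_of_true fun _ h => h, Finset.sum_sub_distrib] at h4
  have h5 := hasSum_le (fun l => ?_) ((hasSum_lev x).add (hasSum_lev (v j)))
    ((hasSum_lev (x + v j)).add (((hasSum_lev x).add h4).mul_left 2))
  · rw [one_smul]
    linarith [h1 j]
  · have a1 := norm_sub_le (lev l x + lev l (v j)) (lev l x)
    have a2 := norm_sub_le (lev l x + lev l (v j)) (lev l (v j))
    rw [add_sub_cancel_left] at a1
    rw [add_sub_cancel_right] at a2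
    rw [map_add]
    split_ifs <;> linarith

theorem Bdd.head_small {v : ℕ → Amb} {C : ℝ} (hv : Bdd v C) (hV : ∀ j, v j ∈ VV) (n : ℕ) {β : ℝ}
    (hβ : 0 ≤ β) {η : ℝ} (hη : 0 < η) : ∀ᶠ j in atTop, ∀ w : Co →₀ H, (∀ c, ‖w c‖ ≤ β) →
      |pr (w.filter fun c => c.idx < n) (v j)| ≤ η := by
  classical
  let s := (finite_valid n).toFinset
  have h1 := (tendsto_finsetSum s fun c _ => hv.tendsto_hilbert (pi c)).const_mul β
  filter_upwards [h1.eventually (ge_mem_nhds (by simpa using hη))] with j hj w hw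
  rw [pr_apply, pair_apply]
  refine le_trans ?_ hj
  rw [Finset.mul_sum]
  refine (Finset.abs_sum_le_sum_abs _ _).trans ((Finset.sum_filter_ne_zero _).ge.trans
    ((Finset.sum_le_sum_of_subset_of_nonneg ?_ fun _ _ _ => abs_nonneg _).trans
    (Finset.sum_le_sum fun c _ => (abs_real_inner_le_norm _ _).trans ?_)))
  · intro c hc
    obtain ⟨hc, h0⟩ := Finset.mem_filter.1 hc
    refine (Set.Finite.mem_toFinset _).2 ⟨(Finset.mem_filter.1 hc).2, fun h => h0 ?_⟩
    have : pi c (v j) = (0 : Amb →L[ℝ] H) (v j) := eq_on_VV (fun k => by simp [pi_Jh, h]) (hV j)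
    simp [this]
  · gcongr
    rw [Finsupp.filter_apply]
    split_ifs
    exacts [hw c, by simpa using hβ]

theorem pr_restr {l : Lv} {w : Co →₀ H} (h1 : Der 1 w) (h2 : Fine (sg l) w) {n b : ℕ}
    (hb : n ≤ b) {v : Amb} {η : ℝ} (h3 : |pr (w.filter fun c => c.idx < n) v| ≤ η)
    (h4 : ∀ w b', Der 1 w → Fine (sg l) w → Supp w (b + 1) b' → |pr w v| ≤ η) :
    |pr w v - pr (restr n b w) v| ≤ 2 * η := by
  obtain ⟨B, hB⟩ := exists_supp w
  have e : w = (w.filter fun c => c.idx < n) + restr n b w + restr (b + 1) B w := by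
    ext1 c
    by_cases h : w c = 0
    · simp [restr_apply, Finsupp.filter_apply, h]
    · have := hB c h
      simp only [Finsupp.add_apply, restr_apply, Finsupp.filter_apply]
      split_ifs <;> first | omega | simp
  have h5 := h4 _ B (h1.restr _ _) (h2.restr _ _) (supp_restr _ _ _)
  have e' := congrArg (pair fun c => pi c v) e
  simp only [map_add, ← pr_apply] at e'
  rw [abs_le] at *
  constructor <;> linarith [h3.1, h3.2, h5.1, h5.2]

theorem Bdd.tendsto_snd {v : ℕ → Amb} {C : ℝ} (hv : Bdd v C) (hV : ∀ j, v j ∈ VV) (l : Lv) :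
    Tendsto (fun j => ‖(lev l (v j)).2‖) atTop (𝓝 0) := by
  classical
  refine tendsto_order.2 ⟨fun a ha => Eventually.of_forall fun j =>
    ha.trans_le (norm_nonneg _), fun ε₀ hε₀ => ?_⟩
  by_contra h
  have h0 := lw_pos l
  set ε := ε₀ / 2 / lw l with hε
  have hε0 : 0 < ε := by positivity
  have h1 : ∃ᶠ j in atTop, ∃ w, Der 1 w ∧ Fine (sg l) w ∧ ε < pr w (v j) :=
    (not_eventually.1 h).mono fun j hj => by
      obtain ⟨w, hw⟩ : ∃ w, ε₀ / 2 < ‖(lev l (v j)).2 w‖ := by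
        by_contra h2
        push Not at h2
        linarith [lp.norm_le_of_forall_le (half_pos hε₀).le h2]
      rw [lev_apply l w (hV j), norm_lw_mul, ← div_lt_iff₀' h0] at hw
      rcases lt_abs.1 hw with h2 | h2
      · exact ⟨w.1, w.2.1, w.2.2, h2⟩
      · refine ⟨(-1 : ℝ) • w.1, by simpa using w.2.1.smul (-1), w.2.2.smul_le (by simp), ?_⟩
        rwa [pr_apply, map_smul, ← pr_apply, smul_eq_mul, neg_one_mul]
  obtain ⟨M, hM⟩ := exists_nat_gt (2 * C / ε)
  obtain ⟨hθ, hL, hop⟩ := (opA (sg l) (lw_op_pos l M)).choose_spec.choose_spec.choose_spec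
  set L := (opA (sg l) (lw_op_pos l M)).choose
  set θ := (opA (sg l) (lw_op_pos l M)).choose_spec.choose
  change ∀ w b, _ → ∃ S u, _ ∧ _ ∧ Fine (sg (.op l M)) u ∧ _ at hop
  set η := min (ε / 8) (θ * ε / 8)
  have hη : 0 < η := lt_min (by positivity) (by positivity)
  obtain ⟨φ, hφ, h2⟩ := extraction_forall_of_frequently fun n => h1.and_eventually
    (hv.head_small hV n (β := sg l 0 + sg (.op l M) 0) (by positivity) hη)
  choose w w1 w2 w3 using fun n => (h2 n).1
  have h3 : ∀ n, ∃ b, n ≤ b ∧ (∀ w b', Der 1 w → Fine (sg l) w → Supp w (b + 1) b' →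
      |pr w (v (φ n))| ≤ η) ∧ ∀ w b', Der 1 w → Fine (sg (.op l M)) w → Supp w (b + 1) b' →
      |pr w (v (φ n))| ≤ η := fun n =>
    ((eventually_ge_atTop n).and ((tendsto_add_atTop_nat 1).eventually
      ((tail_small l (hV _) hη).and (tail_small (.op l M) (hV _) hη)))).exists
  choose b b1 b2 b3 using h3
  obtain ⟨S, u, s1, s2, s3, s4⟩ := hop (fun n => restr n (b n) (w n)) b
    fun n => ⟨supp_restr _ _ _, (w1 n).restr _ _, (w2 n).restr _ _⟩
  have h4 : ∀ n ∈ S, θ * ε / 2 ≤ pr u (v (φ n)) := fun n hn => by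
    have a1 := pr_restr (w1 n) (w2 n) (b1 n) ((h2 n).2 _ fun c =>
      ((w2 n).1 c).trans (le_add_of_nonneg_right (Nat.cast_nonneg _))) (b2 n)
    have a2 := pr_restr s2 s3 (b1 n) ((h2 n).2 _ fun c =>
      (s3.1 c).trans (le_add_of_nonneg_left (Nat.cast_nonneg _))) (b3 n)
    rw [s4 n hn, pr_apply (θ • _), map_smul, ← pr_apply, smul_eq_mul] at a2
    have a3 : 3 / 4 * ε ≤ pr (restr n (b n) (w n)) (v (φ n)) := by
      linarith [abs_le.1 a1, w3 n, min_le_left (ε / 8) (θ * ε / 8)]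
    have a4 := mul_le_mul_of_nonneg_left a3 hθ.le
    linarith [abs_le.1 a2, min_le_right (ε / 8) (θ * ε / 8)]
  have h5 := hv (S.image φ) 1 (by simp)
  rw [Finset.sum_image fun _ _ _ _ h => hφ.injective h] at h5
  simp only [Pi.one_apply, one_smul] at h5
  have h6 := (pr_le s2 s3 (VV.sum_mem fun n _ => hV (φ n))).trans h5
  have h7 := (Finset.sum_le_sum h4).trans (le_abs_self _)
  rw [Finset.sum_const, s1, nsmul_eq_mul, ← map_sum] at h7
  have h8 := lw_pos (.op l M)
  have h9 := (mul_le_mul_of_nonneg_left h7 h8.le).trans h6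
  rw [eq_div_iff h8.ne'] at hL
  rw [div_lt_iff₀ hε0] at hM
  have : lw (.op l M) * (L * (θ * ε / 2)) = (θ * L * lw (.op l M)) * ε / 2 := by ring
  rw [this, hL] at h9
  linarith

theorem no_c0 {v : ℕ → Amb} {C c : ℝ} (hv : Bdd v C) (hV : ∀ j, v j ∈ VV) (hc : 0 < c)
    (h1 : ∀ j, c ≤ ‖v j‖) : False :=
  hv.false_of_lev hc h1 fun l => by
    have := (hv.tendsto_hilbert (ContinuousLinearMap.fst ℝ _ _ ∘L lev l)).max
      (hv.tendsto_snd hV l)
    rwa [max_self] at this

theorem not_iso (T : (C0 ℝ × VV) →L[ℝ] VV) : ¬ Function.Bijective T := fun hT => by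
  let E := ContinuousLinearEquiv.ofBijective T (LinearMap.ker_eq_bot.2 hT.1)
    (LinearMap.range_eq_top.2 hT.2)
  let S : VV →L[ℝ] C0 ℝ × VV := E.symm
  have h0 := norm_nonneg S
  refine no_c0 (v := fun j => T (C0.one j 1, 0)) (C := ‖T‖) (c := 1 / (‖S‖ + 1))
    (fun A s hs => ?_) (fun j => Subtype.prop _) (by positivity) fun j => ?_
  · have h1 : ‖∑ j ∈ A, s j • ((C0.one j 1, 0) : C0 ℝ × VV)‖ ≤ 1 := by
      refine norm_prod_le_iff.2 ⟨C0.norm_le zero_le_one fun i => ?_, by simp [Prod.snd_sum]⟩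
      simp only [Prod.fst_sum, Prod.smul_fst, C0.sum_apply, C0.smul_apply, C0.one_apply,
        smul_eq_mul, mul_ite, mul_one, mul_zero, Finset.sum_ite_eq]
      split_ifs
      exacts [hs i, by simp]
    have h2 := T.unit_le_opNorm _ h1
    simp only [map_sum, map_smul] at h2
    rw [Submodule.coe_norm] at h2
    simpa using h2
  · have h1 := S.le_opNorm (T (C0.one j 1, 0))
    have h2 : S (T (C0.one j 1, 0)) = (C0.one j 1, 0) := E.symm_apply_apply _
    have h3 := (C0.le_norm (C0.one j (1 : ℝ)) j).trans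
      (norm_fst_le ((C0.one j 1, 0) : C0 ℝ × VV))
    rw [h2] at h1
    simp only [C0.one_apply, if_true, norm_one] at h3
    change _ ≤ ‖T (C0.one j 1, 0)‖
    rw [div_le_iff₀ (by positivity)]
    nlinarith [norm_nonneg (T (C0.one j 1, 0))]

end Vale.Agent.P124
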