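import Vale.Agent.P124.Step

/-! The averaging operation on localized functions. -/

namespace Vale.Agent.P124

open scoped InnerProductSpace Topology
open Filter

/-- No state passes first through `q` and then through `q'`. -/
def Excl (D : ℝ) (q q' : H × ℝ) : Prop :=
  ∀ x, Om x → ∀ i i', i ≤ i' → Hit x i q D → ¬ Hit x i' q' D

theorem cell_types (U : Ultrafilter ℕ) (q : ℕ → H × ℝ) (hq : ∀ j, 0 < (q j).2) {D : ℝ}
    (hD : 0 < D) : ∃ (A : Set ℕ) (α : ℝ) (l : ℕ → H), A ∈ U ∧ 0 < α ∧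
    ((∀ j ∈ A, ∀ᶠ j' in U, Excl D (q j) (q j')) ∨
    (∀ᶠ j in U, ∀ x i, Hit x i (q j) D → α ≤ tau i x ∧ tau i x ≤ 4 * D ^ 2 * α) ∨
    (∀ n, ∀ᶠ j in U, ∀ x i, n < i → Hit x i (q j) D → Near l n x)) := by
  by_cases h1 : ∀ R, ∀ᶠ j in U, R < (q j).2
  · refine ⟨Set.univ, 1, 0, univ_mem, one_pos, Or.inl fun j _ =>
      (h1 (D * (D * (q j).2))).mono fun j' h x hx i i' hi h2 h3 => ?_⟩
    have : D * tau i' x ≤ D * (D * (q j).2) := by gcongr; exact (hx.anti hi).trans h2.2.2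
    linarith [h3.2.1]
  obtain ⟨R, hR⟩ := not_forall.1 h1
  rw [← Ultrafilter.eventually_not] at hR
  obtain ⟨ρ, hρ, h2⟩ := (isCompact_Icc (a := (0 : ℝ)) (b := R)).ultrafilter_le_nhds
    (U.map fun j => (q j).2) (le_principal_iff.2 (hR.mono fun j hj => ⟨(hq j).le, not_lt.1 hj⟩))
  change Tendsto (fun j => (q j).2) U (𝓝 ρ) at h2
  rcases hρ.1.eq_or_lt with h0 | h0
  swap
  · refine ⟨Set.univ, ρ / (2 * D), 0, univ_mem, by positivity, Or.inr (Or.inl ?_)⟩
    filter_upwards [h2.eventually (lt_mem_nhds (half_lt_self h0)),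
      h2.eventually (gt_mem_nhds (lt_two_mul_self h0))] with j a1 a2 x i h
    refine ⟨by rw [div_le_iff₀ (by positivity)]; linarith [h.2.1], h.2.2.trans ?_⟩
    calc _ ≤ D * (2 * ρ) := by gcongr
      _ = _ := by field_simp; ring
  rw [← h0] at h2
  by_cases h3 : ∃ ε, 0 < ε ∧ ∀ y, ∀ᶠ j in U, ε < ‖(q j).1 - y‖
  · obtain ⟨ε, hε, h3⟩ := h3
    have h4 : ∀ᶠ j in U, D * (q j).2 < ε / 3 :=
      (h2.const_mul D).eventually (gt_mem_nhds (by rw [mul_zero]; positivity))
    refine ⟨_, 1, 0, h4, one_pos, Or.inl fun j hj => ?_⟩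
    filter_upwards [h4, h3 (q j).1] with j' a1 a2 x hx i i' hi a3 a4
    have b1 := hx.yy_sub hi
    have b2 := norm_sub_le_norm_sub_add_norm_sub (q j').1 (yy i' x) (q j).1
    have b3 := norm_sub_le_norm_sub_add_norm_sub (yy i' x) (yy i x) (q j).1
    rw [norm_sub_rev (q j').1 (yy i' x)] at b2
    have : D * (q j).2 < ε / 3 := hj
    linarith [a3.1, a4.1, a3.2.2]
  · have h4 : Cauchy (map (fun j => (q j).1) U) := by
      refine Metric.cauchy_iff.2 ⟨inferInstance, fun ε hε => ?_⟩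
      obtain ⟨y, hy⟩ := not_forall.1 fun h => h3 ⟨ε / 3, by positivity, h⟩
      rw [← Ultrafilter.eventually_not] at hy
      refine ⟨Metric.closedBall y (ε / 3), hy.mono fun j hj => ?_, fun a ha b hb => ?_⟩
      · exact mem_closedBall_iff_norm.2 (not_lt.1 hj)
      · linarith [dist_triangle_right a b y, Metric.mem_closedBall.1 ha, Metric.mem_closedBall.1 hb]
    obtain ⟨y, hy⟩ := CompleteSpace.complete h4
    refine ⟨Set.univ, 1, fun i => (wt i)⁻¹ • P i y, univ_mem, one_pos, Or.inr (Or.inr fun n => ?_)⟩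
    have h5 : Tendsto (fun j => D * (q j).2 + ‖(q j).1 - y‖) U (𝓝 (D * 0 + 0)) :=
      (h2.const_mul D).add (tendsto_iff_norm_sub_tendsto_zero.1 hy)
    have := wt_pos n
    filter_upwards [h5.eventually (ge_mem_nhds (by simp; positivity : D * 0 + 0 < wt n / (n + 1)))]
      with j hj x i hi h
    refine near_of_yy hi (fun i _ => by rw [smul_inv_smul₀ (wt_pos i).ne']) ?_
    linarith [norm_sub_le_norm_sub_add_norm_sub (yy i x) (q j).1 y, h.1]

theorem card_le_one_of {T : Finset ℕ} (h : ∀ k ∈ T, ∀ k' ∈ T, ¬ k < k') : T.card ≤ 1 :=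
  Finset.card_le_one.2 fun a ha b hb => le_antisymm (not_lt.1 (h b hb a ha)) (not_lt.1 (h a ha b hb))

theorem count_halving {g : ℕ → ℝ} (hg : Antitone g) (hg0 : ∀ i, 0 ≤ g i) {j m : ℕ → ℕ}
    (h1 : ∀ k, j k ≤ m k) (h2 : ∀ k, m k ≤ j (k + 1)) {T : Finset ℕ} {α β : ℝ} (hαβ : α ≤ β)
    (h : ∀ k ∈ T, 2 * g (m k) ≤ g (j k) ∧ α ≤ g (j k) ∧ g (m k) ≤ β) (hβ : 0 ≤ β) :
    T.card * α ≤ 4 * β := by
  let f := fun k => min (g (j k)) (2 * β)
  obtain ⟨L, hL⟩ := T.exists_nat_subset_range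
  have a1 : ∀ k, 0 ≤ f k - f (k + 1) := fun k =>
    sub_nonneg.2 (min_le_min_right _ (hg ((h1 k).trans (h2 k))))
  have a2 : ∀ k ∈ T, α / 2 ≤ f k - f (k + 1) := fun k hk => by
    obtain ⟨b1, b2, b3⟩ := h k hk
    have b4 : f (k + 1) ≤ g (m k) := (min_le_left _ _).trans (hg (h2 k))
    have b5 : g (m k) + α / 2 ≤ f k := le_min (by linarith) (by linarith)
    linarith
  have a3 := (Finset.sum_le_sum a2).trans
    (Finset.sum_le_sum_of_subset_of_nonneg hL fun k _ _ => a1 k)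
  rw [Finset.sum_range_sub', Finset.sum_const, nsmul_eq_mul] at a3
  have : f 0 ≤ 2 * β := min_le_right _ _
  have : 0 ≤ f L := le_min (hg0 _) (by linarith)
  linarith

/-- Data of one step. -/
structure St where
  j : ℕ
  m : ℕ
  n : ℕ
  n' : ℕ
  t : Co →₀ H

theorem exists_blocks (σ : ℝ → ℕ) {δ : ℝ} (hδ : 0 < δ) : ∃ (C : ℝ) (σ' : ℝ → ℕ) (K : ℕ), 0 ≤ C ∧
    ∀ (w : ℕ → Co →₀ H) (b : ℕ → ℕ), (∀ j, Supp (w j) j (b j) ∧ Der 1 (w j) ∧ Fine σ (w j)) →
      ∃ f : ℕ → St, (∀ k, (f k).j ≤ (f k).m ∧ b (f k).j ≤ (f k).m ∧ Supp (f k).t (f k).j (f k).m ∧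
        restr (f k).j (b (f k).j) (f k).t = w (f k).j ∧ Der C (f k).t ∧ Fine σ' (f k).t) ∧
        (∀ k k', k < k' → (f k).m < (f k').j) ∧ ∀ x, Om x → ∀ T : Finset ℕ,
          (∀ k ∈ T, (Cm + 2) * δ < ‖DF (f k).t x‖) → T.card ≤ K := by
  classical
  obtain ⟨C, σ', hC, hstep⟩ := exists_step σ hδ (σ δ)
  set S := σ δ with hS
  refine ⟨C, σ', 1 + S * (16 * S ^ 2 + 1), hC, fun w b hw => ?_⟩
  have hq : ∀ j, ∃ q : ℕ → H × ℝ, (∀ s, 0 < (q s).2) ∧ ∀ x, Om x → δ < act (w j) j x →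
      ∃ s < S, ∃ i, j ≤ i ∧ i ≤ b j ∧ Hit x i (q s) S := fun j => by
    have h0 := (hw j).2.2.2 j (b j)
    rw [(hw j).1.restr_self le_rfl le_rfl] at h0
    obtain ⟨s, h1, h2, h3⟩ := h0 δ hδ
    refine ⟨fun k => if h : k < s.card then (s.equivFin.symm ⟨k, h⟩ : H × ℝ) else (0, 1),
      fun k => ?_, fun x hx h => ?_⟩
    · dsimp only
      split_ifs
      · exact h2 _ (Subtype.prop _)
      · exact one_pos
    · obtain ⟨q, hq, h4⟩ := h3 x hx h
      refine ⟨s.equivFin ⟨q, hq⟩, (Fin.prop _).trans_le h1, ?_⟩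
      simpa using h4
  choose q hq0 hq using hq
  let U := hyperfilter ℕ
  have hU : (U : Filter ℕ) ≤ atTop := Nat.hyperfilter_le_atTop
  have hty := fun s (hs : s ∈ Finset.range S) => cell_types U (fun j => q j s) (fun j => hq0 j s)
    (D := S) (by exact_mod_cast (Nat.zero_le s).trans_lt (Finset.mem_range.1 hs))
  choose! A α l hA hα hty using hty
  let X : ℕ → Prop := fun s => ∀ j ∈ A s, ∀ᶠ j' in U, Excl S (q j s) (q j' s)
  let Λ := (Finset.range S).image l
  obtain ⟨f, hf, hr⟩ := exists_seq_of_forall_finset_exists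
    (fun y : St => (y.j ≤ y.m ∧ b y.j ≤ y.m ∧ Supp y.t y.j y.m ∧ restr y.j (b y.j) y.t = w y.j ∧
      Der C y.t ∧ Fine σ' y.t) ∧ (∀ s ∈ Finset.range S, y.j ∈ A s) ∧
      (∀ l ∈ Λ, ∀ x, Om x → Near l y.n' x → ‖DF y.t x‖ ≤ (Cm + 2) * δ) ∧
      ∀ x, Om x → ‖DF y.t x‖ ≤ (Cm + 2) * δ ∨ (∃ l ∈ Λ, Near l y.n x) ∨
        ∃ s ∈ Finset.range S, 2 * tau y.m x ≤ tau y.j x ∧ ∃ i, y.j ≤ i ∧ i ≤ y.m ∧
          Hit x i (q y.j s) S ∧ (X s ∨ (α s ≤ tau i x ∧ tau i x ≤ 4 * S ^ 2 * α s)))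
    (fun y y' => y.m < y'.j ∧ y.n' ≤ y'.n ∧
      ∀ s ∈ Finset.range S, X s → Excl S (q y.j s) (q y'.j s)) fun Y hY => by
      let n := Y.sup St.n'
      have e1 : ∀ᶠ j in U, ∀ s ∈ Finset.range S, j ∈ A s ∧ (X s → ∀ y ∈ Y,
          Excl S (q y.j s) (q j s)) ∧ ∀ x i, n < i → Hit x i (q j s) S →
            X s ∨ (α s ≤ tau i x ∧ tau i x ≤ 4 * S ^ 2 * α s) ∨ Near (l s) n x := by
        refine (eventually_all_finset _).2 fun s hs => Eventually.and (hA s hs) (Eventually.and ?_ ?_)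
        · by_cases h : X s
          · exact ((eventually_all_finset _).2 fun y hy => h _ ((hY y hy).2.1 s hs)).mono
              fun _ h _ => h
          · exact Eventually.of_forall fun _ h' => (h h').elim
        · rcases hty s hs with h | h | h
          · exact Eventually.of_forall fun _ _ _ _ _ => Or.inl h
          · exact h.mono fun j hj x i _ h1 => Or.inr (Or.inl (hj x i h1))
          · exact (h n).mono fun j hj x i h0 h1 => Or.inr (Or.inr (hj x i h0 h1))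
      obtain ⟨j, e1, e2, e3, e4⟩ := (e1.and (Eventually.filter_mono hU
        ((hstep Λ (Finset.card_image_le.trans (Finset.card_range S).le)).and
          ((eventually_gt_atTop n).and (eventually_gt_atTop (Y.sup St.m)))))).exists
      obtain ⟨t, m, n', a1, a2, a3, a4, a5, a6, a7, a8⟩ :=
        e2 (w j) (b j) n (hw j).1 (hw j).2.1 (hw j).2.2
      refine ⟨⟨j, m, n, n', t⟩, ⟨⟨a1, a2, a3, a4, a5, a6⟩, fun s hs => (e1 s hs).1, a7,
        fun x hx => ?_⟩, fun y hy => ⟨(Finset.le_sup hy).trans_lt e4, Finset.le_sup hy,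
          fun s hs h => (e1 s hs).2.1 h y hy⟩⟩
      rcases a8 x hx with h | h | h
      · exact Or.inl h
      · exact Or.inr (Or.inl h)
      · obtain ⟨s, hs, i, b1, b2, b3⟩ := hq j x hx h.2
        have hs' := Finset.mem_range.2 hs
        rcases or_assoc.2 ((e1 s hs').2.2 x i (e3.trans_le b1) b3) with h' | h'
        · exact Or.inr (Or.inr ⟨s, hs', h.1, i, b1, b2.trans a2, b3, h'⟩)
        · exact Or.inr (Or.inl ⟨_, Finset.mem_image_of_mem _ hs', h'⟩)
  refine ⟨f, fun k => (hf k).1, fun k k' h => (hr k k' h).1, fun x hx T hT => ?_⟩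
  let T' : ℕ → Finset ℕ := fun s => T.filter fun k => 2 * tau (f k).m x ≤ tau (f k).j x ∧
    ∃ i, (f k).j ≤ i ∧ i ≤ (f k).m ∧ Hit x i (q (f k).j s) S ∧
      (X s ∨ (α s ≤ tau i x ∧ tau i x ≤ 4 * S ^ 2 * α s))
  have c1 : T ⊆ T.filter (fun k => ∃ l ∈ Λ, Near l (f k).n x) ∪ (Finset.range S).biUnion T' :=
    fun k hk => by
    rcases (hf k).2.2.2 x hx with h | h | ⟨s, hs, h⟩
    · exact ((hT k hk).not_ge h).elim
    · exact Finset.mem_union_left _ (Finset.mem_filter.2 ⟨hk, h⟩)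
    · exact Finset.mem_union_right _ (Finset.mem_biUnion.2 ⟨s, hs, Finset.mem_filter.2 ⟨hk, h⟩⟩)
  refine (Finset.card_le_card c1).trans ((Finset.card_union_le _ _).trans (add_le_add
    (card_le_one_of fun k hk k' hk' h => ?_) ?_))
  · obtain ⟨l, hl, h1⟩ := (Finset.mem_filter.1 hk').2
    exact (hT k (Finset.mem_filter.1 hk).1).not_ge
      ((hf k).2.2.1 l hl x hx (h1.mono (hr k k' h).2.1))
  · refine (Finset.card_biUnion_le_card_mul _ _ _ fun s hs => ?_).trans_eq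
      (by rw [Finset.card_range])
    by_cases h : X s
    · refine (card_le_one_of fun k hk k' hk' h1 => ?_).trans (by omega)
      obtain ⟨-, i, -, b1, b2, -⟩ := (Finset.mem_filter.1 hk).2
      obtain ⟨-, i', b3, -, b4, -⟩ := (Finset.mem_filter.1 hk').2
      exact (hr k k' h1).2.2 s hs h x hx i i' (b1.trans ((hr k k' h1).1.le.trans b3)) b2 b4
    · have h0 := hα s hs
      have hS1 : (1 : ℝ) ≤ S := by exact_mod_cast (Nat.zero_le s).trans_lt (Finset.mem_range.1 hs)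
      have := count_halving (g := fun i => tau i x) (fun _ _ h => hx.anti h)
        (fun i => (hx.pos i).le) (fun k => (hf k).1.1) (fun k => (hr k _ k.lt_succ_self).1.le)
        (T := T' s) (α := α s) (β := 4 * S ^ 2 * α s)
        (le_mul_of_one_le_left h0.le (by nlinarith)) (fun k hk => by
          obtain ⟨b0, i, b1, b2, -, b3⟩ := (Finset.mem_filter.1 hk).2
          exact ⟨b0, (b3.resolve_left h).1.trans (hx.anti b1),
            (hx.anti b2).trans (b3.resolve_left h).2⟩) (by positivity)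
      have : ((T' s).card : ℝ) ≤ 16 * S ^ 2 + 1 := le_of_mul_le_mul_right (by linarith) h0
      exact_mod_cast this

theorem opA (σ : ℝ → ℕ) {M : ℝ} (hM : 0 < M) : ∃ (L : ℕ) (θ : ℝ) (σ' : ℝ → ℕ), 0 < θ ∧
    θ * L = M ∧ ∀ (w : ℕ → Co →₀ H) (b : ℕ → ℕ),
      (∀ j, Supp (w j) j (b j) ∧ Der 1 (w j) ∧ Fine σ (w j)) → ∃ (S : Finset ℕ) (u : Co →₀ H),
        S.card = L ∧ Der 1 u ∧ Fine σ' u ∧ ∀ j ∈ S, restr j (b j) u = θ • w j := by
  classical
  have hCm := one_le_Cm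
  set δ := 1 / (2 * (Cm + 2) * M) with hδ
  have hδ0 : 0 < δ := by positivity
  obtain ⟨C, σ₁, K, hC, h⟩ := exists_blocks σ hδ0
  obtain ⟨L, hL⟩ := exists_nat_ge (M + 2 * M * (C * (K + 2)))
  have hML : M ≤ L := le_trans (le_add_of_nonneg_right (by positivity)) hL
  have hL0 : (0 : ℝ) < L := hM.trans_le hML
  obtain ⟨σ', hσ'⟩ := exists_fine_sum σ₁ L
  refine ⟨L, M / L, σ', by positivity, by field_simp, fun w b hw => ?_⟩
  obtain ⟨f, h1, h2, h3⟩ := h w b hw
  have hmono : StrictMono fun k => (f k).j := fun k k' h => (h1 k).1.trans_lt (h2 k k' h)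
  refine ⟨(Finset.range L).image fun k => (f k).j, (M / L) • ∑ k ∈ Finset.range L, (f k).t,
    by rw [Finset.card_image_of_injective _ hmono.injective, Finset.card_range],
    fun a b' x hx => ?_, (hσ' _ _ (Finset.card_range L).le fun k _ => (h1 k).2.2.2.2.2).smul_le
      (by rw [abs_of_pos (by positivity), div_le_one hL0]; exact hML), fun j hj => ?_⟩
  · let T : ℕ → Finset ℕ := fun c => (Finset.range L).filter fun k => (f k).j ≤ c ∧ c ≤ (f k).m
    have hT : ∀ c, (T c).card ≤ 1 := fun c => card_le_one_of fun k hk k' hk' h => by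
      have := h2 k k' h
      have := (Finset.mem_filter.1 hk).2
      have := (Finset.mem_filter.1 hk').2
      omega
    let B := ((Finset.range L).filter fun k => (Cm + 2) * δ < ‖DF (f k).t x‖) ∪ (T a ∪ T b')
    have hB : (B.card : ℝ) ≤ K + 2 := by
      have : B.card ≤ K + (1 + 1) := (Finset.card_union_le _ _).trans (add_le_add
        (h3 x hx _ fun k hk => (Finset.mem_filter.1 hk).2)
        ((Finset.card_union_le _ _).trans (add_le_add (hT a) (hT b'))))
      exact_mod_cast this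
    have hk : ∀ k ∈ Finset.range L, ‖DF (restr a b' (f k).t) x‖ ≤
        (Cm + 2) * δ + if k ∈ B then C else 0 := fun k hk => by
      split_ifs with h
      · exact ((h1 k).2.2.2.2.1 a b' x hx).trans (le_add_of_nonneg_left (by positivity))
      · simp only [B, T, Finset.mem_union, Finset.mem_filter, hk, true_and, not_or, not_lt] at h
        by_cases h4 : a ≤ (f k).j ∧ (f k).m ≤ b'
        · rw [(h1 k).2.2.1.restr_self h4.1 h4.2, add_zero]
          exact h.1
        · rw [(h1 k).2.2.1.restr_zero (by have := (h1 k).1; omega), DF_zero, norm_zero]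
          positivity
    rw [restr_smul, restr_sum, DF_smul _ _ hx, DF_sum _ _ hx, norm_smul,
      Real.norm_of_nonneg (by positivity)]
    have h5 := norm_sum_le_of_le _ hk
    rw [Finset.sum_add_distrib, Finset.sum_const, Finset.card_range, nsmul_eq_mul,
      Finset.sum_ite_mem, Finset.sum_const, nsmul_eq_mul] at h5
    have h6 : ((Finset.range L ∩ B).card : ℝ) ≤ K + 2 :=
      le_trans (by exact_mod_cast Finset.card_le_card Finset.inter_subset_right) hB
    have h7 : M / L * (L * ((Cm + 2) * δ)) = 1 / 2 := by rw [hδ]; field_simp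
    have h8 : M / L * ((K + 2) * C) ≤ 1 / 2 := by
      rw [div_mul_eq_mul_div, div_le_iff₀ hL0]; linarith
    calc _ ≤ M / L * (L * ((Cm + 2) * δ) + (K + 2) * C) := by
          gcongr
          exact h5.trans (by gcongr)
      _ ≤ 1 := by rw [mul_add]; linarith
  · obtain ⟨k, hk, rfl⟩ := Finset.mem_image.1 hj
    rw [restr_smul, restr_sum, Finset.sum_eq_single_of_mem k hk, (h1 k).2.2.2.1]
    intro k' _ hk'
    refine (h1 k').2.2.1.restr_zero ?_
    rcases lt_or_gt_of_ne hk' with h | h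
    · exact Or.inr (h2 k' k h)
    · exact Or.inl ((h1 k).2.1.trans_lt (h2 k k' h))

end Vale.Agent.P124
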