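import Vale.Agent.P124.OpA

/-! Null sequences and the basic nonlinear rotation. -/

namespace Vale.Agent.P124

open scoped InnerProductSpace Topology ZeroAtInfty
open Filter

theorem cocompact_nat : cocompact ℕ = atTop := by
  rw [cocompact_eq_cofinite, Nat.cofinite_eq_atTop]

/-- Null sequences in `K`. -/
def C0 (K : Type) [NormedAddCommGroup K] : Type := C₀(ℕ, K)

namespace C0

variable {K : Type} [NormedAddCommGroup K]

noncomputable instance : NormedAddCommGroup (C0 K) := inferInstanceAs (NormedAddCommGroup C₀(ℕ, K))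

noncomputable instance [NormedSpace ℝ K] : NormedSpace ℝ (C0 K) :=
  inferInstanceAs (NormedSpace ℝ C₀(ℕ, K))

instance [CompleteSpace K] : CompleteSpace (C0 K) := inferInstanceAs (CompleteSpace C₀(ℕ, K))

/-- The terms of a null sequence. -/
@[coe] def get (x : C0 K) (i : ℕ) : K := (show C₀(ℕ, K) from x) i

instance : CoeFun (C0 K) fun _ => ℕ → K := ⟨get⟩

theorem ext {x y : C0 K} (h : ∀ i, x i = y i) : x = y := ZeroAtInftyContinuousMap.ext h

@[simp] theorem add_apply (x y : C0 K) (i : ℕ) : (x + y) i = x i + y i := rfl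

@[simp] theorem sub_apply (x y : C0 K) (i : ℕ) : (x - y) i = x i - y i := rfl

@[simp] theorem smul_apply [NormedSpace ℝ K] (t : ℝ) (x : C0 K) (i : ℕ) : (t • x) i = t • x i := rfl

@[simp] theorem zero_apply (i : ℕ) : (0 : C0 K) i = 0 := rfl

theorem sum_apply {ι : Type*} (s : Finset ι) (x : ι → C0 K) (i : ℕ) :
    (∑ j ∈ s, x j) i = ∑ j ∈ s, x j i :=
  map_sum (⟨⟨fun x : C0 K => x i, rfl⟩, fun _ _ => rfl⟩ : C0 K →+ K) x s

theorem le_norm (x : C0 K) (i : ℕ) : ‖x i‖ ≤ ‖x‖ :=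
  BoundedContinuousFunction.norm_coe_le_norm (ZeroAtInftyContinuousMap.toBCF x) i

theorem norm_le {x : C0 K} {C : ℝ} (hC : 0 ≤ C) (h : ∀ i, ‖x i‖ ≤ C) : ‖x‖ ≤ C :=
  (BoundedContinuousFunction.norm_le (f := ZeroAtInftyContinuousMap.toBCF x) hC).2 h

theorem tendsto (x : C0 K) : Tendsto (fun i => ‖x i‖) atTop (𝓝 0) :=
  tendsto_zero_iff_norm_tendsto_zero.1
    (cocompact_nat ▸ ZeroAtInftyContinuousMap.zero_at_infty' x)

/-- Build a null sequence. -/
def mk (f : ℕ → K) (h : Tendsto (fun i => ‖f i‖) atTop (𝓝 0)) : C0 K :=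
  show C₀(ℕ, K) from ⟨⟨f, continuous_of_discreteTopology⟩,
    cocompact_nat ▸ tendsto_zero_iff_norm_tendsto_zero.2 h⟩

@[simp] theorem mk_apply (f : ℕ → K) (h : Tendsto (fun i => ‖f i‖) atTop (𝓝 0)) (i : ℕ) :
    mk f h i = f i := rfl

/-- A sequence with one nonzero term. -/
def one (j : ℕ) (a : K) : C0 K := mk (fun i => if i = j then a else 0)
  (tendsto_const_nhds.congr' ((eventually_gt_atTop j).mono fun i hi => by simp [hi.ne']))

theorem one_apply (j : ℕ) (a : K) (i : ℕ) : one j a i = if i = j then a else 0 := rfl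

instance [NormedSpace ℝ K] [TopologicalSpace.SeparableSpace K] :
    TopologicalSpace.SeparableSpace (C0 K) := by
  have h1 : ∀ j, TopologicalSpace.IsSeparable (Set.range (one j : K → C0 K)) := fun j => by
    refine TopologicalSpace.isSeparable_range (LipschitzWith.of_dist_le_mul (K := 1)
      fun a b => ?_).continuous
    rw [dist_eq_norm, dist_eq_norm, NNReal.coe_one, one_mul]
    refine norm_le (norm_nonneg _) fun i => ?_
    rw [sub_apply, one_apply, one_apply]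
    split_ifs <;> simp
  have h2 := (TopologicalSpace.IsSeparable.iUnion h1).span (R := ℝ) |>.closure
  rw [← TopologicalSpace.isSeparable_univ_iff]
  refine h2.mono fun x _ => Metric.mem_closure_iff.2 fun ε hε => ?_
  obtain ⟨n, hn⟩ := eventually_atTop.1 (x.tendsto.eventually (ge_mem_nhds (half_pos hε)))
  refine ⟨∑ j ∈ Finset.range n, one j (x j), Submodule.sum_mem _ fun j _ =>
    Submodule.subset_span (Set.mem_iUnion.2 ⟨j, _, rfl⟩), ?_⟩
  rw [dist_eq_norm]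
  refine (norm_le (half_pos hε).le fun i => ?_).trans_lt (half_lt_self hε)
  simp only [sub_apply, sum_apply, one_apply, Finset.sum_ite_eq, Finset.mem_range]
  split_ifs with h
  · simpa using (half_pos hε).le
  · simpa using hn i (not_lt.1 h)

end C0

/-- Tail supremum plus a small positive term. -/
noncomputable def ts (k : C0 H) (j : ℕ) : ℝ := (⨆ i, ‖k (i + j)‖) + (1 / 2) ^ j

theorem le_sup_tail (k : C0 H) {i j : ℕ} (h : j ≤ i) : ‖k i‖ ≤ ⨆ i, ‖k (i + j)‖ := by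
  have := le_ciSup (f := fun i => ‖k (i + j)‖) ⟨‖k‖, by rintro _ ⟨i, rfl⟩; exact k.le_norm _⟩ (i - j)
  rwa [Nat.sub_add_cancel h] at this

theorem ts_le {k k' : C0 H} {d : ℝ} (h : ∀ i, ‖k i‖ ≤ ‖k' i‖ + d) (j : ℕ) :
    ts k j ≤ ts k' j + d := by
  have : (⨆ i, ‖k (i + j)‖) ≤ (⨆ i, ‖k' (i + j)‖) + d :=
    ciSup_le fun i => (h _).trans (add_le_add_left (le_sup_tail k' (Nat.le_add_left _ _)) _)
  unfold ts
  linarith

theorem abs_ts_sub {k k' : C0 H} {d : ℝ} (h : ∀ i, |‖k i‖ - ‖k' i‖| ≤ d) (j : ℕ) :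
    |ts k j - ts k' j| ≤ d := by
  have h1 := ts_le (fun i => by linarith [abs_le.1 (h i)] : ∀ i, ‖k i‖ ≤ ‖k' i‖ + d) j
  have h2 := ts_le (fun i => by linarith [abs_le.1 (h i)] : ∀ i, ‖k' i‖ ≤ ‖k i‖ + d) j
  exact abs_le.2 ⟨by linarith, by linarith⟩

theorem norm_lt_ts (k : C0 H) (j : ℕ) : ‖k j‖ < ts k j :=
  lt_add_of_le_of_pos (le_sup_tail k le_rfl) (by positivity)

theorem ts_pos (k : C0 H) (j : ℕ) : 0 < ts k j := (norm_nonneg _).trans_lt (norm_lt_ts k j)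

theorem ts_succ (k : C0 H) (j : ℕ) : ts k (j + 1) ≤ ts k j :=
  add_le_add (ciSup_le fun i => le_sup_tail k (by omega))
    (pow_le_pow_of_le_one (by norm_num) (by norm_num) (Nat.le_succ j))

theorem ts_le_norm (k : C0 H) (j : ℕ) : ts k j ≤ ‖k‖ + 1 :=
  add_le_add (ciSup_le fun _ => k.le_norm _) (pow_le_one₀ (by norm_num) (by norm_num))

theorem tendsto_ts (k : C0 H) : Tendsto (ts k) atTop (𝓝 0) := by
  have h1 : Tendsto (fun j => ⨆ i, ‖k (i + j)‖) atTop (𝓝 0) := by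
    refine tendsto_order.2 ⟨fun a ha => Eventually.of_forall fun j =>
      ha.trans_le ((norm_nonneg _).trans (le_sup_tail k le_rfl)), fun a ha => ?_⟩
    obtain ⟨n, hn⟩ := eventually_atTop.1 (k.tendsto.eventually (ge_mem_nhds (half_pos ha)))
    exact (eventually_ge_atTop n).mono fun j hj =>
      (ciSup_le fun i => hn _ (by omega)).trans_lt (half_lt_self ha)
  have h2 := h1.add (tendsto_pow_atTop_nhds_zero_of_lt_one (r := (1 / 2 : ℝ))
    (by norm_num) (by norm_num))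
  rwa [add_zero] at h2

/-- The state attached to a null sequence. -/
noncomputable def zeta (k : C0 H) : Z := Z.mk (fun i => cons (ts k i, k i)) (2 * ‖k‖ + 1) fun i => by
  have := norm_cons_le (ts k i, k i)
  rw [abs_of_pos (ts_pos k i)] at this
  linarith [ts_le_norm k i, k.le_norm i]

theorem zeta_apply (k : C0 H) (i : ℕ) : zeta k i = cons (ts k i, k i) := rfl

@[simp] theorem tau_zeta (k : C0 H) (i : ℕ) : tau i (zeta k) = ts k i := by
  simp [tau_apply, zeta_apply]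

@[simp] theorem tl_zeta (k : C0 H) (i : ℕ) : tl (zeta k i) = k i := by simp [zeta_apply]

theorem om_zeta (k : C0 H) : Om (zeta k) := fun i => by
  simpa using ⟨ts_pos k i, ts_succ k i, (norm_lt_ts k i).le⟩

theorem zeta_sub_le {k k' : C0 H} {d : ℝ} (h : ∀ i, |‖k i‖ - ‖k' i‖| ≤ d) :
    ‖zeta k - zeta k'‖ ≤ d + ‖k - k'‖ := by
  have := (abs_nonneg _).trans (h 0)
  refine Z.norm_le (by positivity) fun i => ?_
  rw [Z.sub_apply, zeta_apply, zeta_apply, ← map_sub]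
  exact (norm_cons_le _).trans (add_le_add (abs_ts_sub h i) ((k - k').le_norm i))

theorem lip_zeta (k k' : C0 H) : ‖zeta k - zeta k'‖ ≤ 2 * ‖k - k'‖ :=
  (zeta_sub_le fun i => (abs_norm_sub_norm_le _ _).trans ((k - k').le_norm i)).trans_eq (by ring)

theorem rot_sub (ξ k k' : H) : rot ξ (k - k') = rot ξ k - rot ξ k' := by
  simp only [rot, map_sub, sub_apply, ← Prod.mk_sub_mk]
  abel

theorem norm_rot {ξ : H} (hξ : ‖ξ‖ = 1) (k : H) : ‖tl k + rot ξ k‖ = ‖k‖ := by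
  refine (sq_eq_sq₀ (norm_nonneg _) (norm_nonneg _)).1 ?_
  rw [norm_add_sq_real, rot, ← inner_M, norm_N, hξ, mul_one, norm_sub_sq_real, inner_sub_right,
    norm_sq_cons, real_inner_self_eq_norm_sq, real_inner_comm, norm_sq_hd_tl k]
  ring

theorem surj_rot {ξ : H} (hξ : ‖ξ‖ = 1) (y : H) : ∃ k, tl k + rot ξ k = y := by
  have h : ⟪ξ, ξ⟫_ℝ = 1 := by rw [real_inner_self_eq_norm_sq, hξ]; simp
  refine ⟨cons (hd (M y ξ), y - N (M y ξ) ξ + N (tl (M y ξ)) ξ), ?_⟩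
  simp [rot, M_N, hξ]

theorem rot_sub_rot {ξ ξ' : H} (hξ : ‖ξ‖ = 1) (hξ' : ‖ξ'‖ = 1) (k : H) :
    ‖rot ξ k - rot ξ' k‖ ≤ 5 * ‖k‖ * ‖ξ - ξ'‖ := by
  have e : rot ξ k - rot ξ' k = N (cons (0, M (tl k) (ξ - ξ')) - M (tl k) (ξ - ξ')) ξ +
      N (cons (hd k, M (tl k) ξ') - M (tl k) ξ') (ξ - ξ') := by
    have : cons (0, M (tl k) ξ - M (tl k) ξ') =
        cons (hd k, M (tl k) ξ) - cons (hd k, M (tl k) ξ') := by
      rw [← map_sub cons, Prod.mk_sub_mk, sub_self]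
    simp only [rot, map_sub, this, sub_apply]
    abel
  have h1 := norm_shift_le k (M (tl k) ξ') (by simpa [hξ'] using norm_M_le (tl k) ξ')
  have h2 := norm_sub_le (cons (0, M (tl k) (ξ - ξ'))) (M (tl k) (ξ - ξ'))
  have h3 := norm_cons_le (0, M (tl k) (ξ - ξ'))
  have h4 := (norm_M_le (tl k) (ξ - ξ')).trans
    (mul_le_mul_of_nonneg_right (norm_tl_le k) (norm_nonneg _))
  rw [e]
  refine (norm_add_le _ _).trans ?_
  rw [norm_N, norm_N, hξ]
  simp only [abs_zero, zero_add] at h3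
  nlinarith [norm_nonneg (ξ - ξ')]

theorem J_r_zeta (k : C0 H) (j : ℕ) :
    J (.r j) (zeta k) = rot (psi (yy j (zeta k), ts k j)) (k j) := by
  simp [J, pp_apply]

theorem norm_Phi (k : C0 H) (j : ℕ) : ‖tl (k j) + J (.r j) (zeta k)‖ = ‖k j‖ := by
  rw [J_r_zeta, norm_rot (norm_psi (ts_pos k j))]

theorem anti_Phi {k k' : C0 H} {d : ℝ}
    (h : ∀ j, ‖tl (k j) + J (.r j) (zeta k) - (tl (k' j) + J (.r j) (zeta k'))‖ ≤ d) :
    ‖k - k'‖ ≤ 31 * d := by
  have hd := (norm_nonneg _).trans (h 0)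
  have h1 : ∀ i, |‖k i‖ - ‖k' i‖| ≤ d := fun i => by
    rw [← norm_Phi k, ← norm_Phi k']
    exact (abs_norm_sub_norm_le _ _).trans (h i)
  have h2 := zeta_sub_le h1
  have h3 : ‖k - k'‖ ≤ 11 * d + 10 / 16 * (d + ‖k - k'‖) := C0.norm_le (by positivity) fun j => by
    have n1 := norm_psi (p := (yy j (zeta k), ts k j)) (ts_pos k j)
    have n2 := norm_psi (p := (yy j (zeta k'), ts k' j)) (ts_pos k' j)
    have a1 := rot_sub_rot n1 n2 (k' j)
    have a2 := psi_sub_le (p := (yy j (zeta k), ts k j)) (q := (yy j (zeta k'), ts k' j))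
      (ts_pos k j) (ts_pos k' j)
    have a3 := norm_yy_le j (zeta k - zeta k')
    have a4 := h j
    have a5 := abs_ts_sub h1 j
    have a6 := mul_le_mul_of_nonneg_right (norm_lt_ts k' j).le
      (norm_nonneg (psi (yy j (zeta k), ts k j) - psi (yy j (zeta k'), ts k' j)))
    rw [J_r_zeta, J_r_zeta] at a4
    rw [map_sub] at a3
    have a7 := norm_sub_le_of_le a4 a1
    rw [C0.sub_apply, ← norm_rot n1, rot_sub, map_sub]
    refine le_trans (le_of_eq (by congr 1; abel)) (a7.trans ?_)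
    dsimp only at a2
    linarith
  linarith

theorem surj_Phi (y : C0 H) : ∃ k : C0 H, ∀ j, tl (k j) + J (.r j) (zeta k) = y j := by
  have : Nonempty H := ⟨0⟩
  choose! g hg using fun (ξ : H) (hξ : ‖ξ‖ = 1) => surj_rot hξ
  let Y : ℕ → H := fun j => Nat.rec 0
    (fun j Y => Y + wt j • V j (cons (ts y j, g (psi (Y, ts y j)) (y j)))) j
  have h1 : ∀ j, ‖g (psi (Y j, ts y j)) (y j)‖ = ‖y j‖ := fun j => by
    have := norm_psi (p := (Y j, ts y j)) (ts_pos y j)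
    rw [← norm_rot this, hg _ this]
  let k : C0 H := C0.mk (fun j => g (psi (Y j, ts y j)) (y j)) (by simpa only [h1] using y.tendsto)
  have h2 : ∀ j, ts k j = ts y j := fun j => by
    have : ∀ i, ‖k i‖ = ‖y i‖ := h1
    simp only [ts, this]
  have h3 : ∀ j, yy j (zeta k) = Y j := fun j => by
    induction j with
    | zero => simp [yy_apply, Y]
    | succ j ih =>
      rw [yy_apply, Finset.sum_range_succ, ← yy_apply, ih, zeta_apply, h2]
      rfl
  refine ⟨k, fun j => ?_⟩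
  rw [J_r_zeta, h2, h3]
  exact hg _ (norm_psi (ts_pos y j)) _

theorem absorb {E W V : Type*} [NormedAddCommGroup E] [NormedAddCommGroup W] [NormedSpace ℝ W]
    [NormedAddCommGroup V] [NormedSpace ℝ V] (f : E × W → V) (B : V →L[ℝ] W) {C : ℝ} (hC : 0 ≤ C)
    (h1 : ∀ h h', ‖f h - f h'‖ ≤ C * ‖h - h'‖)
    (h2 : ∀ h h', ‖h - h'‖ ≤ C * ‖h.2 + B (f h) - (h'.2 + B (f h'))‖)
    (h3 : ∀ y, ∃ h, h.2 + B (f h) = y) : ∃ (g : E × V → V) (c C : ℝ), Function.Bijective g ∧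
      0 < c ∧ c ≤ C ∧ ∀ x x', c * ‖x - x'‖ ≤ ‖g x - g x'‖ ∧ ‖g x - g x'‖ ≤ C * ‖x - x'‖ := by
  let g : E × V → V := fun x => x.2 + f (x.1, B x.2)
  have hB := norm_nonneg B
  set K := 1 + (C + 1) * (C * ‖B‖)
  have hK : 1 ≤ K := le_add_of_nonneg_right (by positivity)
  have a1 : ∀ x x', ‖x - x'‖ ≤ K * ‖g x - g x'‖ := fun x x' => by
    have b1 := h2 (x.1, B x.2) (x'.1, B x'.2)
    have b2 := h1 (x.1, B x.2) (x'.1, B x'.2)
    simp only [← map_add, ← map_sub] at b1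
    change _ ≤ C * ‖B (g x - g x')‖ at b1
    have b3 := b1.trans (mul_le_mul_of_nonneg_left (B.le_opNorm _) hC)
    have b4 : ‖x.1 - x'.1‖ ≤ _ := (norm_fst_le ((x.1, B x.2) - (x'.1, B x'.2))).trans b3
    have b5 : ‖x.2 - x'.2‖ ≤ ‖g x - g x'‖ + ‖f (x.1, B x.2) - f (x'.1, B x'.2)‖ :=
      le_trans (le_of_eq (by congr 1; simp only [g]; abel)) (norm_sub_le _ _)
    have b6 := mul_le_mul_of_nonneg_left b3 hC
    have b7 : 0 ≤ C * (‖B‖ * ‖g x - g x'‖) := by positivity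
    have b8 := mul_nonneg hC b7
    refine norm_prod_le_iff.2 ⟨b4.trans ?_, b5.trans ?_⟩ <;> simp only [K] <;>
      nlinarith [norm_nonneg (g x - g x')]
  refine ⟨g, K⁻¹, 1 + C * (1 + ‖B‖), ⟨fun x x' h => ?_, fun v => ?_⟩, by positivity,
    (inv_le_one_of_one_le₀ hK).trans (le_add_of_nonneg_right (by positivity)),
    fun x x' => ⟨by rw [inv_mul_le_iff₀ (by positivity)]; exact a1 x x', ?_⟩⟩
  · have := a1 x x'
    rw [h, sub_self, norm_zero, mul_zero] at this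
    exact sub_eq_zero.1 (norm_le_zero_iff.1 this)
  · obtain ⟨h, hh⟩ := h3 (B v)
    refine ⟨(h.1, v - f h), ?_⟩
    simp [g, ← hh]
  · have b1 := h1 (x.1, B x.2) (x'.1, B x'.2)
    have b2 : ‖x.2 - x'.2‖ ≤ ‖x - x'‖ := norm_snd_le (x - x')
    have b3 : ‖(x.1, B x.2) - (x'.1, B x'.2)‖ ≤ (1 + ‖B‖) * ‖x - x'‖ := by
      refine norm_prod_le_iff.2 ⟨(norm_fst_le (x - x')).trans ?_, ?_⟩
      · nlinarith [norm_nonneg (x - x')]
      · change ‖B x.2 - B x'.2‖ ≤ _
        rw [← map_sub]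
        nlinarith [norm_nonneg (x - x'), B.le_opNorm (x.2 - x'.2)]
    have b4 : ‖g x - g x'‖ ≤ ‖x.2 - x'.2‖ + ‖f (x.1, B x.2) - f (x'.1, B x'.2)‖ :=
      le_trans (le_of_eq (by congr 1; simp only [g]; abel)) (norm_add_le _ _)
    nlinarith [mul_le_mul_of_nonneg_left b3 hC]

end Vale.Agent.P124
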