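import Vale.Agent.P124.Hilb

/-! A smooth family of unit vectors on the upper half space with kernel `1 / cosh dist`. -/

namespace Vale.Agent.P124

open scoped InnerProductSpace Topology

/-- Denominator of the kernel. -/
noncomputable def QQ (p q : H × ℝ) : ℝ := ‖p.1 - q.1‖ ^ 2 + p.2 ^ 2 + q.2 ^ 2

/-- The kernel. -/
noncomputable def kk (p q : H × ℝ) : ℝ := 2 * p.2 * q.2 / QQ p q

theorem QQ_pos {p q : H × ℝ} (hp : 0 < p.2) : 0 < QQ p q := by unfold QQ; positivity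

theorem QQ_comm (p q : H × ℝ) : QQ p q = QQ q p := by
  unfold QQ; rw [norm_sub_rev]; ring

theorem kk_comm (p q : H × ℝ) : kk p q = kk q p := by
  unfold kk; rw [QQ_comm]; ring

theorem kk_self {p : H × ℝ} (hp : 0 < p.2) : kk p p = 1 := by
  unfold kk QQ; simp; field_simp; ring

theorem kk_pos {p q : H × ℝ} (hp : 0 < p.2) (hq : 0 < q.2) : 0 < kk p q :=
  div_pos (by positivity) (QQ_pos hp)

theorem kk_le_one {p q : H × ℝ} (hp : 0 < p.2) : kk p q ≤ 1 := by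
  rw [kk, div_le_one (QQ_pos hp), QQ]
  nlinarith [sq_nonneg (p.2 - q.2), sq_nonneg ‖p.1 - q.1‖]

theorem exists_psi : ∃ psi : H × ℝ → H, (∀ p, 0 < p.2 → ContDiffAt ℝ 1 psi p) ∧
    ∀ p q, 0 < p.2 → 0 < q.2 → ⟪psi p, psi q⟫_ℝ = kk p q := by
  let ell : H →L[ℝ] H →L[ℝ] H :=
    (ContinuousLinearMap.compL ℝ H H H (cons ∘L ContinuousLinearMap.inr ℝ ℝ H)) ∘L N
  have hell : ∀ x f, ell x f = cons (0, N x f) := fun _ _ => rfl
  have hn : ∀ x, ‖ell x‖ ≤ ‖x‖ := fun x =>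
    ContinuousLinearMap.opNorm_le_bound _ (norm_nonneg _) fun f => by
      have := norm_cons_le (0, N x f)
      rw [hell]
      simpa [norm_N] using this
  let s : H × ℝ → ℝ := fun p => ‖p.1‖ ^ 2 + p.2 ^ 2
  have hs : ∀ p, 0 < s p + 1 := fun p => by positivity
  let xm : H × ℝ → H := fun p => (s p + 1)⁻¹ • cons (s p - 1, (2 : ℝ) • p.1)
  have hx : ∀ p q, 1 - ⟪xm p, xm q⟫_ℝ = 2 * QQ p q / ((s p + 1) * (s q + 1)) := fun p q => by
    have a := hs p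
    have b := hs q
    simp only [xm, real_inner_smul_left, real_inner_smul_right, inner_cons, QQ, norm_sub_sq_real]
    field_simp
    simp only [s]
    ring
  have hx1 : ∀ p, 0 < p.2 → ‖xm p‖ < 1 := fun p hp => by
    have a := hx p p
    have b : 0 < 2 * QQ p p / ((s p + 1) * (s p + 1)) := by
      have := QQ_pos (q := p) hp
      have := hs p
      positivity
    rw [real_inner_self_eq_norm_sq] at a
    nlinarith [norm_nonneg (xm p)]
  let G : H → H := fun x => Ring.inverse (1 - ell x) (e 0)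
  have hG : ∀ x, ‖x‖ < 1 → G x = cons (1, N x (G x)) := fun x h => by
    have h1 : IsUnit (1 - ell x) := (Units.oneSub _ ((hn x).trans_lt h)).isUnit
    have h2 := congrArg (fun T : H →L[ℝ] H => T (e 0)) (Ring.mul_inverse_cancel _ h1)
    change G x - ell x (G x) = e 0 at h2
    rw [sub_eq_iff_eq_add, hell, e, ← map_add] at h2
    simpa using h2
  have hGG : ∀ x y, ‖x‖ < 1 → ‖y‖ < 1 → ⟪G x, G y⟫_ℝ * (1 - ⟪x, y⟫_ℝ) = 1 :=
    fun x y h h' => by
    have : ⟪G x, G y⟫_ℝ = ⟪cons (1, N x (G x)), cons (1, N y (G y))⟫_ℝ := by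
      rw [← hG x h, ← hG y h']
    rw [inner_cons, inner_N] at this
    linarith
  refine ⟨fun p => (2 * p.2 / (s p + 1)) • G (xm p), fun p hp => ?_, fun p q hp hq => ?_⟩
  · have c1 : ContDiff ℝ 1 s := ((contDiff_norm_sq ℝ).comp contDiff_fst).add (contDiff_snd.pow 2)
    have c2 : ContDiff ℝ 1 xm := ((c1.add contDiff_const).inv fun p => (hs p).ne').smul
      (cons.contDiff.comp ((c1.sub contDiff_const).prodMk (contDiff_fst.const_smul _)))
    have c3 : ContDiffAt ℝ 1 (fun p => Ring.inverse (1 - ell (xm p))) p := by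
      have := contDiffAt_ringInverse (n := 1) ℝ (Units.oneSub _ ((hn _).trans_lt (hx1 p hp)))
      exact ContDiffAt.comp (g := Ring.inverse) p this
        (contDiffAt_const.sub (ell.contDiff.comp c2).contDiffAt)
    exact ((contDiff_const.mul contDiff_snd).div (c1.add contDiff_const)
      fun p => (hs p).ne').contDiffAt.smul (c3.clm_apply contDiffAt_const)
  · have a := hGG _ _ (hx1 p hp) (hx1 q hq)
    have a1 := hs p
    have a2 := hs q
    have a3 := QQ_pos (q := q) hp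
    rw [hx] at a
    have b : ⟪G (xm p), G (xm q)⟫_ℝ = (s p + 1) * (s q + 1) / (2 * QQ p q) := by
      field_simp at a ⊢
      linarith
    simp only [real_inner_smul_left, real_inner_smul_right, b, kk]
    field_simp

/-- The family of unit vectors. -/
noncomputable def psi : H × ℝ → H := exists_psi.choose

theorem contDiffAt_psi {p : H × ℝ} (hp : 0 < p.2) : ContDiffAt ℝ 1 psi p :=
  exists_psi.choose_spec.1 p hp

theorem inner_psi {p q : H × ℝ} (hp : 0 < p.2) (hq : 0 < q.2) : ⟪psi p, psi q⟫_ℝ = kk p q :=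
  exists_psi.choose_spec.2 p q hp hq

theorem norm_psi {p : H × ℝ} (hp : 0 < p.2) : ‖psi p‖ = 1 := by
  refine (sq_eq_sq₀ (norm_nonneg _) zero_le_one).1 ?_
  rw [← real_inner_self_eq_norm_sq, inner_psi hp hp, kk_self hp]; simp

theorem hasFDerivAt_psi {p : H × ℝ} (hp : 0 < p.2) : HasFDerivAt psi (fderiv ℝ psi p) p :=
  ((contDiffAt_psi hp).differentiableAt one_ne_zero).hasFDerivAt

theorem psi_sub_le {p q : H × ℝ} (hp : 0 < p.2) (hq : 0 < q.2) :
    q.2 * ‖psi p - psi q‖ ≤ 2 * (‖p.1 - q.1‖ + |p.2 - q.2|) := by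
  have h1 : ‖psi p - psi q‖ ^ 2 * QQ p q = 2 * (‖p.1 - q.1‖ ^ 2 + (p.2 - q.2) ^ 2) := by
    have := QQ_pos (q := q) hp
    rw [norm_sub_sq_real, norm_psi hp, norm_psi hq, inner_psi hp hq, kk]
    field_simp
    unfold QQ
    ring
  have h2 : q.2 ^ 2 ≤ QQ p q := by unfold QQ; nlinarith [sq_nonneg ‖p.1 - q.1‖, sq_nonneg p.2]
  refine (abs_le_of_sq_le_sq' ?_ (by positivity)).2
  have h3 := mul_le_mul_of_nonneg_left h2 (sq_nonneg ‖psi p - psi q‖)
  nlinarith [sq_abs (p.2 - q.2), mul_nonneg (norm_nonneg (p.1 - q.1)) (abs_nonneg (p.2 - q.2)),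
    sq_nonneg ‖p.1 - q.1‖, sq_nonneg (p.2 - q.2)]

/-- Derivative of the denominator. -/
noncomputable def Q1 (p q v : H × ℝ) : ℝ := 2 * ⟪p.1 - q.1, v.1⟫_ℝ + 2 * p.2 * v.2

theorem hasDerivAt_line (p v : H × ℝ) : HasDerivAt (fun s : ℝ => p + s • v) v 0 := by
  simpa using ((hasDerivAt_id (0 : ℝ)).smul_const v).const_add p

theorem hasDerivAt_snd (p v : H × ℝ) : HasDerivAt (fun s : ℝ => (p + s • v).2) v.2 0 := by
  simpa using ((hasDerivAt_id (0 : ℝ)).mul_const v.2).const_add p.2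

theorem hasDerivAt_fst (p v : H × ℝ) : HasDerivAt (fun s : ℝ => (p + s • v).1) v.1 0 := by
  simpa using ((hasDerivAt_id (0 : ℝ)).smul_const v.1).const_add p.1

theorem hasDerivAt_QQ (p q v : H × ℝ) :
    HasDerivAt (fun s : ℝ => QQ (p + s • v) q) (Q1 p q v) 0 := by
  have h := ((((hasDerivAt_fst p v).sub_const q.1).norm_sq).add
    ((hasDerivAt_snd p v).pow 2)).add_const (q.2 ^ 2)
  exact h.congr_deriv (by simp [Q1])

theorem hasDerivAt_psi {p : H × ℝ} (hp : 0 < p.2) (v : H × ℝ) :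
    HasDerivAt (fun s : ℝ => psi (p + s • v)) (fderiv ℝ psi p v) 0 := by
  have h : HasFDerivAt psi (fderiv ℝ psi p) (p + (0 : ℝ) • v) := by
    simpa using hasFDerivAt_psi hp
  exact h.comp_hasDerivAt (0 : ℝ) (hasDerivAt_line p v)

theorem eventually_line {p : H × ℝ} (hp : 0 < p.2) (v : H × ℝ) :
    ∀ᶠ s : ℝ in 𝓝 0, 0 < (p + s • v).2 :=
  (hasDerivAt_snd p v).continuousAt.eventually (lt_mem_nhds (by simpa using hp))

theorem inner_dpsi {p q : H × ℝ} (hp : 0 < p.2) (hq : 0 < q.2) (v : H × ℝ) :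
    ⟪fderiv ℝ psi p v, psi q⟫_ℝ = 2 * v.2 * q.2 / QQ p q - 2 * p.2 * q.2 * Q1 p q v / QQ p q ^ 2 := by
  have hQ := QQ_pos (q := q) hp
  have h1 := (hasDerivAt_psi hp v).inner ℝ (hasDerivAt_const (0 : ℝ) (psi q))
  have h2 := (((hasDerivAt_snd p v).const_mul 2).mul_const q.2).div (hasDerivAt_QQ p q v)
    (by simpa using hQ.ne')
  have h3 := h1.unique (h2.congr_of_eventuallyEq
    ((eventually_line hp v).mono fun s hs => inner_psi hs hq))
  simp only [inner_zero_right, zero_add, zero_smul, add_zero] at h3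
  rw [h3]
  field_simp

theorem inner_ddpsi {p q : H × ℝ} (hp : 0 < p.2) (hq : 0 < q.2) (v v' : H × ℝ) :
    ⟪fderiv ℝ psi p v, fderiv ℝ psi q v'⟫_ℝ = 2 * v.2 * v'.2 / QQ p q
      - 2 * v.2 * q.2 * Q1 q p v' / QQ p q ^ 2 - 2 * p.2 * v'.2 * Q1 p q v / QQ p q ^ 2
      + 4 * p.2 * q.2 * ⟪v.1, v'.1⟫_ℝ / QQ p q ^ 2
      + 4 * p.2 * q.2 * Q1 p q v * Q1 q p v' / QQ p q ^ 3 := by
  have hQ := QQ_pos (q := q) hp
  have h1 := (hasDerivAt_const (0 : ℝ) (fderiv ℝ psi p v)).inner ℝ (hasDerivAt_psi hq v')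
  have a1 : HasDerivAt (fun s : ℝ => QQ p (q + s • v')) (Q1 q p v') 0 := by
    simpa only [QQ_comm p] using hasDerivAt_QQ q p v'
  have a2 : HasDerivAt (fun s : ℝ => Q1 p (q + s • v') v) (-2 * ⟪v.1, v'.1⟫_ℝ) 0 := by
    have := (((((hasDerivAt_fst q v').const_sub p.1).inner ℝ
      (hasDerivAt_const (0 : ℝ) v.1))).const_mul 2).add_const (2 * p.2 * v.2)
    exact this.congr_deriv (by simp [real_inner_comm])
  have h2 := (((hasDerivAt_snd q v').const_mul (2 * v.2)).div a1 (by simpa using hQ.ne')).sub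
    ((((hasDerivAt_snd q v').const_mul (2 * p.2)).mul a2).div (a1.pow 2)
      (by simpa using hQ.ne'))
  have h3 := h1.unique (h2.congr_of_eventuallyEq
    ((eventually_line hq v').mono fun s hs => inner_dpsi hp hs v))
  simp only [inner_zero_left, zero_smul, add_zero, Pi.mul_apply, Pi.pow_apply] at h3
  rw [h3]
  field_simp
  ring

/-- First order jets of the family. -/
noncomputable def jet (p : H × ℝ) (a : ℝ) (v : H × ℝ) : H := a • psi p + p.2 • fderiv ℝ psi p v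

theorem inner_jet {p q : H × ℝ} (hp : 0 < p.2) (hq : 0 < q.2) (a a' : ℝ) (v v' : H × ℝ) :
    ⟪jet p a v, jet q a' v'⟫_ℝ = kk p q * ((a + v.2 - p.2 * Q1 p q v / QQ p q) *
      (a' + v'.2 - q.2 * Q1 q p v' / QQ p q) + (p.2 * Q1 p q v / QQ p q) *
      (q.2 * Q1 q p v' / QQ p q) + kk p q * ⟪v.1, v'.1⟫_ℝ) := by
  have hQ := QQ_pos (q := q) hp
  simp only [jet, inner_add_left, inner_add_right, real_inner_smul_left, real_inner_smul_right]
  rw [inner_psi hp hq, inner_ddpsi hp hq, inner_dpsi hp hq, real_inner_comm, inner_dpsi hq hp,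
    QQ_comm q p, kk]
  field_simp
  ring

theorem inner_jet_self {p : H × ℝ} (hp : 0 < p.2) (a a' : ℝ) (v v' : H × ℝ) :
    ⟪jet p a v, jet p a' v'⟫_ℝ = a * a' + v.2 * v'.2 + ⟪v.1, v'.1⟫_ℝ := by
  rw [inner_jet hp hp, kk_self hp]
  simp only [Q1, QQ, sub_self, inner_zero_left, norm_zero]
  field_simp
  ring

theorem Q1_le {p q v : H × ℝ} (hp : 0 < p.2) {A : ℝ} (hv : ‖v‖ ≤ A) :
    |p.2 * Q1 p q v / QQ p q| ≤ 3 * A := by
  have hQ := QQ_pos (q := q) hp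
  have h1 : |v.2| ≤ A := (norm_snd_le v).trans hv
  have h2 : ‖v.1‖ ≤ A := (norm_fst_le v).trans hv
  have hA : 0 ≤ A := (norm_nonneg _).trans hv
  have h3 : |⟪p.1 - q.1, v.1⟫_ℝ| ≤ ‖p.1 - q.1‖ * A :=
    (abs_real_inner_le_norm _ _).trans (by gcongr)
  have h4 : |Q1 p q v| ≤ 2 * (‖p.1 - q.1‖ * A) + 2 * p.2 * A := by
    refine (abs_add_le _ _).trans (add_le_add ?_ ?_)
    · rw [abs_mul, abs_two]; gcongr
    · rw [abs_mul, abs_of_pos (by positivity : 0 < 2 * p.2)]; gcongr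
  rw [abs_div, abs_mul, abs_of_pos hp, abs_of_pos hQ, div_le_iff₀ hQ]
  have h5 : 2 * (p.2 * ‖p.1 - q.1‖) + 2 * p.2 ^ 2 ≤ 3 * QQ p q := by
    unfold QQ
    nlinarith [sq_nonneg (p.2 - ‖p.1 - q.1‖), sq_nonneg q.2, sq_nonneg ‖p.1 - q.1‖]
  calc p.2 * |Q1 p q v| ≤ p.2 * (2 * (‖p.1 - q.1‖ * A) + 2 * p.2 * A) := by gcongr
    _ = A * (2 * (p.2 * ‖p.1 - q.1‖) + 2 * p.2 ^ 2) := by ring
    _ ≤ A * (3 * QQ p q) := by gcongr
    _ = _ := by ring

theorem abs_inner_jet_le {p q : H × ℝ} (hp : 0 < p.2) (hq : 0 < q.2) {a a' A A' : ℝ}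
    {v v' : H × ℝ} (ha : |a| ≤ A) (hv : ‖v‖ ≤ A) (ha' : |a'| ≤ A') (hv' : ‖v'‖ ≤ A') :
    |⟪jet p a v, jet q a' v'⟫_ℝ| ≤ 35 * A * A' * kk p q := by
  have hk := kk_pos hp hq
  have hk1 := kk_le_one (q := q) hp
  have h1 := Q1_le (q := q) hp hv
  have h2 := Q1_le (q := p) hq hv'
  have hA : 0 ≤ A := (norm_nonneg _).trans hv
  have hA' : 0 ≤ A' := (norm_nonneg _).trans hv'
  rw [QQ_comm q p] at h2
  rw [inner_jet hp hq, abs_mul, abs_of_pos hk, mul_comm]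
  refine mul_le_mul_of_nonneg_right ?_ hk.le
  generalize p.2 * Q1 p q v / QQ p q = X at *
  generalize q.2 * Q1 q p v' / QQ p q = X' at *
  have b1 : |a + v.2 - X| ≤ 5 * A := by
    have : |v.2| ≤ A := (norm_snd_le v).trans hv
    rw [abs_le] at *; constructor <;> linarith [ha.1, ha.2, this.1, this.2, h1.1, h1.2]
  have b2 : |a' + v'.2 - X'| ≤ 5 * A' := by
    have : |v'.2| ≤ A' := (norm_snd_le v').trans hv'
    rw [abs_le] at *; constructor <;> linarith [ha'.1, ha'.2, this.1, this.2, h2.1, h2.2]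
  have b3 : |⟪v.1, v'.1⟫_ℝ| ≤ A * A' := (abs_real_inner_le_norm _ _).trans
    (mul_le_mul ((norm_fst_le v).trans hv) ((norm_fst_le v').trans hv') (norm_nonneg _) hA)
  calc _ ≤ |a + v.2 - X| * |a' + v'.2 - X'| + |X| * |X'| + kk p q * |⟪v.1, v'.1⟫_ℝ| := by
        refine (abs_add_three _ _ _).trans (le_of_eq ?_)
        simp only [abs_mul, abs_of_pos hk]
    _ ≤ (5 * A) * (5 * A') + (3 * A) * (3 * A') + 1 * (A * A') := by gcongr
    _ = _ := by ring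

theorem norm_jet_le {p : H × ℝ} (hp : 0 < p.2) {a A : ℝ} {v : H × ℝ} (ha : |a| ≤ A)
    (hv : ‖v‖ ≤ A) : ‖jet p a v‖ ≤ 2 * A := by
  have hA : 0 ≤ A := (norm_nonneg _).trans hv
  refine norm_le_of_inner (by positivity) ?_
  have h1 : |v.2| ≤ A := (norm_snd_le v).trans hv
  have h2 : ‖v.1‖ ≤ A := (norm_fst_le v).trans hv
  rw [inner_jet_self hp, real_inner_self_eq_norm_sq]
  nlinarith [abs_mul_abs_self a, abs_mul_abs_self v.2, abs_nonneg a, abs_nonneg v.2,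
    norm_nonneg v.1]

theorem jet_smul (p : H × ℝ) (c a : ℝ) (v : H × ℝ) : jet p (c * a) (c • v) = c • jet p a v := by
  simp only [jet, map_smul, smul_add, smul_smul, mul_comm]

theorem close_of_kk {p q : H × ℝ} (hp : 0 < p.2) (hq : 0 < q.2) {D : ℝ} (h : 2 ≤ D * kk p q) :
    ‖p.1 - q.1‖ ≤ D * q.2 ∧ q.2 ≤ D * p.2 ∧ p.2 ≤ D * q.2 := by
  have hQ := QQ_pos (q := q) hp
  rw [kk, ← mul_div_assoc, le_div_iff₀ hQ, QQ] at h
  have hn := norm_nonneg (p.1 - q.1)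
  refine ⟨le_of_mul_le_mul_left ?_ hp, le_of_mul_le_mul_left ?_ hq, le_of_mul_le_mul_left ?_ hp⟩
  · nlinarith [sq_nonneg (p.2 - ‖p.1 - q.1‖), sq_nonneg q.2, mul_nonneg hp.le hn]
  · nlinarith [sq_nonneg ‖p.1 - q.1‖, sq_nonneg p.2]
  · nlinarith [sq_nonneg ‖p.1 - q.1‖, sq_nonneg q.2]

/-- A functional `a` is small on all tensors with jets at `p`. -/
def Inact (a : H) (t : ℝ) (p : H × ℝ) : Prop :=
  ∀ (u : H) (α A : ℝ) (v : H × ℝ), |α| ≤ A → ‖v‖ ≤ A → |⟪a, N u (jet p α v)⟫_ℝ| ≤ t * ‖u‖ * A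

theorem inact_two {a : H} (ha : ‖a‖ ≤ 1) {p : H × ℝ} (hp : 0 < p.2) : Inact a 2 p :=
  fun u α A v h1 h2 => by
    have h3 := norm_jet_le hp h1 h2
    refine (abs_real_inner_le_norm _ _).trans ?_
    rw [norm_N]
    calc _ ≤ 1 * (‖u‖ * (2 * A)) := by gcongr
      _ = _ := by ring

theorem exists_of_not_inact {a : H} {t : ℝ} {p : H × ℝ} (h : ¬ Inact a t p) :
    ∃ (u : H) (α : ℝ) (v : H × ℝ), ‖u‖ ≤ 1 ∧ |α| ≤ 1 ∧ ‖v‖ ≤ 1 ∧ t < ⟪a, N u (jet p α v)⟫_ℝ := by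
  unfold Inact at h
  push Not at h
  obtain ⟨u, α, A, v, h1, h2, h3⟩ := h
  have hu : 0 < ‖u‖ := norm_pos_iff.2 fun h0 => by simp [h0] at h3
  have hA : 0 < A := by
    refine ((abs_nonneg _).trans h1).lt_of_ne fun h0 => ?_
    rw [← h0] at h1 h2 h3
    rw [abs_nonpos_iff.1 h1, norm_le_zero_iff.1 h2] at h3
    simp [jet] at h3
  have key : ∀ s : ℝ, |s| = 1 → t * ‖u‖ * A < s * ⟪a, N u (jet p α v)⟫_ℝ →
      ∃ (u : H) (α : ℝ) (v : H × ℝ), ‖u‖ ≤ 1 ∧ |α| ≤ 1 ∧ ‖v‖ ≤ 1 ∧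
        t < ⟪a, N u (jet p α v)⟫_ℝ := fun s hs h => by
    refine ⟨(s * ‖u‖⁻¹) • u, A⁻¹ * α, A⁻¹ • v, ?_, ?_, ?_, ?_⟩
    · rw [norm_smul, Real.norm_eq_abs, abs_mul, hs, one_mul, abs_inv, abs_norm,
        inv_mul_cancel₀ hu.ne']
    · rw [abs_mul, abs_inv, abs_of_pos hA, inv_mul_le_iff₀ hA]; simpa
    · rw [norm_smul, norm_inv, Real.norm_eq_abs, abs_of_pos hA, inv_mul_le_iff₀ hA]; simpa
    · rw [jet_smul, map_smul, map_smul, smul_apply, real_inner_smul_right,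
        real_inner_smul_right]
      have : A⁻¹ * (s * ‖u‖⁻¹ * ⟪a, N u (jet p α v)⟫_ℝ) =
          s * ⟪a, N u (jet p α v)⟫_ℝ / (‖u‖ * A) := by field_simp
      rw [this, lt_div_iff₀ (by positivity), ← mul_assoc]
      exact h
  rcases lt_abs.1 h3 with h | h
  · exact key 1 abs_one (by simpa using h)
  · exact key (-1) (by simp) (by simpa using h)

theorem card_le_of_sep {a : H} (ha : ‖a‖ ≤ 1) {t : ℝ} (ht : 0 < t) (s : Finset (H × ℝ))
    (h1 : ∀ p ∈ s, 0 < p.2 ∧ ¬ Inact a t p)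
    (h2 : ∀ p ∈ s, ∀ q ∈ s, p ≠ q → kk p q ≤ t ^ 2 / 70) : (s.card : ℝ) ≤ 70 / t ^ 2 := by
  classical
  choose! u α v hu hα hv h using fun p (hp : p ∈ s) => exists_of_not_inact (h1 p hp).2
  let x : H × ℝ → H := fun p => N (u p) (jet p (α p) (v p))
  have b1 : s.card * t ≤ ‖∑ p ∈ s, x p‖ := by
    calc s.card * t = ∑ p ∈ s, t := by simp
      _ ≤ ∑ p ∈ s, ⟪a, x p⟫_ℝ := Finset.sum_le_sum fun p hp => (h p hp).le
      _ = ⟪a, ∑ p ∈ s, x p⟫_ℝ := (inner_sum _ _ _).symm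
      _ ≤ ‖a‖ * ‖∑ p ∈ s, x p‖ := real_inner_le_norm _ _
      _ ≤ 1 * ‖∑ p ∈ s, x p‖ := by gcongr
      _ = _ := one_mul _
  have b2 : ∀ p ∈ s, ∀ q ∈ s, ⟪x p, x q⟫_ℝ ≤ (if p = q then 35 else 0) + t ^ 2 / 2 :=
    fun p hp q hq => by
    have c1 := abs_inner_jet_le (h1 p hp).1 (h1 q hq).1 (hα p hp) (hv p hp) (hα q hq) (hv q hq)
    have c2 : |⟪u p, u q⟫_ℝ| ≤ 1 := (abs_real_inner_le_norm _ _).trans
      (mul_le_one₀ (hu p hp) (norm_nonneg _) (hu q hq))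
    have c3 : ⟪x p, x q⟫_ℝ ≤ 35 * kk p q := by
      refine (le_abs_self _).trans ?_
      rw [inner_N, abs_mul]
      calc _ ≤ 1 * (35 * 1 * 1 * kk p q) := by gcongr
        _ = _ := by ring
    split_ifs with hpq
    · nlinarith [kk_le_one (q := q) (h1 p hp).1]
    · linarith [h2 p hp q hq hpq]
  have b3 : ‖∑ p ∈ s, x p‖ ^ 2 ≤ s.card * 35 + s.card * (s.card * (t ^ 2 / 2)) := by
    rw [← real_inner_self_eq_norm_sq, sum_inner]
    calc _ ≤ ∑ p ∈ s, (35 + s.card * (t ^ 2 / 2)) := Finset.sum_le_sum fun p hp => by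
          rw [inner_sum]
          refine (Finset.sum_le_sum (b2 p hp)).trans (le_of_eq ?_)
          rw [Finset.sum_add_distrib, Finset.sum_ite_eq, if_pos hp]
          simp
      _ = _ := by simp
  have b4 : (s.card * t) ^ 2 ≤ ‖∑ p ∈ s, x p‖ ^ 2 := by gcongr
  rw [le_div_iff₀ (by positivity)]
  rcases (Nat.cast_nonneg (α := ℝ) s.card).eq_or_lt with h0 | h0
  · rw [← h0]; norm_num
  · refine le_of_mul_le_mul_left ?_ h0
    nlinarith

theorem exists_cover {t : ℝ} (ht : 0 < t) : ∃ n : ℕ, ∀ a : H, ‖a‖ ≤ 1 → ∃ s : Finset (H × ℝ),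
    s.card ≤ n ∧ (∀ q ∈ s, 0 < q.2) ∧
      ∀ p, 0 < p.2 → ¬ Inact a t p → ∃ q ∈ s, 2 ≤ n * kk p q := by
  classical
  obtain ⟨n, hn⟩ := exists_nat_ge (140 / t ^ 2 + 2)
  refine ⟨n, fun a ha => ?_⟩
  let S : Set (Finset (H × ℝ)) := {s | (∀ p ∈ s, 0 < p.2 ∧ ¬ Inact a t p) ∧
    ∀ p ∈ s, ∀ q ∈ s, p ≠ q → kk p q ≤ t ^ 2 / 70}
  have h0 : 0 < 70 / t ^ 2 := by positivity
  have hb : ∀ s ∈ S, s.card ≤ n := fun s hs => by
    have := card_le_of_sep ha ht s hs.1 hs.2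
    have e : 140 / t ^ 2 = 70 / t ^ 2 + 70 / t ^ 2 := by ring
    exact_mod_cast (by linarith : (s.card : ℝ) ≤ n)
  obtain ⟨s, hs, hmax⟩ := Set.Finite.exists_maximalFor' Finset.card S
    ((Set.finite_Iic n).subset (by rintro _ ⟨s, hs, rfl⟩; exact hb s hs)) ⟨∅, by simp [S]⟩
  refine ⟨s, hb s hs, fun q hq => (hs.1 q hq).1, fun p hp hi => ?_⟩
  by_contra hc
  push Not at hc
  have hps : p ∉ s := fun h => by
    have := hc p h
    rw [kk_self hp] at this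
    have e : 0 < 140 / t ^ 2 := by positivity
    linarith
  have hk : ∀ q ∈ s, kk p q ≤ t ^ 2 / 70 := fun q hq => by
    have c1 := hc q hq
    have c2 := kk_pos hp (hs.1 q hq).1
    have c3 : 140 / t ^ 2 * kk p q ≤ 2 := by nlinarith
    rw [div_mul_eq_mul_div, div_le_iff₀ (by positivity)] at c3
    linarith
  have : insert p s ∈ S := by
    refine ⟨fun q hq => ?_, fun q hq r hr hqr => ?_⟩
    · rcases Finset.mem_insert.1 hq with rfl | hq
      exacts [⟨hp, hi⟩, hs.1 q hq]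
    · rcases Finset.mem_insert.1 hq with rfl | hq' <;> rcases Finset.mem_insert.1 hr with rfl | hr'
      exacts [(hqr rfl).elim, hk r hr', kk_comm q r ▸ hk q hq', hs.2 q hq' r hr' hqr]
  have h3 := hmax this (Finset.card_le_card (Finset.subset_insert _ _))
  rw [Finset.card_insert_of_notMem hps] at h3
  omega

end Vale.Agent.P124
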