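import Vale.Agent.P124.Phi

/-! The space `VV` and its structure maps. -/

namespace Vale.Agent.P124

open scoped InnerProductSpace Topology ENNReal
open Filter

deriving instance Countable for Co

/-- Levels. -/
inductive Lv : Type
  | base (c : Co)
  | op (l : Lv) (M : ℕ)
  deriving Countable

/-- Weight of a level. -/
noncomputable def lw (l : Lv) : ℝ := (1 / 2) ^ (exists_injective_nat Lv).choose l

theorem lw_pos (l : Lv) : 0 < lw l := by unfold lw; positivity

theorem summable_lw : Summable lw :=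
  summable_geometric_two.comp_injective (exists_injective_nat Lv).choose_spec

theorem lw_op_pos (l : Lv) (M : ℕ) : 0 < ((M : ℝ) + 1) / lw (.op l M) :=
  div_pos (by positivity) (lw_pos _)

/-- Localization function of a level. -/
noncomputable def sg : Lv → ℝ → ℕ
  | .base _ => exists_fine_r.choose
  | .op l M => (opA (sg l) (lw_op_pos l M)).choose_spec.choose_spec.choose

/-- Coordinate of a level. -/
def Lv.co : Lv → Co
  | .base c => c
  | .op _ _ => .r 0

/-- The norming functions of a level. -/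
def GS (l : Lv) : Type := {w : Co →₀ H // Der 1 w ∧ Fine (sg l) w}

/-- The space of a level. -/
abbrev Fib (l : Lv) : Type := H × lp (fun _ : GS l => ℝ) ∞

/-- The ambient space. -/
def Amb : Type := lp Fib 1

noncomputable instance : NormedAddCommGroup Amb := inferInstanceAs (NormedAddCommGroup (lp Fib 1))

noncomputable instance : NormedSpace ℝ Amb := inferInstanceAs (NormedSpace ℝ (lp Fib 1))

instance : CompleteSpace Amb := inferInstanceAs (CompleteSpace (lp Fib 1))

/-- Component at a level. -/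
noncomputable def lev (l : Lv) : Amb →L[ℝ] Fib l := lp.evalCLM ℝ Fib 1 l

theorem hasSum_lev (v : Amb) : HasSum (fun l => ‖lev l v‖) ‖v‖ := by
  have := lp.hasSum_norm (p := 1) (by simp) (show lp Fib 1 from v)
  simp only [ENNReal.toReal_one, Real.rpow_one] at this
  exact this

theorem norm_lev_le (l : Lv) (v : Amb) : ‖lev l v‖ ≤ ‖v‖ :=
  le_hasSum (hasSum_lev v) l fun _ _ => norm_nonneg _

/-- Lipschitz constants of the coordinates. -/
noncomputable def Cc (c : Co) : ℝ := (exists_lip_J c).choose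

theorem Cc_pos (c : Co) : 0 < Cc c := (exists_lip_J c).choose_spec.1

theorem abs_F_zeta {w : Co →₀ H} (h : Der 1 w) {a b : ℕ} (hw : Supp w a b) (k : C0 H) :
    |F w (zeta k)| ≤ 2 * ts k a := by
  simpa using abs_F_le (fun _ hx => h.self hx) hw (om_zeta k)

theorem abs_F_zeta' {w : Co →₀ H} (h : Der 1 w) (k : C0 H) : |F w (zeta k)| ≤ 2 * (‖k‖ + 1) := by
  obtain ⟨b, hb⟩ := exists_supp w
  linarith [abs_F_zeta h hb k, ts_le_norm k 0]

theorem norm_lw_mul (l : Lv) (t : ℝ) : ‖lw l * t‖ = lw l * |t| := by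
  rw [Real.norm_eq_abs, abs_mul, abs_of_pos (lw_pos l)]

/-- Components of the evaluation map. -/
noncomputable def fib (k : C0 H) (l : Lv) : Fib l := ((lw l / Cc l.co) • J l.co (zeta k),
  ⟨fun w => lw l * F w.1 (zeta k), memℓp_infty ⟨lw l * (2 * (‖k‖ + 1)), by
    rintro _ ⟨w, rfl⟩
    exact (norm_lw_mul _ _).trans_le
      (mul_le_mul_of_nonneg_left (abs_F_zeta' w.2.1 k) (lw_pos l).le)⟩⟩)

theorem norm_smul_le_lw (l : Lv) {v : H} {t : ℝ} (h : ‖v‖ ≤ Cc l.co * t) :
    ‖(lw l / Cc l.co) • v‖ ≤ lw l * t := by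
  have := lw_pos l
  have := Cc_pos l.co
  rw [norm_smul, Real.norm_of_nonneg (by positivity)]
  calc _ ≤ lw l / Cc l.co * (Cc l.co * t) := by gcongr
    _ = _ := by field_simp

theorem norm_fib_le (k : C0 H) (l : Lv) : ‖fib k l‖ ≤ lw l * (2 * (‖k‖ + 1)) := by
  have := lw_pos l
  refine norm_prod_le_iff.2 ⟨norm_smul_le_lw l ?_, lp.norm_le_of_forall_le (by positivity)
    fun w => (norm_lw_mul _ _).trans_le
      (mul_le_mul_of_nonneg_left (abs_F_zeta' w.2.1 k) (lw_pos l).le)⟩
  refine ((exists_lip_J _).choose_spec.2.1 _ (om_zeta k)).trans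
    (mul_le_mul_of_nonneg_left ?_ (Cc_pos _).le)
  rw [tau_zeta]
  linarith [ts_le_norm k 0, norm_nonneg k]

theorem fib_sub_le (k k' : C0 H) (l : Lv) : ‖fib k l - fib k' l‖ ≤ lw l * (2 * ‖k - k'‖) := by
  have := lw_pos l
  refine norm_prod_le_iff.2 ⟨?_, lp.norm_le_of_forall_le (by positivity) fun w => ?_⟩
  · change ‖_ • _ - _ • _‖ ≤ _
    rw [← smul_sub]
    exact norm_smul_le_lw l (((exists_lip_J _).choose_spec.2.2 _ _ (om_zeta k) (om_zeta k')).trans
      (mul_le_mul_of_nonneg_left (lip_zeta k k') (Cc_pos _).le))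
  · change ‖lw l * F w.1 (zeta k) - lw l * F w.1 (zeta k')‖ ≤ _
    rw [← mul_sub, norm_lw_mul]
    have := lip_F (fun _ hx => w.2.1.self hx) (om_zeta k) (om_zeta k')
    gcongr
    linarith [lip_zeta k k']

/-- The evaluation map. -/
noncomputable def Jh (k : C0 H) : Amb := show lp Fib 1 from ⟨fib k, memℓp_gen (by
  simpa using Summable.of_nonneg_of_le (fun _ => norm_nonneg _) (norm_fib_le k)
    (summable_lw.mul_right _))⟩

theorem lev_Jh (l : Lv) (k : C0 H) : lev l (Jh k) = fib k l := rfl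

theorem lip_Jh (k k' : C0 H) : ‖Jh k - Jh k'‖ ≤ (∑' l, lw l) * (2 * ‖k - k'‖) :=
  hasSum_le (fun l => by rw [map_sub]; exact fib_sub_le k k' l) (hasSum_lev _)
    (summable_lw.hasSum.mul_right _)

/-- The space. -/
noncomputable def VV : Submodule ℝ Amb := (Submodule.span ℝ (Set.range Jh)).topologicalClosure

theorem Jh_mem (k : C0 H) : Jh k ∈ VV :=
  Submodule.le_topologicalClosure _ (Submodule.subset_span ⟨k, rfl⟩)

instance : CompleteSpace VV := (Submodule.isClosed_topologicalClosure _).completeSpace_coe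

instance : TopologicalSpace.SeparableSpace VV := by
  have h : Continuous Jh := (LipschitzWith.of_dist_le' (K := (∑' l, lw l) * 2) fun k k' => by
    rw [dist_eq_norm, dist_eq_norm, mul_assoc]; exact lip_Jh k k').continuous
  exact ((TopologicalSpace.isSeparable_range h).span (R := ℝ)).closure.separableSpace

theorem eq_on_VV {E : Type*} [NormedAddCommGroup E] [NormedSpace ℝ E] {f g : Amb →L[ℝ] E}
    (h : ∀ k, f (Jh k) = g (Jh k)) {v : Amb} (hv : v ∈ VV) : f v = g v :=
  ContinuousLinearMap.eqOn_closure_span (by rintro _ ⟨k, rfl⟩; exact h k) hv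

/-- The coordinate maps. -/
noncomputable def pi (c : Co) : Amb →L[ℝ] H :=
  (Cc c / lw (.base c)) • (ContinuousLinearMap.fst ℝ _ _ ∘L lev (.base c))

theorem pi_Jh (c : Co) (k : C0 H) : pi c (Jh k) = J c (zeta k) := by
  have := lw_pos (.base c)
  have := Cc_pos c
  change (Cc c / lw (.base c)) • (lw (.base c) / Cc c) • J c (zeta k) = _
  rw [smul_smul, (by field_simp : Cc c / lw (.base c) * (lw (.base c) / Cc c) = 1), one_smul]

/-- Action of a family of coefficients. -/
noncomputable def pr (w : Co →₀ H) : Amb →L[ℝ] ℝ := ∑ c ∈ w.support, innerSL ℝ (w c) ∘L pi c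

theorem pr_apply (w : Co →₀ H) (v : Amb) : pr w v = pair (fun c => pi c v) w := by
  simp [pr, pair_apply]

theorem lev_apply (l : Lv) (w : GS l) {v : Amb} (hv : v ∈ VV) :
    (lev l v).2 w = lw l * pr w.1 v :=
  eq_on_VV (f := lp.evalCLM ℝ (fun _ : GS l => ℝ) ∞ w ∘L ContinuousLinearMap.snd ℝ _ _ ∘L lev l)
    (g := lw l • pr w.1) (fun k => by
      change lw l * F w.1 (zeta k) = lw l * pr w.1 (Jh k)
      simp only [pr_apply, pi_Jh, F]) hv

theorem pr_le {l : Lv} {w : Co →₀ H} (h1 : Der 1 w) (h2 : Fine (sg l) w) {v : Amb} (hv : v ∈ VV) :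
    lw l * |pr w v| ≤ ‖v‖ := by
  rw [← norm_lw_mul, ← lev_apply l ⟨w, h1, h2⟩ hv]
  exact (lp.norm_apply_le_norm ENNReal.top_ne_zero _ _).trans
    ((norm_snd_le _).trans (norm_lev_le l v))

theorem tail_small (l : Lv) {v : Amb} (hv : v ∈ VV) {η : ℝ} (hη : 0 < η) : ∀ᶠ a in atTop,
    ∀ w b, Der 1 w → Fine (sg l) w → Supp w a b → |pr w v| ≤ η := by
  have h1 : ∀ v ∈ Submodule.span ℝ (Set.range Jh), ∀ η, 0 < η → ∀ᶠ a in atTop,
      ∀ w b, Der 1 w → Supp w a b → |pr w v| ≤ η := fun v hv => by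
    induction hv using Submodule.span_induction with
    | mem x hx =>
      obtain ⟨k, rfl⟩ := hx
      intro η hη
      filter_upwards [(tendsto_ts k).eventually (ge_mem_nhds (half_pos hη))] with a ha w b h1 h2
      have := abs_F_zeta h1 h2 k
      simp only [pr_apply, pi_Jh]
      exact this.trans (by linarith)
    | zero => exact fun η hη => Eventually.of_forall fun _ _ _ _ _ => by simpa using hη.le
    | add x y _ _ hx hy =>
      intro η hη
      filter_upwards [hx _ (half_pos hη), hy _ (half_pos hη)] with a h1 h2 w b h3 h4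
      rw [map_add]
      linarith [abs_add_le (pr w x) (pr w y), h1 w b h3 h4, h2 w b h3 h4]
    | smul t x _ hx =>
      intro η hη
      filter_upwards [hx (η / (|t| + 1)) (by positivity)] with a h1 w b h3 h4
      have := h1 w b h3 h4
      rw [le_div_iff₀ (by positivity)] at this
      rw [map_smul, smul_eq_mul, abs_mul]
      nlinarith [abs_nonneg (pr w x)]
  have h0 := lw_pos l
  obtain ⟨v', hv', h2⟩ := Metric.mem_closure_iff.1 hv (lw l * (η / 2)) (by positivity)
  filter_upwards [h1 v' hv' _ (half_pos hη)] with a ha w b h3 h4 h5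
  have h6 := pr_le h3 h4 (VV.sub_mem hv (Submodule.le_topologicalClosure _ hv'))
  rw [dist_eq_norm] at h2
  have h7 := lt_of_mul_lt_mul_left (h6.trans_lt h2) h0.le
  rw [map_sub] at h7
  linarith [abs_sub_abs_le_abs_sub (pr w v) (pr w v'), ha w b h3 h5]

theorem base_good (j : ℕ) {a : H} (ha : ‖a‖ ≤ 1) :
    Der 1 ((1 / 26 : ℝ) • Finsupp.single (.r j) a) ∧
      Fine (sg (.base (.r 0))) ((1 / 26 : ℝ) • Finsupp.single (.r j) a) :=
  ⟨((der_r j ha).smul _).mono (by norm_num [abs_of_pos]),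
    (exists_fine_r.choose_spec j a ha).smul_le (by norm_num [abs_of_pos])⟩

theorem pr_base (j : ℕ) (a : H) (v : Amb) :
    |⟪a, pi (.r j) v⟫_ℝ| = 26 * |pr ((1 / 26 : ℝ) • Finsupp.single (.r j) a) v| := by
  rw [pr_apply, map_smul, pair_single, smul_eq_mul, abs_mul,
    abs_of_pos (by norm_num : (0 : ℝ) < 1 / 26)]
  ring

theorem exists_B : ∃ B : VV →L[ℝ] C0 H, ∀ v j, B v j = pi (.r j) v := by
  have h0 := lw_pos (.base (.r 0))
  have h1 : ∀ v : VV, Tendsto (fun j => ‖pi (.r j) v‖) atTop (𝓝 0) := fun v => by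
    refine tendsto_order.2 ⟨fun a ha => Eventually.of_forall fun j =>
      ha.trans_le (norm_nonneg _), fun η hη => ?_⟩
    filter_upwards [tail_small (.base (.r 0)) v.2 (by positivity : 0 < η / 27)] with j hj
    refine (norm_le_of_unit (C := 26 * (η / 27)) fun a ha => ?_).trans_lt (by linarith)
    rw [pr_base]
    gcongr
    exact hj _ j (base_good j ha).1 (base_good j ha).2 ((supp_single _ _).smul _)
  let B : VV →ₗ[ℝ] C0 H := ⟨⟨fun v => C0.mk _ (h1 v), fun _ _ => C0.ext fun _ => by simp⟩,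
    fun _ _ => C0.ext fun _ => by simp⟩
  refine ⟨B.mkContinuous (26 / lw (.base (.r 0))) fun v => C0.norm_le (by positivity) fun j =>
    norm_le_of_unit fun a ha => ?_, fun _ _ => rfl⟩
  have := pr_le (base_good j ha).1 (base_good j ha).2 v.2
  change |⟪a, pi (.r j) v⟫_ℝ| ≤ _ * ‖(v : Amb)‖
  rw [pr_base, div_mul_eq_mul_div, le_div_iff₀ h0]
  linarith

theorem exists_equiv : ∃ (g : C0 ℝ × VV → VV) (c C : ℝ), Function.Bijective g ∧
    0 < c ∧ c ≤ C ∧ ∀ x x', c * ‖x - x'‖ ≤ ‖g x - g x'‖ ∧ ‖g x - g x'‖ ≤ C * ‖x - x'‖ := by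
  obtain ⟨B, hB⟩ := exists_B
  let K : C0 ℝ × C0 H → C0 H := fun h => C0.mk (fun i => cons (h.1 i, h.2 i))
    (squeeze_zero (fun _ => norm_nonneg _) (fun _ => norm_cons_le _)
      (by simpa using h.1.tendsto.add h.2.tendsto))
  have k1 : ∀ h h', ‖K h - K h'‖ ≤ 2 * ‖h - h'‖ := fun h h' =>
    C0.norm_le (by positivity) fun i => by
      change ‖cons _ - cons _‖ ≤ _
      rw [← map_sub]
      have a1 := ((h - h').1.le_norm i).trans (norm_fst_le _)
      have a2 := ((h - h').2.le_norm i).trans (norm_snd_le _)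
      exact (norm_cons_le _).trans ((add_le_add a1 a2).trans_eq (by ring))
  have k2 : ∀ h h', ‖h - h'‖ ≤ ‖K h - K h'‖ := fun h h' =>
    norm_prod_le_iff.2 ⟨C0.norm_le (norm_nonneg _) fun i => by
      simpa [K] using (abs_hd_le _).trans ((K h - K h').le_norm i),
      C0.norm_le (norm_nonneg _) fun i => by
        simpa [K] using (norm_tl_le _).trans ((K h - K h').le_norm i)⟩
  have e : ∀ h j, (h.2 + B ⟨Jh (K h), Jh_mem _⟩) j = tl (K h j) + J (.r j) (zeta (K h)) :=
    fun h j => by simp [hB, pi_Jh, K]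
  have hs : 0 ≤ ∑' l, lw l := tsum_nonneg fun l => (lw_pos l).le
  refine absorb (fun h => ⟨Jh (K h), Jh_mem _⟩) B (C := 4 * (∑' l, lw l) + 31) (by positivity)
    (fun h h' => ?_) (fun h h' => ?_) fun y => ?_
  · refine (lip_Jh _ _).trans ?_
    nlinarith [mul_le_mul_of_nonneg_left (k1 h h') hs, norm_nonneg (h - h')]
  · refine (k2 h h').trans ((anti_Phi fun j => ?_).trans
      (mul_le_mul_of_nonneg_right (by linarith) (norm_nonneg _)))
    rw [← e, ← e, ← C0.sub_apply]
    exact C0.le_norm _ j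
  · obtain ⟨k, hk⟩ := surj_Phi y
    let h : C0 ℝ × C0 H := (C0.mk (fun i => hd (k i))
      (squeeze_zero (fun _ => norm_nonneg _) (fun _ => abs_hd_le _) k.tendsto),
      C0.mk (fun i => tl (k i))
      (squeeze_zero (fun _ => norm_nonneg _) (fun _ => norm_tl_le _) k.tendsto))
    have : K h = k := C0.ext fun i => cons_hd_tl _
    exact ⟨h, C0.ext fun j => by rw [e, this, hk]⟩

end Vale.Agent.P124
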