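import Vale.Agent.P124.Base

/-! One step of the construction: cutting off and killing a localized function. -/

namespace Vale.Agent.P124

open scoped InnerProductSpace Topology
open Filter

/-- The state `x` is close to the sequence `l` on the first places. -/
def Near (l : ℕ → H) (n : ℕ) (x : Z) : Prop := ∀ i ≤ n, ‖x i - l i‖ ≤ 1 / ((n : ℝ) + 1)

theorem Near.mono {l : ℕ → H} {n n' : ℕ} {x : Z} (h : Near l n' x) (hn : n ≤ n') : Near l n x :=
  fun i hi => (h i (hi.trans hn)).trans (Nat.one_div_le_one_div hn)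

theorem eventually_near (m : ℕ) {γ : ℝ} (hγ : 0 < γ) :
    ∀ᶠ n in atTop, ∀ l x, Near l n x → ∀ i ≤ m, ‖x i - l i‖ < γ := by
  filter_upwards [eventually_ge_atTop m,
    tendsto_one_div_add_atTop_nhds_zero_nat.eventually (gt_mem_nhds hγ)] with n h1 h2 l x h i hi
  exact (h i (hi.trans h1)).trans_lt h2

theorem eventually_not_near {l l' : ℕ → H} (h : l ≠ l') :
    ∀ᶠ n in atTop, ∀ x, Near l n x → ¬ Near l' n x := by
  obtain ⟨i, hi⟩ := Function.ne_iff.1 h
  have h0 : 0 < ‖l i - l' i‖ / 2 := half_pos (norm_pos_iff.2 (sub_ne_zero.2 hi))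
  filter_upwards [eventually_near i h0] with n hn x h1 h2
  have a1 := hn l x h1 i le_rfl
  have a2 := hn l' x h2 i le_rfl
  have := norm_sub_le_norm_sub_add_norm_sub (l i) (x i) (l' i)
  rw [norm_sub_rev (l i) (x i)] at this
  linarith

theorem classify (l : ℕ → H) : ∀ᶠ a in atTop,
    (∃ z : Z, Om z ∧ (∀ i, z i = l i) ∧ (Tendsto (fun m => tau m z) atTop (𝓝 0) ∨
      ∀ m, tau a z < 2 * tau m z)) ∨
    ∀ ε, 0 < ε → ∀ᶠ n in atTop, ∀ x, Om x → Near l n x → tau a x < ε := by
  by_cases h : ∀ i, 0 < hd (l i) ∧ hd (l (i + 1)) ≤ hd (l i) ∧ ‖tl (l i)‖ ≤ hd (l i)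
  · have h1 : Antitone fun i => hd (l i) := antitone_nat_of_succ_le fun i => (h i).2.1
    let z : Z := Z.mk l (2 * hd (l 0)) fun i => by
      have := norm_le_hd_tl (l i)
      rw [abs_of_pos (h i).1] at this
      linarith [(h i).2.2, h1 (Nat.zero_le i)]
    have hb : BddBelow (Set.range fun i => hd (l i)) := ⟨0, by rintro _ ⟨i, rfl⟩; exact (h i).1.le⟩
    have h2 := tendsto_atTop_ciInf h1 hb
    rcases (le_ciInf fun i => (h i).1.le : 0 ≤ ⨅ i, hd (l i)).eq_or_lt with h0 | h0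
    · exact Eventually.of_forall fun a => Or.inl ⟨z, h, fun _ => rfl, Or.inl (h0 ▸ h2)⟩
    · filter_upwards [h2.eventually (gt_mem_nhds (by linarith : ⨅ i, hd (l i) < 2 * ⨅ i, hd (l i)))]
        with a ha
      refine Or.inl ⟨z, h, fun _ => rfl, Or.inr fun m => ha.trans_le ?_⟩
      exact mul_le_mul_of_nonneg_left (ciInf_le hb m) zero_le_two
  · obtain ⟨i, hi⟩ := not_forall.1 h
    filter_upwards [eventually_ge_atTop i] with a ha
    refine Or.inr fun ε hε => ?_
    have e : ∀ (x : Z) j, |tau j x - hd (l j)| ≤ ‖x j - l j‖ := fun x j => by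
      simpa [tau_apply] using abs_hd_le (x j - l j)
    by_cases h1 : 0 < hd (l i)
    · by_cases h2 : hd (l (i + 1)) ≤ hd (l i)
      · have h3 : 0 < (‖tl (l i)‖ - hd (l i)) / 2 := by
          have := not_le.1 fun h3 => hi ⟨h1, h2, h3⟩
          linarith
        filter_upwards [eventually_near i h3] with n hn x hx h4
        have a1 := hn l x h4 i le_rfl
        have a2 := norm_tl_le (x i - l i)
        have a3 := norm_sub_norm_le (tl (l i)) (tl (x i))
        rw [map_sub, norm_sub_rev] at a2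
        linarith [abs_le.1 (e x i), (hx i).2.2]
      · have h3 : 0 < (hd (l (i + 1)) - hd (l i)) / 2 := by linarith
        filter_upwards [eventually_near (i + 1) h3] with n hn x hx h4
        linarith [hn l x h4 i (Nat.le_succ _), hn l x h4 _ le_rfl, abs_le.1 (e x i),
          abs_le.1 (e x (i + 1)), (hx i).2.1]
    · filter_upwards [eventually_near i hε] with n hn x hx h4
      linarith [hn l x h4 i le_rfl, abs_le.1 (e x i), hx.anti ha]

theorem Loc.exists_lower {w : Co →₀ H} {a b : ℕ} {σ : ℝ → ℕ} (h : Loc w a b σ) {t : ℝ}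
    (ht : 0 < t) : ∃ ε, 0 < ε ∧ ∀ x, Om x → tau a x < ε → act w a x ≤ t := by
  obtain ⟨s, -, h1, h2⟩ := h t ht
  have : ∀ᶠ ε in 𝓝[>] (0 : ℝ), ∀ q ∈ s, σ t * ε < q.2 := by
    refine (eventually_all_finset s).2 fun q hq => Eventually.filter_mono nhdsWithin_le_nhds ?_
    exact (continuous_const.mul continuous_id).continuousAt.eventually
      (gt_mem_nhds (by simpa using h1 q hq))
  obtain ⟨ε, h3, h4⟩ := (this.and self_mem_nhdsWithin).exists
  refine ⟨ε, h4, fun x hx h5 => not_lt.1 fun h6 => ?_⟩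
  obtain ⟨q, hq, i, h7, -, h8⟩ := h2 x hx h6
  have : (σ t : ℝ) * tau i x ≤ σ t * ε := by gcongr; linarith [hx.anti h7]
  linarith [h3 q hq, h8.2.1]

theorem eventually_DF_small {w : Co →₀ H} {a m : ℕ} (hw : Supp w a m) {z : Z} (hz : Om z)
    (h : DF w z = 0) {l : ℕ → H} (hl : ∀ i, z i = l i) {δ : ℝ} (hδ : 0 < δ) :
    ∀ᶠ n in atTop, ∀ x, Near l n x → ‖DF w x‖ ≤ δ := by
  have h1 : ContinuousAt (DF w) z := (contDiffAt_F w hz).continuousAt_fderiv one_ne_zero
  obtain ⟨γ, hγ, h2⟩ := Metric.continuousAt_iff.1 h1 δ hδ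
  filter_upwards [eventually_near m (half_pos hγ)] with n hn x hx
  rw [DF_congr hw (y := mix (m + 1) x z) fun i hi => by simp [mix_apply, Nat.lt_succ_of_le hi]]
  have h3 : ‖mix (m + 1) x z - z‖ ≤ γ / 2 := Z.norm_le (half_pos hγ).le fun i => by
    rw [Z.sub_apply, mix_apply]
    split_ifs with hi
    · rw [hl]; exact (hn l x hx i (Nat.lt_succ_iff.1 hi)).le
    · simpa using (half_pos hγ).le
  have := h2 (x := mix (m + 1) x z) (by rw [dist_eq_norm]; linarith)
  rw [h, dist_zero_right] at this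
  exact this.le

theorem near_of_yy {x : Z} {l : ℕ → H} {y : H} {n m : ℕ} (hm : n < m) (hl : ∀ i ≤ n, P i y = wt i • l i)
    (h : ‖yy m x - y‖ ≤ wt n / (n + 1)) : Near l n x := fun i hi => by
  have h1 := (norm_P_le i _).trans h
  rw [map_sub, P_yy, if_pos (hi.trans_lt hm), hl i hi, ← smul_sub, norm_smul,
    Real.norm_of_nonneg (wt_pos i).le] at h1
  refine le_of_mul_le_mul_left (h1.trans ?_) (wt_pos i)
  rw [mul_one_div]
  gcongr
  exact wt_anti hi

theorem exists_step (σ : ℝ → ℕ) {δ : ℝ} (hδ : 0 < δ) (S : ℕ) : ∃ (C : ℝ) (σ' : ℝ → ℕ), 0 ≤ C ∧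
    ∀ Λ : Finset (ℕ → H), Λ.card ≤ S → ∀ᶠ a in atTop, ∀ (w : Co →₀ H) (b n : ℕ), Supp w a b →
      Der 1 w → Fine σ w → ∃ (t : Co →₀ H) (m n' : ℕ), a ≤ m ∧ b ≤ m ∧ Supp t a m ∧
        restr a b t = w ∧ Der C t ∧ Fine σ' t ∧
        (∀ l ∈ Λ, ∀ x, Om x → Near l n' x → ‖DF t x‖ ≤ (Cm + 2) * δ) ∧
        ∀ x, Om x → ‖DF t x‖ ≤ (Cm + 2) * δ ∨ (∃ l ∈ Λ, Near l n x) ∨
          (2 * tau m x ≤ tau a x ∧ δ < act w a x) := by
  classical
  have hC := one_le_Cm
  set B := 1 + Cm * 3 with hB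
  have hB0 : 0 < B := by positivity
  let σk : ℝ → ℕ := fun t => ⌈210 * B / t⌉₊ + ⌈2 * B⌉₊ + 1
  obtain ⟨σs, hσs⟩ := exists_fine_sum σk S
  refine ⟨B + S * (105 * B), fun t => (σ (t / 2 / 2) + 4 * σ (t / 2 / 2 / Cm)) + σs (t / 2),
    by positivity, fun Λ hΛ => ?_⟩
  filter_upwards [(eventually_all_finset Λ).2 fun l _ => classify l] with a ha w b n hw hd hf
  have : Nonempty Z := ⟨0⟩
  choose! z hz using fun (l : ℕ → H) (h : ∃ z : Z, Om z ∧ (∀ i, z i = l i) ∧
    (Tendsto (fun m => tau m z) atTop (𝓝 0) ∨ ∀ m, tau a z < 2 * tau m z)) => h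
  obtain ⟨n₁, hn₁, hsep⟩ := ((eventually_ge_atTop n).and ((eventually_all_finset Λ).2
    fun l _ => (eventually_all_finset (Λ.erase l)).2 fun l' hl' =>
      eventually_not_near (Finset.ne_of_mem_erase hl').symm)).exists
  let D := 210 * B * (S + 1) / δ
  have hD : 0 < D := by positivity
  have hm : ∀ᶠ m in atTop, ∀ l ∈ Λ, Tendsto (fun m => tau m (z l)) atTop (𝓝 0) →
      D * tau m (z l) ≤ wt n₁ / (n₁ + 1) := (eventually_all_finset Λ).2 fun l _ => by
    by_cases h : Tendsto (fun m => tau m (z l)) atTop (𝓝 0)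
    · have := wt_pos n₁
      exact ((h.const_mul D).eventually (ge_mem_nhds (by rw [mul_zero]; positivity))).mono
        fun _ h1 _ => h1
    · exact Eventually.of_forall fun _ h1 => (h h1).elim
  obtain ⟨m, hm, ham, hbm, hnm⟩ := (hm.and ((eventually_ge_atTop a).and
    ((eventually_gt_atTop b).and (eventually_gt_atTop n₁)))).exists
  set G := w + (-1 : ℝ) • mulc w a m with hG
  have sG : Supp G a m := (hw.mono le_rfl hbm.le).add (((supp_mulc w a m).mono ham le_rfl).smul _)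
  have dG : Der B G := by simpa [hG, hB] using hd.add ((der_mulc hw hbm ham hd).smul (-1))
  have aG : ∀ x, Om x → act w a x ≤ δ → ‖DF G x‖ ≤ (Cm + 1) * δ := fun x hx h => by
    rw [hG, DF_add _ _ hx, DF_smul _ _ hx]
    refine (norm_add_le_of_le ((norm_DF_le_act w a hx).trans h)
      (r₂ := Cm * δ) ?_).trans (le_of_eq (by ring))
    rw [norm_smul, norm_neg, norm_one, one_mul]
    exact (norm_DF_le_act _ m hx).trans ((act_mulc hw hbm ham hx).trans (by gcongr))
  have hk : ∀ l ∈ Λ, ∃ k : Co →₀ H, Supp k m m ∧ Der (105 * B) k ∧ Fine σk k ∧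
      (∀ x, Om x → Near l n₁ x ∨ ‖DF k x‖ ≤ δ / (S + 1)) ∧
      ∀ᶠ n' in atTop, ∀ x, Om x → Near l n' x → ‖DF (G + k) x‖ ≤ (Cm + 1) * δ := fun l hl => by
    rcases ha l hl with h | h
    · obtain ⟨z1, z2, z3⟩ := hz l h
      obtain ⟨k, k1, k2, k3, k4, k5⟩ := exists_kill sG z1
      have b1 := dG.self z1
      refine ⟨k, k1, k1.der fun x hx => (norm_DF_le_act _ m hx).trans ((k4 x hx).trans (by gcongr)),
        k1.fine (fun c => (k2 c).trans ?_) fun t ht => ⟨{(yy m (z l), tau m (z l))}, by simp [σk],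
          by simpa using z1.pos m, fun x hx h1 => ⟨_, Finset.mem_singleton_self _, m, le_rfl,
            le_rfl, ?_⟩⟩, fun x hx => ?_, ?_⟩
      · have := Nat.le_ceil (2 * B)
        simp only [σk, div_zero, Nat.ceil_zero, zero_add, Nat.cast_add, Nat.cast_one]
        linarith
      · have b2 : 210 * B / t < σk t := by
          have := Nat.le_ceil (210 * B / t)
          have : (0 : ℝ) ≤ ⌈2 * B⌉₊ := Nat.cast_nonneg _
          simp only [σk, Nat.cast_add, Nat.cast_one]
          linarith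
        have b3 : (0 : ℝ) < σk t := lt_trans (by positivity) b2
        refine (k5 _ b3 x hx).resolve_right (not_le.2 (lt_of_le_of_lt ?_ h1))
        rw [div_lt_iff₀ ht] at b2
        rw [div_le_iff₀ b3]
        nlinarith
      · rcases z3 with z3 | z3
        · refine (k5 D hD x hx).imp (fun h1 => ?_) fun h1 => ?_
          · refine near_of_yy hnm (fun i hi => ?_) (h1.1.trans (hm l hl z3))
            rw [P_yy, if_pos (hi.trans_lt hnm), z2]
          · refine (norm_DF_le_act _ m hx).trans (h1.trans ?_)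
            calc _ ≤ 210 * B / D := by gcongr
              _ = _ := by simp only [D]; field_simp
        · have := k4 x hx
          rw [DF_sub_mulc hw hbm z1 (z3 m), norm_zero, mul_zero] at this
          exact Or.inr ((norm_DF_le_act _ m hx).trans (this.trans (by positivity)))
      · exact (eventually_DF_small (sG.add (k1.mono ham le_rfl)) z1 k3 z2
          (by positivity : 0 < (Cm + 1) * δ)).mono fun _ h _ _ => h _
    · have h0 := hf.2 a b
      rw [hw.restr_self le_rfl le_rfl] at h0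
      obtain ⟨ε, hε, h1⟩ := h0.exists_lower hδ
      refine ⟨0, fun _ h => (h rfl).elim, fun a b x _ => ?_, fine_zero _,
        fun x _ => Or.inr (by simp; positivity), (h ε hε).mono fun n' h2 x hx h3 => ?_⟩
      · rw [restr, Finsupp.filter_zero, DF_zero, norm_zero]; positivity
      · rw [add_zero]; exact aG x hx (h1 x hx (h2 x hx h3))
  choose! k k1 k2 k3 k4 k5 using hk
  have hsum : ∀ s ⊆ Λ, ∀ x, Om x → (∀ l ∈ s, ¬ Near l n₁ x) → ‖DF (∑ l ∈ s, k l) x‖ ≤ δ :=
    fun s hs x hx h => by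
    rw [DF_sum _ _ hx]
    refine (norm_sum_le_of_le _ fun l hl => (k4 l (hs hl) x hx).resolve_left (h l hl)).trans ?_
    have : (s.card : ℝ) ≤ S + 1 := by
      exact_mod_cast (Finset.card_le_card hs).trans (hΛ.trans (Nat.le_succ _))
    rw [Finset.sum_const, nsmul_eq_mul, mul_div_assoc', div_le_iff₀ (by positivity)]
    nlinarith
  obtain ⟨n', hn', h5⟩ := ((eventually_ge_atTop n₁).and ((eventually_all_finset Λ).2 k5)).exists
  have sk := Supp.sum k1
  refine ⟨G + ∑ l ∈ Λ, k l, m, n', ham, hbm.le, sG.add (sk.mono ham le_rfl), ?_,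
    (dG.add (Der.sum k2)).mono (by gcongr), (hf.add ((fine_mulc hw hbm ham hf).smul_le
      (by simp))).add (hσs _ _ hΛ k3), fun l hl x hx h => ?_, fun x hx => ?_⟩
  · rw [restr_add, hG, restr_add, sk.restr_zero (Or.inl hbm),
      ((supp_mulc w a m).smul _).restr_zero (Or.inl hbm), hw.restr_self le_rfl le_rfl]
    simp
  · rw [← Finset.add_sum_erase _ _ hl, ← add_assoc, DF_add _ _ hx]
    refine (norm_add_le_of_le (h5 l hl x hx h) (hsum _ (Finset.erase_subset _ _) x hx
      fun l' hl' => hsep l hl l' hl' x (h.mono hn'))).trans (le_of_eq (by ring))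
  · by_cases h : ∃ l ∈ Λ, Near l n₁ x
    · obtain ⟨l, hl, h⟩ := h
      exact Or.inr (Or.inl ⟨l, hl, h.mono hn₁⟩)
    · push Not at h
      have b1 := hsum Λ subset_rfl x hx h
      have b2 : ‖DF G x‖ ≤ (Cm + 1) * δ → ‖DF (G + ∑ l ∈ Λ, k l) x‖ ≤ (Cm + 2) * δ := fun h => by
        rw [DF_add _ _ hx]
        exact (norm_add_le_of_le h b1).trans (le_of_eq (by ring))
      by_cases h1 : act w a x ≤ δ
      · exact Or.inl (b2 (aG x hx h1))
      · by_cases h2 : tau a x < 2 * tau m x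
        · refine Or.inl (b2 ?_)
          rw [DF_sub_mulc hw hbm hx h2, norm_zero]; positivity
        · exact Or.inr (Or.inr ⟨not_lt.1 h2, not_le.1 h1⟩)

end Vale.Agent.P124
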